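import Vale.Agent.P202G.Dep

/-!
P202 in characteristic p, module F6 (helper59), part 2: the pair `R → S` modulo `J`, `J S`.
-/

set_option autoImplicit false

namespace Vale.Agent.P202G

open IsLocalRing Vale.Agent.P202 Filter Topology TensorProduct

universe u v

section Two

variable {R : Type u} {S : Type v} [CommRing R] [CommRing S] [Algebra R S]

theorem dep_flat [Module.Flat R S] (J : Ideal R) :
    Module.Flat (R ⧸ J) (S ⧸ J.map (algebraMap R S)) := by
  let e : ((R ⧸ J) ⊗[R] S) ≃ₗ[R] (S ⧸ J.map (algebraMap R S)) :=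
    TensorProduct.quotTensorEquivQuotSMul S J ≪≫ₗ
      Submodule.quotEquivOfEq _ _ (Ideal.smul_top_eq_map J) ≪≫ₗ
      Submodule.Quotient.restrictScalarsEquiv R (J.map <| algebraMap R S)
  have hsc : IsScalarTower R (R ⧸ J) (S ⧸ J.map (algebraMap R S)) := by
    refine IsScalarTower.of_algebraMap_eq fun x => ?_
    rfl
  have h1 : Module.Flat (R ⧸ J) ((R ⧸ J) ⊗[R] S) := inferInstance
  exact Module.Flat.of_linearEquiv
    (e.extendScalarsOfSurjective Ideal.Quotient.mk_surjective).symm

section Loc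

variable [IsLocalRing R] [IsLocalRing S] [IsLocalHom (algebraMap R S)]

theorem dep_map_le {J : Ideal R} (hJ : J ≠ ⊤) : J.map (algebraMap R S) ≤ maximalIdeal S :=
  (Ideal.map_mono (IsLocalRing.le_maximalIdeal hJ)).trans map_maximalIdeal_le

theorem dep_map_ne_top {J : Ideal R} (hJ : J ≠ ⊤) : J.map (algebraMap R S) ≠ ⊤ := by
  intro h
  have h1 := dep_map_le (S := S) hJ
  rw [h] at h1
  exact (Ideal.IsPrime.ne_top inferInstance) (top_le_iff.1 h1)

theorem dep_localHom {J : Ideal R} (hJ : J ≠ ⊤) :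
    IsLocalHom (algebraMap (R ⧸ J) (S ⧸ J.map (algebraMap R S))) := by
  refine ⟨fun a ha => ?_⟩
  obtain ⟨r, rfl⟩ := Ideal.Quotient.mk_surjective a
  have h1 : IsUnit (Ideal.Quotient.mk (J.map (algebraMap R S)) (algebraMap R S r)) := ha
  by_contra hcon
  have hr : r ∈ maximalIdeal R := by
    by_contra hr
    exact hcon ((IsLocalRing.notMem_maximalIdeal.1 hr).map _)
  have hr2 : algebraMap R S r ∈ maximalIdeal S :=
    map_maximalIdeal_le (Ideal.mem_map_of_mem _ hr)
  obtain ⟨c, hc⟩ := h1.exists_right_inv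
  obtain ⟨t, rfl⟩ := Ideal.Quotient.mk_surjective c
  rw [← map_mul, ← map_one (Ideal.Quotient.mk (J.map (algebraMap R S))), Ideal.Quotient.eq] at hc
  have h3 : (1 : S) ∈ maximalIdeal S := by
    have h4 : (1 : S) = algebraMap R S r * t - (algebraMap R S r * t - 1) := by ring
    rw [h4]
    exact Ideal.sub_mem _ (Ideal.mul_mem_right _ _ hr2) (dep_map_le (S := S) hJ hc)
  exact (Ideal.ne_top_iff_one _).1 (Ideal.IsPrime.ne_top inferInstance) h3

omit [IsLocalRing S] [IsLocalHom (algebraMap R S)] in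
/-- the fibre does not change -/
theorem dep_fibre {J : Ideal R} (hJ : J ≠ ⊤) [IsLocalRing (R ⧸ J)]
    (hart : IsArtinianRing (S ⧸ (maximalIdeal R).map (algebraMap R S))) :
    IsArtinianRing ((S ⧸ J.map (algebraMap R S)) ⧸
      (maximalIdeal (R ⧸ J)).map (algebraMap (R ⧸ J) (S ⧸ J.map (algebraMap R S)))) := by
  have hle : (maximalIdeal R).map (algebraMap R S) ≤
      RingHom.ker ((Ideal.Quotient.mk ((maximalIdeal (R ⧸ J)).map
        (algebraMap (R ⧸ J) (S ⧸ J.map (algebraMap R S))))).comp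
          (Ideal.Quotient.mk (J.map (algebraMap R S)))) := by
    rw [Ideal.map_le_iff_le_comap]
    intro r hr
    rw [Ideal.mem_comap, RingHom.mem_ker, RingHom.comp_apply, Ideal.Quotient.eq_zero_iff_mem]
    have h1 : Ideal.Quotient.mk J r ∈ maximalIdeal (R ⧸ J) := by
      rw [dep_max J hJ]
      exact Ideal.mem_map_of_mem _ hr
    exact Ideal.mem_map_of_mem (algebraMap (R ⧸ J) (S ⧸ J.map (algebraMap R S))) h1
  have hs : Function.Surjective (Ideal.Quotient.lift ((maximalIdeal R).map (algebraMap R S))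
      ((Ideal.Quotient.mk ((maximalIdeal (R ⧸ J)).map
        (algebraMap (R ⧸ J) (S ⧸ J.map (algebraMap R S))))).comp
          (Ideal.Quotient.mk (J.map (algebraMap R S)))) (fun a ha => hle ha)) :=
    Ideal.Quotient.lift_surjective_of_surjective _ _
      (Ideal.Quotient.mk_surjective.comp Ideal.Quotient.mk_surjective)
  exact hs.isArtinianRing

omit [IsLocalHom (algebraMap R S)] in
theorem dep_map_pow {J : Ideal R} {s K : ℕ} (hs : maximalIdeal R ^ s * J ≤ ⊥)
    (hK : maximalIdeal S ^ K ≤ (maximalIdeal R).map (algebraMap R S)) :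
    maximalIdeal S ^ (K * s) * J.map (algebraMap R S) ≤ ⊥ := by
  have h1 : maximalIdeal S ^ (K * s) ≤ (maximalIdeal R ^ s).map (algebraMap R S) := by
    rw [pow_mul, Ideal.map_pow]
    exact Ideal.pow_right_mono hK s
  refine (Ideal.mul_mono_left h1).trans ?_
  rw [← Ideal.map_mul]
  have h2 := Ideal.map_mono (f := algebraMap R S) hs
  rwa [Ideal.map_bot] at h2

end Loc

end Two

section CharP

variable {R : Type u} [CommRing R]

theorem dep_charP (p : ℕ) [hp : Fact p.Prime] [CharP R p] {J : Ideal R} (hJ : J ≠ ⊤) :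
    CharP (R ⧸ J) p := by
  have : Nontrivial (R ⧸ J) := Ideal.Quotient.nontrivial_iff.2 hJ
  rw [CharP.charP_iff_prime_eq_zero hp.1]
  have h1 : ((p : ℕ) : R ⧸ J) = Ideal.Quotient.mk J (p : R) := by rw [map_natCast]
  rw [h1, CharP.cast_eq_zero, map_zero]

theorem dep_frob (p : ℕ) [Fact p.Prime] [CharP R p] {J : Ideal R} [CharP (R ⧸ J) p]
    (h : (frobenius R p).Finite) : (frobenius (R ⧸ J) p).Finite := by
  have h1 : (frobenius (R ⧸ J) p).comp (Ideal.Quotient.mk J) =
      (Ideal.Quotient.mk J).comp (frobenius R p) := by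
    ext x
    rw [RingHom.comp_apply, RingHom.comp_apply, frobenius_def, frobenius_def, map_pow]
  refine RingHom.Finite.of_comp_finite (f := Ideal.Quotient.mk J) ?_
  rw [h1]
  exact (RingHom.Finite.of_surjective _ Ideal.Quotient.mk_surjective).comp h

end CharP

section Main

/-- **F6: reduction to positive depth** (for the core inequality in characteristic `p`) -/
theorem dep_reduction (p : ℕ) [Fact p.Prime]
    (core : ∀ (R : Type u) (S : Type v) [CommRing R] [IsLocalRing R] [IsNoetherianRing R]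
      [CharP R p] [CommRing S] [IsLocalRing S] [IsNoetherianRing S] [Algebra R S]
      [Module.Flat R S] [IsLocalHom (algebraMap R S)],
      (frobenius R p).Finite →
      IsArtinianRing (S ⧸ (maximalIdeal R).map (algebraMap R S)) →
      1 ≤ ringKrullDim R → (∃ x ∈ maximalIdeal R, x ∈ nonZeroDivisors R) →
      Infinite (ResidueField R) →
      ∀ e e' : ℝ, HasMult R e → HasMult S e' → e ≤ e')
    (R : Type u) (S : Type v) [CommRing R] [IsLocalRing R] [IsNoetherianRing R]
    [CharP R p] [CommRing S] [IsLocalRing S] [IsNoetherianRing S] [Algebra R S]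
    [Module.Flat R S] [IsLocalHom (algebraMap R S)]
    (hF : (frobenius R p).Finite)
    (hart : IsArtinianRing (S ⧸ (maximalIdeal R).map (algebraMap R S)))
    (hD : 1 ≤ ringKrullDim R) (hinf : Infinite (ResidueField R)) (e e' : ℝ)
    (he : HasMult R e) (he' : HasMult S e') : e ≤ e' := by
  obtain ⟨s, hs⟩ := exists_sat_pow (⊥ : Ideal R)
  have hJ : sat (⊥ : Ideal R) ≠ ⊤ := dep_ne_top hs hD
  obtain ⟨K, hK⟩ := exists_pow_le_fibre (R := R) (S := S) hart
  have hs' := dep_map_pow (S := S) hs hK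
  have hJ' : (sat (⊥ : Ideal R)).map (algebraMap R S) ≠ ⊤ := dep_map_ne_top (S := S) hJ
  have hD' : 1 ≤ ringKrullDim S := by
    rw [dim_eq (R := R) (S := S) hart]
    exact hD
  have : Nontrivial (R ⧸ sat (⊥ : Ideal R)) := Ideal.Quotient.nontrivial_iff.2 hJ
  have : Nontrivial (S ⧸ (sat (⊥ : Ideal R)).map (algebraMap R S)) :=
    Ideal.Quotient.nontrivial_iff.2 hJ'
  have : IsLocalRing (R ⧸ sat (⊥ : Ideal R)) :=
    IsLocalRing.of_surjective' (Ideal.Quotient.mk (sat (⊥ : Ideal R))) Ideal.Quotient.mk_surjective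
  have : IsLocalRing (S ⧸ (sat (⊥ : Ideal R)).map (algebraMap R S)) :=
    IsLocalRing.of_surjective' (Ideal.Quotient.mk ((sat (⊥ : Ideal R)).map (algebraMap R S)))
      Ideal.Quotient.mk_surjective
  have := dep_charP p hJ
  have := dep_flat (S := S) (sat (⊥ : Ideal R))
  have := dep_localHom (S := S) hJ
  have hres : Infinite (ResidueField (R ⧸ sat (⊥ : Ideal R))) := by
    have hloc : IsLocalHom (Ideal.Quotient.mk (sat (⊥ : Ideal R))) :=
      IsLocalHom.of_surjective _ Ideal.Quotient.mk_surjective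
    exact Infinite.of_injective (ResidueField.map (Ideal.Quotient.mk (sat (⊥ : Ideal R))))
      (RingHom.injective _)
  refine core (R ⧸ sat (⊥ : Ideal R)) (S ⧸ (sat (⊥ : Ideal R)).map (algebraMap R S))
    (dep_frob p hF) (dep_fibre hJ hart) ?_ (dep_nzd hJ) hres e e'
    ((dep_hasMult hs hD e).1 he) ((dep_hasMult hs' hD' e').1 he')
  rw [dep_dim hJ hs]
  exact hD

end Main

end Vale.Agent.P202G
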