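import Vale.Agent.P202G.G0
import Vale.Agent.P202C.Hom2

/-!
# P202, stage 2, module GA2: the Cech differential, long exact sequence inequalities
-/

set_option autoImplicit false

namespace Vale.Agent.P202G

open IsLocalRing TensorProduct Vale.Agent.P202C

universe u v w

section GA2
variable (k : Type u) [CommRing k] {n : ℕ}

theorem GA2_dz_apply (f : Xz k n) (τ : Fin n → Fin 3) :
    dz k f τ = ∑ l ∈ Finset.univ.filter (fun l => τ l = 2),
      csg τ l • (f (Function.update τ l 0) - f (Function.update τ l 1)) := rfl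

/-- second differences -/
noncomputable def GA2_dd (f : Xz k n) (τ : Fin n → Fin 3) (l m : Fin n) : Lz k n :=
  (f (Function.update (Function.update τ l 0) m 0) - f (Function.update (Function.update τ l 0) m 1))
    - (f (Function.update (Function.update τ l 1) m 0)
      - f (Function.update (Function.update τ l 1) m 1))

theorem GA2_dd_symm (f : Xz k n) (τ : Fin n → Fin 3) {l m : Fin n} (h : m ≠ l) :
    GA2_dd k f τ l m = GA2_dd k f τ m l := by
  unfold GA2_dd
  rw [Function.update_comm h, Function.update_comm h, Function.update_comm h,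
    Function.update_comm h]
  abel

theorem dz_dz' (x : Xz k n) : dz k (dz k x) = 0 := by
  classical
  funext τ
  rw [GA2_dz_apply]
  have h1 : ∀ l ∈ Finset.univ.filter (fun l => τ l = 2),
      csg τ l • (dz k x (Function.update τ l 0) - dz k x (Function.update τ l 1)) =
      ∑ m ∈ Finset.univ.filter (fun l => τ l = 2),
        if m = l then 0 else (if l < m then -(csg τ l * csg τ m) else csg τ l * csg τ m) •
          GA2_dd k x τ l m := by
    intro l hl
    have hl2 : τ l = 2 := by simpa using hl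
    have h2 : ∀ c : Fin 3, c ≠ 2 → dz k x (Function.update τ l c) =
        ∑ m ∈ Finset.univ.filter (fun l => τ l = 2), if m = l then 0 else
          (if l < m then -csg τ m else csg τ m) •
            (x (Function.update (Function.update τ l c) m 0)
              - x (Function.update (Function.update τ l c) m 1)) := by
      intro c hc
      rw [GA2_dz_apply]
      have h3 : (Finset.univ.filter (fun m => Function.update τ l c m = 2)) =
          (Finset.univ.filter (fun l => τ l = 2)).erase l := by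
        ext m'
        simp only [Finset.mem_filter, Finset.mem_univ, true_and, Finset.mem_erase]
        by_cases h : m' = l
        · subst h
          rw [Function.update_self]
          simp [hc]
        · rw [Function.update_of_ne h]
          simp [h]
      rw [h3, ← Finset.add_sum_erase _ _ hl, if_pos rfl, zero_add]
      refine Finset.sum_congr rfl fun m hm => ?_
      have hm1 := Finset.ne_of_mem_erase hm
      rw [if_neg hm1, csg_update τ hl2 hm1 hc]
    rw [h2 0 (by decide), h2 1 (by decide), ← Finset.sum_sub_distrib, Finset.smul_sum]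
    refine Finset.sum_congr rfl fun m _ => ?_
    by_cases hm : m = l
    · rw [if_pos hm, if_pos hm, if_pos hm, sub_zero, smul_zero]
    · rw [if_neg hm, if_neg hm, if_neg hm, ← smul_sub, smul_smul]
      congr 1
      split_ifs
      · ring
      · ring
  rw [Finset.sum_congr rfl h1, ← Finset.sum_product']
  refine Finset.sum_involution (fun x _ => (x.2, x.1)) ?_ ?_ ?_ ?_
  · rintro ⟨l, m⟩ _
    by_cases hm : m = l
    · simp [hm]
    · have hm' : l ≠ m := fun h => hm h.symm
      simp only [if_neg hm, if_neg hm']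
      rw [GA2_dd_symm k x τ hm]
      rcases lt_or_gt_of_ne hm with h | h
      · rw [if_neg (not_lt.mpr h.le), if_pos h, ← add_smul]
        have : csg τ l * csg τ m + -(csg τ m * csg τ l) = 0 := by ring
        rw [this, zero_smul]
      · rw [if_pos h, if_neg (not_lt.mpr h.le), ← add_smul]
        have : -(csg τ l * csg τ m) + csg τ m * csg τ l = 0 := by ring
        rw [this, zero_smul]
  · rintro ⟨l, m⟩ _ hne heq
    have h3 : m = l := (Prod.mk.inj heq).1
    exact hne (by simp [h3])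
  · rintro ⟨l, m⟩ hx
    simp only [Finset.mem_product] at hx ⊢
    exact ⟨hx.2, hx.1⟩
  · rintro ⟨l, m⟩ _
    rfl

theorem dz_grz' (j : ℤ) {x : Xz k n} (hx : x ∈ grz k j) : dz k x ∈ grz k (j + 1) := by
  intro τ hτ
  rw [GA2_dz_apply]
  refine Finset.sum_eq_zero fun l hl => ?_
  have hl2 : τ l = 2 := by simpa using hl
  have h1 : ∀ c : Fin 3, c ≠ 2 → x (Function.update τ l c) = 0 := by
    intro c hc
    refine hx _ fun h => hτ ?_
    rw [← num2_update τ hl2 hc]
    push_cast
    rw [h]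
  rw [h1 0 (by decide), h1 1 (by decide), sub_zero, smul_zero]

theorem GA2_Bs_update (b : Fin n → ℤ) {τ : Fin n → Fin 3} {l : Fin n} (hl : τ l = 2) (c : Fin 3)
    (s : ℤ) : Bs k b (Function.update τ l c) s ≤ Bs k b τ s := by
  intro f hf m hm
  obtain ⟨h1, h2, h3⟩ := hf m hm
  refine ⟨h1, fun l' hl' => h2 l' ?_, fun l' hl' => h3 l' ?_⟩
  · have hne : l' ≠ l := by
      rintro rfl
      rw [hl] at hl'
      exact absurd hl' (by decide)
    rw [Function.update_of_ne hne]
    exact hl'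
  · have hne : l' ≠ l := by
      rintro rfl
      rw [hl] at hl'
      exact absurd hl' (by decide)
    rw [Function.update_of_ne hne]
    exact hl'

theorem GA2_IB_update (I : Ideal (Pz k n)) (b : Fin n → ℤ) {τ : Fin n → Fin 3} {l : Fin n}
    (hl : τ l = 2) (c : Fin 3) (s : ℤ) : IB k I b (Function.update τ l c) s ≤ IB k I b τ s := by
  refine Submodule.span_mono ?_
  rintro x ⟨j, f, β, h1, h2, h3, h4⟩
  exact ⟨j, f, β, h1, h2, GA2_Bs_update k b hl c _ h3, h4⟩

theorem dz_FB' (I : Ideal (Pz k n)) (b : Fin n → ℤ) (s : ℤ) {x : Xz k n} (hx : x ∈ FB k I b s) :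
    dz k x ∈ FB k I b s := by
  intro τ
  rw [GA2_dz_apply]
  refine Submodule.sum_mem _ fun l hl => ?_
  have hl2 : τ l = 2 := by simpa using hl
  refine zsmul_mem ?_ _
  exact Submodule.sub_mem _ (GA2_IB_update k I b hl2 0 s (hx _)) (GA2_IB_update k I b hl2 1 s (hx _))

theorem Hz_out' (I J : Ideal (Pz k n)) (b : Fin n → ℤ) (s j : ℤ) (hj : j < 0 ∨ (n : ℤ) < j) :
    Hz k I J b s j = 0 := by
  have hgr : ∀ x ∈ grz k (n := n) j, x = 0 := by
    intro x hx
    funext τ
    refine hx τ fun h => ?_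
    have h1 : num2 τ ≤ n := by
      unfold num2
      refine (Finset.card_filter_le _ _).trans ?_
      simp
    omega
  unfold Hz rlen
  rw [Module.length_eq_zero_iff]
  refine ⟨fun p q => ?_⟩
  obtain ⟨x, rfl⟩ := Submodule.Quotient.mk_surjective _ p
  obtain ⟨y, rfl⟩ := Submodule.Quotient.mk_surjective _ q
  have hx : x = 0 := Subtype.ext (hgr _ x.2.1.1)
  have hy : y = 0 := Subtype.ext (hgr _ y.2.1.1)
  rw [hx, hy]

theorem GA2_IB_mono {I J : Ideal (Pz k n)} (h : I ≤ J) (b : Fin n → ℤ) (τ : Fin n → Fin 3)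
    (s : ℤ) : IB k I b τ s ≤ IB k J b τ s := by
  refine Submodule.span_mono ?_
  rintro x ⟨j, f, β, h1, h2, h3, h4⟩
  exact ⟨j, f, β, h h1, h2, h3, h4⟩

/-- the families of submodules -/
noncomputable def GA2_fam (I : Ideal (Pz k n)) (b : Fin n → ℤ) (s : ℤ) (m : ℤ) :
    Submodule k (Xz k n) := grz k (-m) ⊓ FB k I b s

theorem GA2_fam_cx (I : Ideal (Pz k n)) (b : Fin n → ℤ) (s : ℤ) :
    HC.IsCx (dz k) (GA2_fam k I b s) := by
  intro m
  rintro _ ⟨x, hx, rfl⟩
  refine ⟨?_, dz_FB' k I b s hx.2⟩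
  have h := dz_grz' k (-m) hx.1
  have h2 : -(m - 1) = -m + 1 := by ring
  rw [h2]
  exact h

theorem GA2_fam_mono {I J : Ideal (Pz k n)} (h : I ≤ J) (b : Fin n → ℤ) (s : ℤ) :
    GA2_fam k I b s ≤ GA2_fam k J b s := fun m =>
  inf_le_inf_left _ fun _ hx τ => GA2_IB_mono k h b τ s (hx τ)

theorem GA2_Hz_eq (I J : Ideal (Pz k n)) (b : Fin n → ℤ) (s j : ℤ) :
    Hz k I J b s j = HC.hl (dz k) (GA2_fam k J b s) (GA2_fam k I b s) (-j) := by
  have h1 : (grz k j ⊓ FB k I b s) ⊔ (grz k (j - 1) ⊓ FB k J b s).map (dz k)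
      = HC.Bd (dz k) (GA2_fam k J b s) (GA2_fam k I b s) (-j) := by
    unfold HC.Bd GA2_fam
    have e1 : -(-j) = j := by ring
    have e2 : -(-j + 1) = j - 1 := by ring
    rw [e1, e2]
  have h2 : grz k j ⊓ FB k J b s ⊓ (FB k I b s).comap (dz k)
      = HC.Zc (dz k) (GA2_fam k J b s) (GA2_fam k I b s) (-j) := by
    unfold HC.Zc GA2_fam
    have e1 : -(-j) = j := by ring
    have e2 : -(-j - 1) = j + 1 := by ring
    rw [e1, e2]
    ext x
    simp only [Submodule.mem_inf, Submodule.mem_comap]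
    constructor
    · rintro ⟨⟨a1, a2⟩, a3⟩
      exact ⟨⟨a1, a2⟩, dz_grz' k j a1, a3⟩
    · rintro ⟨⟨a1, a2⟩, _, a3⟩
      exact ⟨⟨a1, a2⟩, a3⟩
  unfold Hz HC.hl
  rw [h1, h2]
  rfl

/-- long exact sequence inequalities (from HC.hl_AC_le, HC.hl_AB_le, HC.hl_BC_le) -/
theorem Hz_AC' {I J K : Ideal (Pz k n)} (h1 : I ≤ J) (h2 : J ≤ K) (b : Fin n → ℤ) (s j : ℤ) :
    Hz k I K b s j ≤ Hz k I J b s j + Hz k J K b s j := by
  rw [GA2_Hz_eq, GA2_Hz_eq, GA2_Hz_eq]
  exact HC.hl_AC_le (dz_dz' k) (GA2_fam_cx k K b s) (GA2_fam_cx k J b s) (GA2_fam_cx k I b s)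
    (GA2_fam_mono k h2 b s) (GA2_fam_mono k h1 b s) (-j)

theorem Hz_BC' {I J K : Ideal (Pz k n)} (h1 : I ≤ J) (h2 : J ≤ K) (b : Fin n → ℤ) (s j : ℤ) :
    Hz k J K b s j ≤ Hz k I K b s j + Hz k I J b s (j + 1) := by
  rw [GA2_Hz_eq, GA2_Hz_eq, GA2_Hz_eq]
  have h := HC.hl_AB_le (dz_dz' k) (GA2_fam_cx k K b s) (GA2_fam_cx k J b s)
    (GA2_fam_cx k I b s) (GA2_fam_mono k h2 b s) (GA2_fam_mono k h1 b s) (-j)
  have e : -(j + 1) = -j - 1 := by ring
  rw [e]
  exact h

theorem GA2_FW {I J : Ideal (Pz k n)} (b : Fin n → ℤ) (s : ℤ)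
    (f1 : ∀ j, Hz k I J b s j ≠ ⊤) :
    HC.FW n (HC.hl (dz k) (GA2_fam k J b s) (GA2_fam k I b s)) := by
  have e : ∀ m, HC.hl (dz k) (GA2_fam k J b s) (GA2_fam k I b s) m = Hz k I J b s (-m) := by
    intro m
    rw [GA2_Hz_eq, neg_neg]
  refine ⟨fun m => ?_, fun m hm => ?_⟩
  · rw [e]
    exact f1 _
  · rw [e]
    refine Hz_out' k I J b s (-m) ?_
    omega

theorem GA2_chz_eq (I J : Ideal (Pz k n)) (b : Fin n → ℤ) (s : ℤ) :
    chz k I J b s = HC.ch n (HC.hl (dz k) (GA2_fam k J b s) (GA2_fam k I b s)) := by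
  have e : ∀ m, HC.hl (dz k) (GA2_fam k J b s) (GA2_fam k I b s) m = Hz k I J b s (-m) := by
    intro m
    rw [GA2_Hz_eq, neg_neg]
  unfold chz HC.ch
  simp only [e]
  symm
  have hsub : (Finset.range (n + 1)).image (fun j : ℕ => -(j : ℤ)) ⊆ Finset.Icc (-(n : ℤ)) n := by
    intro m hm
    obtain ⟨j, hj, rfl⟩ := Finset.mem_image.1 hm
    rw [Finset.mem_range] at hj
    rw [Finset.mem_Icc]
    omega
  rw [← Finset.sum_subset hsub]
  · rw [Finset.sum_image]
    · refine Finset.sum_congr rfl fun j _ => ?_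
      rw [neg_neg]
      congr 1
      unfold HC.sg
      rcases Nat.even_or_odd j with h | h
      · rw [if_pos (by simpa using h), h.neg_one_pow]
      · rw [if_neg (by simpa using h), h.neg_one_pow]
    · intro a _ b _ hab
      have : (a : ℤ) = b := neg_injective hab
      exact_mod_cast this
  · intro m hm1 hm2
    rw [Finset.mem_Icc] at hm1
    have h3 : 0 < m := by
      by_contra hneg
      apply hm2
      rw [Finset.mem_image]
      refine ⟨(-m).toNat, ?_, ?_⟩
      · rw [Finset.mem_range]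
        omega
      · omega
    rw [Hz_out' k I J b s (-m) (by omega)]
    simp

theorem chz_add' {I J K : Ideal (Pz k n)} (h1 : I ≤ J) (h2 : J ≤ K) (b : Fin n → ℤ) (s : ℤ)
    (f1 : ∀ j, Hz k I J b s j ≠ ⊤) (f2 : ∀ j, Hz k J K b s j ≠ ⊤) :
    chz k I K b s = chz k I J b s + chz k J K b s := by
  rw [GA2_chz_eq, GA2_chz_eq, GA2_chz_eq]
  rw [HC.chi_add (dz_dz' k) (GA2_fam_cx k K b s) (GA2_fam_cx k J b s) (GA2_fam_cx k I b s)
    (GA2_fam_mono k h2 b s) (GA2_fam_mono k h1 b s) (GA2_FW k b s f2) (GA2_FW k b s f1)]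
  ring

end GA2

end Vale.Agent.P202G
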