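import Vale.Agent.P202G.G0
import Vale.Agent.P202C.GBlk

/-!
# P202, stage 2, module GE: cohomology of `B_s` (helper98)
-/

set_option autoImplicit false

namespace Vale.Agent.P202G

open IsLocalRing TensorProduct Vale.Agent.P202C

universe u v w

namespace GE

section Gen

variable (k : Type u) [CommRing k] {n : ℕ}

/-- homogeneous of T-degree `j`, exponents in `[0,j]` -/
def Hb (n : ℕ) (j : ℕ) : Submodule k (Lz k n) where
  carrier := {f | ∀ m : (Fin n → ℤ) × ℤ, f.coeff m ≠ 0 →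
    m.2 = (j : ℤ) ∧ ∀ l : Fin n, 0 ≤ m.1 l ∧ m.1 l ≤ (j : ℤ)}
  zero_mem' := fun m hm => absurd rfl hm
  add_mem' := fun {f g} hf hg m hm => by
    by_cases h : f.coeff m = 0
    · refine hg m fun h2 => hm ?_
      rw [AddMonoidAlgebra.coeff_add, Finsupp.add_apply, h, h2, add_zero]
    · exact hf m h
  smul_mem' := fun r f hf m hm => by
    refine hf m fun h => hm ?_
    rw [AddMonoidAlgebra.coeff_smul, Finsupp.smul_apply, h, smul_zero]

theorem Hb_single {j : ℕ} {m : (Fin n → ℤ) × ℤ}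
    (h : m.2 = (j : ℤ) ∧ ∀ l : Fin n, 0 ≤ m.1 l ∧ m.1 l ≤ (j : ℤ)) (r : k) :
    (AddMonoidAlgebra.single m r : Lz k n) ∈ Hb k n j := by
  classical
  intro m' hm'
  rw [AddMonoidAlgebra.coeff_single, Finsupp.single_apply] at hm'
  by_cases h2 : m = m'
  · rwa [← h2]
  · rw [if_neg h2] at hm'
    exact absurd rfl hm'

theorem Hb_mul {i j : ℕ} {f g : Lz k n} (hf : f ∈ Hb k n i) (hg : g ∈ Hb k n j) :
    f * g ∈ Hb k n (i + j) := by
  classical
  intro m hm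
  have h1 : m ∈ (f * g).coeff.support := Finsupp.mem_support_iff.mpr hm
  obtain ⟨x, hx, y, hy, rfl⟩ := Finset.mem_add.mp (AddMonoidAlgebra.support_coeff_mul_subset f g h1)
  obtain ⟨a1, a2⟩ := hf x (Finsupp.mem_support_iff.mp hx)
  obtain ⟨c1, c2⟩ := hg y (Finsupp.mem_support_iff.mp hy)
  refine ⟨?_, fun l => ⟨?_, ?_⟩⟩
  · show x.2 + y.2 = _
    rw [a1, c1, Nat.cast_add]
  · show 0 ≤ x.1 l + y.1 l
    exact add_nonneg (a2 l).1 (c2 l).1
  · show x.1 l + y.1 l ≤ _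
    rw [Nat.cast_add]
    exact add_le_add (a2 l).2 (c2 l).2

theorem Hb_one : (1 : Lz k n) ∈ Hb k n 0 := by
  have h := Hb_single k (n := n) (j := 0) (m := 0) ⟨rfl, fun l => ⟨le_rfl, le_rfl⟩⟩ 1
  exact h

theorem Hb_eE (j : Fin (n + 1)) : eE k n j ∈ Hb k n 1 := by
  unfold eE
  refine Submodule.sum_mem _ fun E _ => Hb_single k ⟨rfl, fun l => ?_⟩ 1
  show 0 ≤ indE E l ∧ indE E l ≤ 1
  unfold indE
  split_ifs <;> norm_num

theorem Hb_pow {f : Lz k n} {i : ℕ} (hf : f ∈ Hb k n i) (e : ℕ) : f ^ e ∈ Hb k n (i * e) := by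
  induction e with
  | zero =>
    rw [pow_zero, mul_zero]
    exact Hb_one k
  | succ e ih =>
    rw [pow_succ, Nat.mul_succ]
    exact Hb_mul k ih hf

theorem Hb_prod {ι : Type*} (t : Finset ι) (f : ι → Lz k n) (d : ι → ℕ)
    (h : ∀ i ∈ t, f i ∈ Hb k n (d i)) : ∏ i ∈ t, f i ∈ Hb k n (∑ i ∈ t, d i) := by
  classical
  induction t using Finset.induction_on with
  | empty =>
    rw [Finset.prod_empty, Finset.sum_empty]
    exact Hb_one k
  | insert a t ha ih =>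
    rw [Finset.prod_insert ha, Finset.sum_insert ha]
    exact Hb_mul k (h a (Finset.mem_insert_self a t))
      (ih fun i hi => h i (Finset.mem_insert_of_mem hi))

theorem Hb_tL {f : Pz k n} {j : ℕ} (hf : f.IsHomogeneous j) : tL k n f ∈ Hb k n j := by
  classical
  unfold tL
  rw [MvPolynomial.aeval_def, MvPolynomial.eval₂_eq']
  refine Submodule.sum_mem _ fun d hd => ?_
  rw [← Algebra.smul_def]
  refine Submodule.smul_mem _ _ ?_
  have h1 : ∑ i, d i = j := by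
    have h2 := hf (MvPolynomial.mem_support_iff.mp hd)
    rw [← h2, Finsupp.weight_apply, Finsupp.sum_fintype _ _ (fun i => by simp)]
    simp
  rw [← h1]
  refine Hb_prod k _ _ _ fun i _ => ?_
  have h3 := Hb_pow k (Hb_eE k i) (d i)
  rwa [one_mul] at h3

theorem Bs_mul {b : Fin n → ℤ} {τ : Fin n → Fin 3} {s : ℤ} {j : ℕ} {f β : Lz k n}
    (hf : f ∈ Hb k n j) (hβ : β ∈ Bs k b τ (s - j)) : f * β ∈ Bs k b τ s := by
  classical
  intro m hm
  have h1 : m ∈ (f * β).coeff.support := Finsupp.mem_support_iff.mpr hm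
  obtain ⟨x, hx, y, hy, rfl⟩ := Finset.mem_add.mp (AddMonoidAlgebra.support_coeff_mul_subset f β h1)
  obtain ⟨a1, a2⟩ := hf x (Finsupp.mem_support_iff.mp hx)
  obtain ⟨c1, c2, c3⟩ := hβ y (Finsupp.mem_support_iff.mp hy)
  refine ⟨?_, fun l hl => ?_, fun l hl => ?_⟩
  · show x.2 + y.2 = s
    rw [a1, c1]
    ring
  · show x.1 l + y.1 l ≤ b l + s
    have h2 := (a2 l).2
    have h3 := c2 l hl
    linarith
  · show 0 ≤ x.1 l + y.1 l
    exact add_nonneg (a2 l).1 (c3 l hl)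

theorem IB_le_Bs (I : Ideal (Pz k n)) (b : Fin n → ℤ) (τ : Fin n → Fin 3) (s : ℤ) :
    IB k I b τ s ≤ Bs k b τ s := by
  unfold IB
  rw [Submodule.span_le]
  rintro _ ⟨j, f, β, -, hf, hβ, rfl⟩
  exact Bs_mul k (Hb_tL k hf) hβ

theorem Bs_le_IB (b : Fin n → ℤ) (τ : Fin n → Fin 3) (s : ℤ) : Bs k b τ s ≤ IB k ⊤ b τ s := by
  intro β hβ
  refine Submodule.subset_span ⟨0, 1, β, trivial, MvPolynomial.isHomogeneous_one _ _, ?_, ?_⟩
  · rwa [Nat.cast_zero, sub_zero]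
  · rw [map_one, one_mul]

theorem mem_FB_top {b : Fin n → ℤ} {s : ℤ} {x : Xz k n} :
    x ∈ FB k ⊤ b s ↔ ∀ τ, x τ ∈ Bs k b τ s :=
  forall_congr' fun τ => ⟨fun h => IB_le_Bs k ⊤ b τ s h, fun h => Bs_le_IB k b τ s h⟩

theorem FB_bot (b : Fin n → ℤ) (s : ℤ) : FB k (⊥ : Ideal (Pz k n)) b s = ⊥ := by
  rw [eq_bot_iff]
  intro x hx
  rw [Submodule.mem_bot]
  funext τ
  have h1 : IB k (⊥ : Ideal (Pz k n)) b τ s ≤ ⊥ := by
    unfold IB
    rw [Submodule.span_le]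
    rintro _ ⟨j, f, β, hf, -, -, rfl⟩
    have : f = 0 := hf
    show tL k n f * β ∈ (⊥ : Submodule k (Lz k n))
    rw [this, map_zero, zero_mul]
    exact Submodule.zero_mem _
  exact (Submodule.mem_bot k).mp (h1 (hx τ))

/-- the T-degree `s` part -/
noncomputable def rs (s : ℤ) (x : Xz k n) : Xz k n := fun τ =>
  Gn.rsP k (fun m => m.2 = s) (x τ)

theorem rs_dz (s : ℤ) (x : Xz k n) : rs k s (dz k x) = dz k (rs k s x) := by
  funext τ
  show Gn.rsP k (fun m => m.2 = s) (∑ l ∈ Finset.univ.filter (fun l => τ l = 2),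
    csg τ l • (x (Function.update τ l 0) - x (Function.update τ l 1))) =
    ∑ l ∈ Finset.univ.filter (fun l => τ l = 2), csg τ l •
      (Gn.rsP k (fun m => m.2 = s) (x (Function.update τ l 0)) -
        Gn.rsP k (fun m => m.2 = s) (x (Function.update τ l 1)))
  rw [map_sum]
  refine Finset.sum_congr rfl fun l _ => ?_
  rw [map_zsmul, map_sub]

theorem rs_add (s : ℤ) (x y : Xz k n) : rs k s (x + y) = rs k s x + rs k s y := by
  funext τ
  exact map_add _ _ _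

theorem rs_self {b : Fin n → ℤ} {s : ℤ} {x : Xz k n} (hx : ∀ τ, x τ ∈ Bs k b τ s) :
    rs k s x = x := by
  funext τ
  refine Gn.lau_ext k fun m => ?_
  show (Gn.rsP k (fun m => m.2 = s) (x τ)).coeff m = _
  by_cases hm : m.2 = s
  · exact Gn.rsP_coeff_pos k _ hm
  · rw [Gn.rsP_coeff_neg k _ hm]
    by_contra h
    exact hm (hx τ m (fun h' => h h'.symm)).1

theorem rs_high {b : Fin n → ℤ} {s : ℤ} {x : Xz k n} (hx : x ∈ Gn.FA k b (s + 1)) :
    rs k s x = 0 := by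
  funext τ
  refine Gn.lau_ext k fun m => ?_
  show (Gn.rsP k (fun m => m.2 = s) (x τ)).coeff m = 0
  by_contra h
  obtain ⟨h1, h2⟩ := Gn.rsP_ne k h
  have h3 := (hx τ m h2).1
  omega

theorem rs_Bs {b : Fin n → ℤ} {s : ℤ} {x : Xz k n} (hx : x ∈ Gn.FA k b s) (τ : Fin n → Fin 3) :
    rs k s x τ ∈ Bs k b τ s := by
  intro m hm
  obtain ⟨h1, h2⟩ := Gn.rsP_ne k hm
  obtain ⟨-, h3, h4⟩ := hx τ m h2
  rw [h1] at h3
  exact ⟨h1, h3, h4⟩

theorem rs_gr {j s : ℤ} {x : Xz k n} (hx : x ∈ grz k j) : rs k s x ∈ grz k j := by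
  intro τ hτ
  show Gn.rsP k (fun m => m.2 = s) (x τ) = 0
  rw [hx τ hτ, map_zero]

theorem mem_FA {b : Fin n → ℤ} {s : ℤ} {x : Xz k n} (hx : ∀ τ, x τ ∈ Bs k b τ s) :
    x ∈ Gn.FA k b s := by
  intro τ m hm
  obtain ⟨h1, h2, h3⟩ := hx τ m hm
  refine ⟨h1.ge, fun l hl => ?_, h3⟩
  rw [h1]
  exact h2 l hl

theorem dz_eq (x : Xz k n) : dz k x = Gn.dA k n x := rfl

end Gen

end GE

section GE

variable {n : ℕ}

/-- any base ring: vanishing above the number of negative factors -/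
theorem Hz_top_high' (k : Type u) [CommRing k] (b : Fin n → ℤ) (s j : ℤ)
    (hj : (negc b s : ℤ) < j) : Hz k ⊥ ⊤ b s j = 0 := by
  unfold Hz
  refine HC.ql_eq_zero.mpr ?_
  rintro x ⟨⟨h1, h2⟩, h3⟩
  rw [SetLike.mem_coe, GE.mem_FB_top] at h2
  have h4 : dz k x = 0 := by
    have h5 : dz k x ∈ FB k ⊥ b s := h3
    rw [GE.FB_bot] at h5
    exact (Submodule.mem_bot k).mp h5
  obtain ⟨y, hy, hyx⟩ := Gn.exact_A k hj (x := x) h1 (GE.mem_FA k h2) h4
  refine Submodule.mem_sup_right ⟨GE.rs k s y, ⟨GE.rs_gr k hy.1, ?_⟩, ?_⟩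
  · rw [SetLike.mem_coe, GE.mem_FB_top]
    exact GE.rs_Bs k hy.2
  · rw [← GE.rs_dz]
    have h6 : dz k y = x := hyx
    rw [h6, GE.rs_self k h2]

end GE

end Vale.Agent.P202G
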