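import Vale.Agent.P202G.GD
import Vale.Agent.P202G.GA2
import Vale.Agent.P202G.GE1

/-!
P202 stage 2, module GH (helper28): vanishing of the higher cohomology for large twists.
-/

set_option autoImplicit false

namespace Vale.Agent.P202G

open IsLocalRing TensorProduct Vale.Agent.P202C MvPolynomial

universe u v w

section GH

variable (k : Type u) [CommRing k] [IsNoetherianRing k] {n : ℕ}

theorem GH_negc {b : Fin n → ℤ} {s : ℤ} (h : ∀ l, 0 ≤ b l + s) : negc b s = 0 := by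
  unfold negc
  rw [Finset.card_eq_zero, Finset.filter_eq_empty_iff]
  intro l _
  have := h l
  omega

/-- from the vanishing for the quotients to the vanishing for the ideals -/
theorem GH_ideal {m : ℤ} (hP : ∀ I : Ideal (Pz k n), HI k I → ∃ c : ℤ, ∀ (b : Fin n → ℤ) (s : ℤ),
      (∀ l, c ≤ b l + s) → ∀ j : ℤ, m ≤ j → Hz k I ⊤ b s j = 0)
    {I : Ideal (Pz k n)} (hI : HI k I) : ∃ c : ℤ, ∀ (b : Fin n → ℤ) (s : ℤ),
      (∀ l, c ≤ b l + s) → ∀ j : ℤ, m ≤ j → Hz k ⊥ I b s j = 0 := by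
  obtain ⟨r, L, c, hL, -, hch⟩ := Hz_chain_pf k (GA1_HI_bot k) hI bot_le
  choose C hC using fun i => hP (L i) (hL i)
  refine ⟨∑ i, (|C i| + c i), fun b s hbs j hj => ?_⟩
  refine le_antisymm ((hch b s j).trans (le_of_eq ?_)) zero_le
  refine Finset.sum_eq_zero fun i _ => ?_
  refine hC i b (s - c i) (fun l => ?_) j hj
  have h1 := hbs l
  have h2 : |C i| + (c i : ℤ) ≤ ∑ i, (|C i| + (c i : ℤ)) :=
    Finset.single_le_sum (f := fun i => |C i| + (c i : ℤ))
      (fun i _ => add_nonneg (abs_nonneg _) (Int.natCast_nonneg _)) (Finset.mem_univ i)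
  have h3 := le_abs_self (C i)
  omega

theorem GH_quot (d : ℕ) : ∀ I : Ideal (Pz k n), HI k I → ∃ c : ℤ, ∀ (b : Fin n → ℤ) (s : ℤ),
      (∀ l, c ≤ b l + s) → ∀ j : ℤ, max 1 ((n : ℤ) + 1 - d) ≤ j → Hz k I ⊤ b s j = 0 := by
  induction d with
  | zero =>
    intro I _
    refine ⟨0, fun b s _ j hj => Hz_out' k I ⊤ b s j (Or.inr ?_)⟩
    have := le_max_right (1 : ℤ) ((n : ℤ) + 1 - (0 : ℕ))
    push_cast at this hj ⊢
    omega
  | succ d ih =>
    intro I hI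
    obtain ⟨c, hc⟩ := GH_ideal k ih hI
    refine ⟨max 0 c, fun b s hbs j hj => ?_⟩
    have hj1 : 1 ≤ j := (le_max_left _ _).trans hj
    have hj2 : (n : ℤ) + 1 - ((d + 1 : ℕ) : ℤ) ≤ j := (le_max_right _ _).trans hj
    refine le_antisymm ((Hz_BC' k bot_le le_top b s j).trans (le_of_eq ?_)) zero_le
    rw [Hz_top_high' k b s j, hc b s (fun l => (le_max_right _ _).trans (hbs l)) (j + 1), add_zero]
    · refine max_le (by omega) ?_
      push_cast at hj2
      omega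
    · rw [GH_negc (fun l => (le_max_left _ _).trans (hbs l))]
      push_cast
      omega

theorem vanish_pf {I : Ideal (Pz k n)} (hI : HI k I) :
    ∃ c : ℤ, ∀ (b : Fin n → ℤ) (s : ℤ), (∀ l, c ≤ b l + s) → ∀ j : ℤ, 1 ≤ j →
      Hz k I ⊤ b s j = 0 ∧ Hz k ⊥ I b s j = 0 := by
  have h1 : ∀ I : Ideal (Pz k n), HI k I → ∃ c : ℤ, ∀ (b : Fin n → ℤ) (s : ℤ),
      (∀ l, c ≤ b l + s) → ∀ j : ℤ, 1 ≤ j → Hz k I ⊤ b s j = 0 := by
    intro I hI
    obtain ⟨c, hc⟩ := GH_quot k (n + 1) I hI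
    refine ⟨c, fun b s hbs j hj => hc b s hbs j (max_le hj ?_)⟩
    push_cast
    omega
  obtain ⟨c, hc⟩ := h1 I hI
  obtain ⟨c', hc'⟩ := GH_ideal k h1 hI
  exact ⟨max c c', fun b s hbs j hj => ⟨hc b s (fun l => (le_max_left _ _).trans (hbs l)) j hj,
    hc' b s (fun l => (le_max_right _ _).trans (hbs l)) j hj⟩⟩

end GH

end Vale.Agent.P202G
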