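import Vale.Agent.P202G.G0

/-!
P202 stage 2, module GA1 (helper28): basic facts about `IB` and homogeneous ideals.
-/

set_option autoImplicit false

namespace Vale.Agent.P202G

open IsLocalRing TensorProduct Vale.Agent.P202C MvPolynomial

universe u v w

section GA1

variable (k : Type u) [CommRing k] {n : ℕ}

theorem GA1_hc_mul {g : Pz k n} {e : ℕ} (hg : g.IsHomogeneous e) (a : Pz k n)
    (d : ℕ) : homogeneousComponent (e + d) (g * a) = g * homogeneousComponent d a := by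
  classical
  conv_lhs => rw [← sum_homogeneousComponent a, Finset.mul_sum, map_sum]
  have h1 : ∀ i, homogeneousComponent (e + d) (g * homogeneousComponent i a) =
      if i = d then g * homogeneousComponent d a else 0 := by
    intro i
    have h2 : (g * homogeneousComponent i a).IsHomogeneous (e + i) :=
      hg.mul (homogeneousComponent_isHomogeneous i a)
    rw [homogeneousComponent_of_mem h2]
    by_cases h : i = d
    · rw [h, if_pos rfl, if_pos rfl]
    · rw [if_neg (by omega), if_neg h]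
  rw [Finset.sum_congr rfl (fun i _ => h1 i), Finset.sum_ite_eq']
  split_ifs with h
  · rfl
  · rw [Finset.mem_range, not_lt] at h
    rw [homogeneousComponent_eq_zero d a (by omega), mul_zero]

theorem GA1_hc_mul_lt {g : Pz k n} {e : ℕ} (hg : g.IsHomogeneous e) (a : Pz k n)
    (d : ℕ) (h : d < e) : homogeneousComponent d (g * a) = 0 := by
  classical
  conv_lhs => rw [← sum_homogeneousComponent a, Finset.mul_sum, map_sum]
  refine Finset.sum_eq_zero fun i _ => ?_
  have h2 : (g * homogeneousComponent i a).IsHomogeneous (e + i) :=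
    hg.mul (homogeneousComponent_isHomogeneous i a)
  rw [homogeneousComponent_of_mem h2, if_neg (by omega)]

theorem GA1_HI_span {g : Pz k n} {e : ℕ} (hg : g.IsHomogeneous e) : HI k (Ideal.span {g}) := by
  intro x hx d
  obtain ⟨a, rfl⟩ := Ideal.mem_span_singleton'.1 hx
  rw [mul_comm]
  by_cases h : d < e
  · rw [GA1_hc_mul_lt k hg a d h]
    exact Ideal.zero_mem _
  · obtain ⟨c, rfl⟩ := Nat.exists_eq_add_of_le (not_lt.mp h)
    rw [GA1_hc_mul k hg]
    exact Ideal.mul_mem_right _ _ (Ideal.mem_span_singleton_self g)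

theorem GA1_HI_sup {I J : Ideal (Pz k n)} (hI : HI k I) (hJ : HI k J) : HI k (I ⊔ J) := by
  intro x hx d
  obtain ⟨y, hy, z, hz, rfl⟩ := Submodule.mem_sup.1 hx
  rw [map_add]
  exact Submodule.add_mem_sup (hI y hy d) (hJ z hz d)

theorem GA1_HI_bot : HI k (⊥ : Ideal (Pz k n)) := by
  intro x hx d
  rw [Ideal.mem_bot] at hx ⊢
  rw [hx, map_zero]

theorem GA1_HI_top : HI k (⊤ : Ideal (Pz k n)) := fun _ _ _ => Submodule.mem_top

theorem GA1_Bs_mul {b b' : Fin n → ℤ} {τ : Fin n → Fin 3} {s s' : ℤ} {f g : Lz k n}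
    (hf : f ∈ Bs k b τ s) (hg : g ∈ Bs k b' τ s') : f * g ∈ Bs k (b + b') τ (s + s') := by
  classical
  intro m hm
  have h1 : m ∈ (f * g).coeff.support := Finsupp.mem_support_iff.mpr hm
  obtain ⟨x, hx, y, hy, rfl⟩ := Finset.mem_add.mp (AddMonoidAlgebra.support_coeff_mul_subset f g h1)
  obtain ⟨a1, a2, a3⟩ := hf x (Finsupp.mem_support_iff.mp hx)
  obtain ⟨c1, c2, c3⟩ := hg y (Finsupp.mem_support_iff.mp hy)
  refine ⟨?_, fun l hl => ?_, fun l hl => ?_⟩
  · show x.2 + y.2 = s + s'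
    rw [a1, c1]
  · show x.1 l + y.1 l ≤ (b l + b' l) + (s + s')
    have h2 := a2 l hl
    have h3 := c2 l hl
    linarith
  · show 0 ≤ x.1 l + y.1 l
    exact add_nonneg (a3 l hl) (c3 l hl)

theorem GA1_Bs_mul0 {b : Fin n → ℤ} {τ : Fin n → Fin 3} {s s' s'' : ℤ} {f g : Lz k n}
    (hs : s + s' = s'') (hf : f ∈ Bs k 0 τ s) (hg : g ∈ Bs k b τ s') : f * g ∈ Bs k b τ s'' := by
  have := GA1_Bs_mul k hf hg
  rwa [zero_add, hs] at this

theorem GA1_single {b : Fin n → ℤ} {τ : Fin n → Fin 3} {s : ℤ} {m : (Fin n → ℤ) × ℤ}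
    (h : alw b τ s m) (r : k) : (AddMonoidAlgebra.single m r : Lz k n) ∈ Bs k b τ s := by
  classical
  intro m' hm'
  rw [AddMonoidAlgebra.coeff_single, Finsupp.single_apply] at hm'
  by_cases h2 : m = m'
  · rwa [← h2]
  · rw [if_neg h2] at hm'
    exact absurd rfl hm'

theorem GA1_one (τ : Fin n → Fin 3) : (1 : Lz k n) ∈ Bs k 0 τ 0 :=
  GA1_single k ⟨rfl, fun _ _ => le_of_eq (zero_add _).symm, fun _ _ => le_rfl⟩ 1

theorem GA1_eE (τ : Fin n → Fin 3) (j : Fin (n + 1)) : eE k n j ∈ Bs k 0 τ 1 := by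
  unfold eE
  refine Submodule.sum_mem _ fun E _ => GA1_single k ⟨rfl, fun l _ => ?_, fun l _ => ?_⟩ 1
  · show indE E l ≤ 0 + 1
    unfold indE
    split_ifs <;> norm_num
  · show 0 ≤ indE E l
    unfold indE
    split_ifs <;> norm_num

theorem GA1_pow {τ : Fin n → Fin 3} {s : ℤ} {f : Lz k n} (hf : f ∈ Bs k 0 τ s) (e : ℕ) :
    f ^ e ∈ Bs k 0 τ (e * s) := by
  induction e with
  | zero =>
    rw [pow_zero]
    simpa using GA1_one k τ
  | succ e ih =>
    rw [pow_succ]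
    refine GA1_Bs_mul0 k ?_ ih hf
    push_cast
    ring

theorem GA1_prod {ι : Type*} (t : Finset ι) {τ : Fin n → Fin 3} (s : ι → ℤ) (f : ι → Lz k n)
    (hf : ∀ i ∈ t, f i ∈ Bs k 0 τ (s i)) : ∏ i ∈ t, f i ∈ Bs k 0 τ (∑ i ∈ t, s i) := by
  classical
  induction t using Finset.induction_on with
  | empty =>
    rw [Finset.prod_empty, Finset.sum_empty]
    exact GA1_one k τ
  | insert a t ha ih =>
    rw [Finset.prod_insert ha, Finset.sum_insert ha]
    exact GA1_Bs_mul0 k rfl (hf a (Finset.mem_insert_self a t))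
      (ih fun i hi => hf i (Finset.mem_insert_of_mem hi))

/-- homogeneous polynomials map to the block `b = 0` -/
theorem GA1_tL {f : Pz k n} {j : ℕ} (hf : f.IsHomogeneous j) (τ : Fin n → Fin 3) :
    tL k n f ∈ Bs k 0 τ j := by
  classical
  rw [f.as_sum, map_sum]
  refine Submodule.sum_mem _ fun d hd => ?_
  unfold tL
  rw [aeval_monomial, ← Algebra.smul_def]
  refine Submodule.smul_mem _ _ ?_
  have h1 : (j : ℤ) = ∑ i ∈ d.support, ((d i : ℕ) : ℤ) * 1 := by
    have h2 := hf (mem_support_iff.mp hd)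
    rw [← h2, Finsupp.weight_apply]
    simp [Finsupp.sum]
  rw [h1, Finsupp.prod]
  exact GA1_prod k _ _ _ fun i _ => GA1_pow k (GA1_eE k τ i) (d i)

theorem GA1_tL_mul {f : Pz k n} {j : ℕ} (hf : f.IsHomogeneous j) {b : Fin n → ℤ}
    {τ : Fin n → Fin 3} {s : ℤ} {β : Lz k n} (hβ : β ∈ Bs k b τ (s - j)) :
    tL k n f * β ∈ Bs k b τ s :=
  GA1_Bs_mul0 k (by ring) (GA1_tL k hf τ) hβ

theorem GA1_gen {I : Ideal (Pz k n)} {f : Pz k n} (hf : f ∈ I) {j : ℕ} (hj : f.IsHomogeneous j)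
    {b : Fin n → ℤ} {τ : Fin n → Fin 3} {s : ℤ} {β : Lz k n} (hβ : β ∈ Bs k b τ (s - j)) :
    tL k n f * β ∈ IB k I b τ s :=
  Submodule.subset_span ⟨j, f, β, hf, hj, hβ, rfl⟩

theorem IB_top_pf (b : Fin n → ℤ) (τ : Fin n → Fin 3) (s : ℤ) : IB k ⊤ b τ s = Bs k b τ s := by
  refine le_antisymm (Submodule.span_le.2 ?_) fun β hβ => ?_
  · rintro _ ⟨j, f, β, -, hj, hβ, rfl⟩
    exact GA1_tL_mul k hj hβ
  · have h1 : β = tL k n 1 * β := by rw [map_one, one_mul]
    rw [h1]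
    refine GA1_gen k (I := ⊤) Submodule.mem_top (j := 0) (isHomogeneous_one _ _) ?_
    simpa using hβ

theorem IB_bot_pf (b : Fin n → ℤ) (τ : Fin n → Fin 3) (s : ℤ) :
    IB k (⊥ : Ideal (Pz k n)) b τ s = ⊥ := by
  rw [eq_bot_iff]
  refine Submodule.span_le.2 ?_
  rintro _ ⟨j, f, β, hf, -, -, rfl⟩
  rw [Ideal.mem_bot] at hf
  rw [hf, map_zero, zero_mul]
  exact Submodule.zero_mem _

theorem IB_mono_pf {I J : Ideal (Pz k n)} (h : I ≤ J) (b : Fin n → ℤ) (τ : Fin n → Fin 3) (s : ℤ) :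
    IB k I b τ s ≤ IB k J b τ s := by
  refine Submodule.span_mono ?_
  rintro _ ⟨j, f, β, hf, hj, hβ, rfl⟩
  exact ⟨j, f, β, h hf, hj, hβ, rfl⟩

/-- adding one homogeneous generator -/
theorem IB_sup_span_pf {I : Ideal (Pz k n)} (hI : HI k I) {g : Pz k n} {c : ℕ}
    (hg : g.IsHomogeneous c) (b : Fin n → ℤ) (τ : Fin n → Fin 3) (s : ℤ) :
    IB k (I ⊔ Ideal.span {g}) b τ s =
      IB k I b τ s ⊔ (Bs k b τ (s - c)).map (LinearMap.mulLeft k (tL k n g)) := by
  refine le_antisymm (Submodule.span_le.2 ?_) (sup_le (IB_mono_pf k le_sup_left b τ s) ?_)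
  · rintro _ ⟨j, f, β, hf, hj, hβ, rfl⟩
    obtain ⟨y, hy, z, hz, hyz⟩ := Submodule.mem_sup.1 hf
    obtain ⟨a, rfl⟩ := Ideal.mem_span_singleton'.1 hz
    have h1 : f = homogeneousComponent j y + homogeneousComponent j (g * a) := by
      rw [← homogeneousComponent_eq_self hj, ← hyz, map_add, mul_comm a g]
    have h2 : tL k n (homogeneousComponent j y) * β ∈ IB k I b τ s :=
      GA1_gen k (hI y hy j) (homogeneousComponent_isHomogeneous j y) hβ
    rw [h1, map_add, add_mul]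
    refine Submodule.add_mem_sup h2 ?_
    by_cases h : j < c
    · rw [GA1_hc_mul_lt k hg a j h, map_zero, zero_mul]
      exact Submodule.zero_mem _
    · obtain ⟨e, rfl⟩ := Nat.exists_eq_add_of_le (not_lt.mp h)
      rw [GA1_hc_mul k hg, map_mul, mul_assoc]
      refine ⟨tL k n (homogeneousComponent e a) * β, ?_, rfl⟩
      refine GA1_tL_mul k (homogeneousComponent_isHomogeneous e a) ?_
      have h3 : s - c - e = s - ((c + e : ℕ) : ℤ) := by
        push_cast
        ring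
      rw [h3]
      exact hβ
  · rintro _ ⟨β, hβ, rfl⟩
    exact GA1_gen k (Submodule.mem_sup_right (Ideal.mem_span_singleton_self g)) hg hβ

theorem HI_sup_span_pf {I : Ideal (Pz k n)} (hI : HI k I) {g : Pz k n} {c : ℕ}
    (hg : g.IsHomogeneous c) : HI k (I ⊔ Ideal.span {g}) :=
  GA1_HI_sup k hI (GA1_HI_span k hg)

theorem HI_Ic_pf {I : Ideal (Pz k n)} (hI : HI k I) {g : Pz k n} {c : ℕ}
    (hg : g.IsHomogeneous c) : HI k (Ic k I g) := by
  intro x hx d
  show g * _ ∈ I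
  rw [← GA1_hc_mul k hg]
  exact hI _ hx _

end GA1

end Vale.Agent.P202G
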