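import Vale.Agent.P202G.GJ2b
import Vale.Agent.P202G.GA1
import Vale.Agent.P202G.GA2
import Vale.Agent.P202C.Acyc

/-!
# P202, stage 2, module GJ2 (link with `CR`), part c: assembly (helper40)
-/

set_option autoImplicit false

namespace Vale.Agent.P202G

open IsLocalRing TensorProduct Vale.Agent.P202C

universe u v w

section GJ2len

variable {R : Type u} [CommRing R] {M : Type v} [AddCommGroup M] [Module R M]
  {M' : Type w} [AddCommGroup M'] [Module R M']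

theorem GJ2_rlen (f : M →ₗ[R] M') {P N : Submodule R M} {P' N' : Submodule R M'}
    (hP : P.map f = P') (hN : ∀ x ∈ P, f x ∈ N' ↔ x ∈ N) : rlen N' P' = rlen N P := by
  have h1 : LinearMap.range (f ∘ₗ P.subtype) = P' := by
    rw [LinearMap.range_comp, Submodule.range_subtype, hP]
  rw [rlen_of_range (f ∘ₗ P.subtype) N' P' h1]
  unfold rlen
  have h2 : N'.comap (f ∘ₗ P.subtype) = N.submoduleOf P := by
    ext x
    exact hN x.1 x.2
  rw [h2]

theorem GJ2_le {P N : Submodule R M} (h : rlen N P = 0) : P ≤ N := by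
  unfold rlen at h
  rw [Module.length_eq_zero_iff, Submodule.Quotient.subsingleton_iff] at h
  intro x hx
  have h1 : (⟨x, hx⟩ : P) ∈ N.submoduleOf P := by
    rw [h]; exact Submodule.mem_top
  exact h1

end GJ2len

section GJ2c

variable (𝔽 : Type w) [Field 𝔽] {n : ℕ} (R : Type u) [CommRing R] [Algebra (PolyA 𝔽 n) R]

/-- components of an element of `R ⊗ XA` -/
noncomputable def cp : (R ⊗[PolyA 𝔽 n] XA 𝔽 n) ≃ₗ[R]
    ((Fin n → Fin 3) → R ⊗[PolyA 𝔽 n] Lau 𝔽 n) :=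
  TensorProduct.piRight (PolyA 𝔽 n) R R (fun _ : (Fin n → Fin 3) => Lau 𝔽 n)

theorem cp_tmul (r : R) (f : XA 𝔽 n) (τ : Fin n → Fin 3) :
    cp 𝔽 R (r ⊗ₜ[PolyA 𝔽 n] f) τ = r ⊗ₜ[PolyA 𝔽 n] (f τ) := rfl

/-- base change of a product of submodules -/
theorem cp_mem (P : (Fin n → Fin 3) → Submodule (PolyA 𝔽 n) (Lau 𝔽 n))
    (Q : Submodule (PolyA 𝔽 n) (XA 𝔽 n)) (hQ : ∀ f, f ∈ Q ↔ ∀ τ, f τ ∈ P τ)
    (y : R ⊗[PolyA 𝔽 n] XA 𝔽 n) :
    y ∈ Q.baseChange R ↔ ∀ τ, cp 𝔽 R y τ ∈ (P τ).baseChange R := by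
  classical
  constructor
  · intro hy τ
    rw [Submodule.baseChange_eq_span] at hy
    refine Submodule.span_induction ?_ ?_ ?_ ?_ hy
    · rintro _ ⟨f, hf, rfl⟩
      exact Submodule.tmul_mem_baseChange_of_mem (A := R) 1 ((hQ f).mp hf τ)
    · rw [map_zero]; exact Submodule.zero_mem _
    · intro x y _ _ hx hy
      rw [map_add]; exact Submodule.add_mem _ hx hy
    · intro r x _ hx
      rw [map_smul]; exact Submodule.smul_mem _ _ hx
  · intro hy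
    have key : ∀ τ, ∀ z ∈ (P τ).baseChange R,
        (cp 𝔽 R).symm (Pi.single τ z) ∈ Q.baseChange R := by
      intro τ z hz
      rw [Submodule.baseChange_eq_span] at hz
      refine Submodule.span_induction ?_ ?_ ?_ ?_ hz
      · rintro _ ⟨f, hf, rfl⟩
        have h1 : (cp 𝔽 R).symm (Pi.single τ ((TensorProduct.mk (PolyA 𝔽 n) R (Lau 𝔽 n)) 1 f)) =
            (1 : R) ⊗ₜ[PolyA 𝔽 n] (Pi.single τ f : XA 𝔽 n) :=
          TensorProduct.piRight_symm_single (PolyA 𝔽 n) R R (fun _ : (Fin n → Fin 3) => Lau 𝔽 n)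
            1 τ f
        rw [h1]
        refine Submodule.tmul_mem_baseChange_of_mem (A := R) 1 ((hQ _).mpr fun τ' => ?_)
        by_cases h : τ' = τ
        · subst h
          rw [Pi.single_eq_same]
          exact hf
        · rw [Pi.single_eq_of_ne h]
          exact Submodule.zero_mem _
      · rw [Pi.single_zero, map_zero]; exact Submodule.zero_mem _
      · intro x y _ _ hx hy
        rw [Pi.single_add, map_add]; exact Submodule.add_mem _ hx hy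
      · intro r x _ hx
        rw [Pi.single_smul, map_smul]; exact Submodule.smul_mem _ _ hx
    have h2 : y = ∑ τ, (cp 𝔽 R).symm (Pi.single τ (cp 𝔽 R y τ)) := by
      rw [← map_sum, Finset.univ_sum_single, LinearEquiv.symm_apply_apply]
    rw [h2]
    exact Submodule.sum_mem _ fun τ _ => key τ _ (hy τ)

theorem cp_F (b : Fin n → ℤ) (s : ℤ) (y : R ⊗[PolyA 𝔽 n] XA 𝔽 n) :
    y ∈ (CR 𝔽 R b).F s ↔ ∀ τ, cp 𝔽 R y τ ∈ PhR 𝔽 R b τ s :=
  cp_mem 𝔽 R (fun τ => PhA 𝔽 b τ s) (FA 𝔽 b s) (fun _ => Iff.rfl) y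

theorem cp_gr (b : Fin n → ℤ) (j : ℤ) (y : R ⊗[PolyA 𝔽 n] XA 𝔽 n) :
    y ∈ (CR 𝔽 R b).gr j ↔ ∀ τ, (num2 τ : ℤ) ≠ j → cp 𝔽 R y τ = 0 := by
  classical
  have h := cp_mem 𝔽 R (fun τ => if (num2 τ : ℤ) = j then ⊤ else ⊥) (grA 𝔽 n j) (by
    intro f
    constructor
    · intro hf τ
      by_cases h : (num2 τ : ℤ) = j
      · rw [if_pos h]; exact Submodule.mem_top
      · rw [if_neg h, Submodule.mem_bot]; exact hf τ h
    · intro hf τ h
      have h1 := hf τ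
      rw [if_neg h, Submodule.mem_bot] at h1
      exact h1) y
  rw [CR_gr, h]
  constructor
  · intro hy τ hτ
    have h1 := hy τ
    rw [if_neg hτ, Submodule.baseChange_bot, Submodule.mem_bot] at h1
    exact h1
  · intro hy τ
    by_cases hτ : (num2 τ : ℤ) = j
    · rw [if_pos hτ, Submodule.baseChange_top]; exact Submodule.mem_top
    · rw [if_neg hτ, Submodule.baseChange_bot, Submodule.mem_bot]; exact hy τ hτ

theorem cp_d (b : Fin n → ℤ) (y : R ⊗[PolyA 𝔽 n] XA 𝔽 n) (τ : Fin n → Fin 3) :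
    cp 𝔽 R ((CR 𝔽 R b).d y) τ = ∑ l ∈ Finset.univ.filter (fun l => τ l = 2),
      csg τ l • (cp 𝔽 R y (Function.update τ l 0) - cp 𝔽 R y (Function.update τ l 1)) := by
  rw [CR_d]
  induction y using TensorProduct.induction_on with
  | zero =>
    rw [map_zero, map_zero]
    refine (Finset.sum_eq_zero fun l _ => ?_).symm
    rw [Pi.zero_apply, Pi.zero_apply, sub_zero, smul_zero]
  | tmul r f =>
    rw [LinearMap.baseChange_tmul, cp_tmul, dA_apply, TensorProduct.tmul_sum]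
    refine Finset.sum_congr rfl fun l _ => ?_
    rw [cp_tmul, cp_tmul, ← TensorProduct.tmul_sub]
    exact (TensorProduct.tmul_smul _ _ _)
  | add x y hx hy =>
    rw [map_add, map_add, Pi.add_apply, hx, hy, ← Finset.sum_add_distrib]
    refine Finset.sum_congr rfl fun l _ => ?_
    rw [map_add, Pi.add_apply, Pi.add_apply, ← smul_add]
    congr 1
    abel

/-- the map of total spaces -/
noncomputable def pX : Xz R n →ₗ[R] (R ⊗[PolyA 𝔽 n] XA 𝔽 n) :=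
  (cp 𝔽 R).symm.toLinearMap ∘ₗ
    (LinearMap.pi fun τ => (pA 𝔽 R).toLinearMap ∘ₗ LinearMap.proj τ)

theorem cp_pX (x : Xz R n) (τ : Fin n → Fin 3) : cp 𝔽 R (pX 𝔽 R x) τ = pA 𝔽 R (x τ) := by
  unfold pX
  rw [LinearMap.comp_apply]
  show cp 𝔽 R ((cp 𝔽 R).symm _) τ = _
  rw [LinearEquiv.apply_symm_apply]
  rfl

theorem pX_d (b : Fin n → ℤ) (x : Xz R n) :
    pX 𝔽 R (dz R x) = (CR 𝔽 R b).d (pX 𝔽 R x) := by
  apply (cp 𝔽 R).injective
  funext τ
  rw [cp_pX, cp_d, GA2_dz_apply, map_sum]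
  refine Finset.sum_congr rfl fun l _ => ?_
  rw [cp_pX, cp_pX, map_zsmul, map_sub]

theorem pX_FI (hy : yR 𝔽 R (0 : Fin (n + 1)) * yR 𝔽 R (Fin.last n) ∈ nonZeroDivisors R)
    {b : Fin n → ℤ} {s : ℤ} {x : Xz R n} (hx : x ∈ FB R ⊤ b s) :
    pX 𝔽 R x ∈ (CR 𝔽 R b).F (s + 1) ↔ x ∈ FB R (Igr 𝔽 R) b s := by
  rw [cp_F]
  constructor
  · intro h τ
    have h1 := h τ
    rw [cp_pX] at h1
    have h2 := hx τ
    rw [IB_top_pf] at h2
    exact (pA_succ 𝔽 R hy h2).mp h1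
  · intro h τ
    rw [cp_pX]
    have h2 := hx τ
    rw [IB_top_pf] at h2
    exact (pA_succ 𝔽 R hy h2).mpr (h τ)

theorem pX_F0 (hy : yR 𝔽 R (0 : Fin (n + 1)) * yR 𝔽 R (Fin.last n) ∈ nonZeroDivisors R)
    {b : Fin n → ℤ} {s : ℤ} {x : Xz R n} (hx : x ∈ FB R ⊤ b s) :
    pX 𝔽 R x = 0 ↔ x ∈ FB R (Irs 𝔽 R) b s := by
  constructor
  · intro h τ
    have h1 := cp_pX 𝔽 R x τ
    rw [h, map_zero, Pi.zero_apply] at h1
    have h2 := hx τ
    rw [IB_top_pf] at h2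
    exact (pA_ker 𝔽 R hy h2).mp h1.symm
  · intro h
    apply (cp 𝔽 R).injective
    funext τ
    rw [cp_pX, map_zero, Pi.zero_apply]
    have h2 := hx τ
    rw [IB_top_pf] at h2
    exact (pA_ker 𝔽 R hy h2).mpr (h τ)

theorem pX_mem {b : Fin n → ℤ} {s : ℤ} {x : Xz R n} (hx : x ∈ FB R ⊤ b s) :
    pX 𝔽 R x ∈ (CR 𝔽 R b).F s := by
  rw [cp_F]
  intro τ
  rw [cp_pX, PhR_eq]
  have h2 := hx τ
  rw [IB_top_pf] at h2
  exact Submodule.mem_map_of_mem h2

theorem pX_gr {b : Fin n → ℤ} {j : ℤ} {x : Xz R n} (hx : x ∈ grz R j) :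
    pX 𝔽 R x ∈ (CR 𝔽 R b).gr j := by
  rw [cp_gr]
  intro τ hτ
  rw [cp_pX, hx τ hτ, map_zero]

theorem pX_surj {b : Fin n → ℤ} {s j : ℤ} {y : R ⊗[PolyA 𝔽 n] XA 𝔽 n}
    (hy : y ∈ (CR 𝔽 R b).gr j) (hy2 : y ∈ (CR 𝔽 R b).F s) :
    ∃ x ∈ grz R j ⊓ FB R (n := n) ⊤ b s, pX 𝔽 R x = y := by
  classical
  rw [cp_F] at hy2
  rw [cp_gr] at hy
  have h1 : ∀ τ, ∃ β : Lz R n, β ∈ Bs R b τ s ∧ pA 𝔽 R β = cp 𝔽 R y τ ∧
      ((num2 τ : ℤ) ≠ j → β = 0) := by
    intro τ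
    by_cases h : (num2 τ : ℤ) = j
    · have h2 := hy2 τ
      rw [PhR_eq] at h2
      obtain ⟨β, h3, h4⟩ := h2
      exact ⟨β, h3, h4, fun h5 => absurd h h5⟩
    · exact ⟨0, Submodule.zero_mem _, by rw [map_zero, hy τ h], fun _ => rfl⟩
  choose x hx1 hx2 hx3 using h1
  refine ⟨x, ⟨fun τ hτ => hx3 τ hτ, fun τ => ?_⟩, ?_⟩
  · rw [IB_top_pf]
    exact hx1 τ
  · apply (cp 𝔽 R).injective
    funext τ
    rw [cp_pX, hx2]

/-- slices of `CR` -/
theorem sl_link_pf (hy : yR 𝔽 R (0 : Fin (n + 1)) * yR 𝔽 R (Fin.last n) ∈ nonZeroDivisors R)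
    (b : Fin n → ℤ) (s j : ℤ) : sl (CR 𝔽 R b) s j = Hz R (Igr 𝔽 R) ⊤ b s j := by
  unfold sl Hz
  refine GJ2_rlen (pX 𝔽 R) ?_ ?_
  · apply le_antisymm
    · rintro _ ⟨x, ⟨⟨h1, h2⟩, h3⟩, rfl⟩
      refine ⟨⟨pX_gr 𝔽 R h1, pX_mem 𝔽 R h2⟩, ?_⟩
      show (CR 𝔽 R b).d (pX 𝔽 R x) ∈ (CR 𝔽 R b).F (s + 1)
      rw [← pX_d, pX_FI 𝔽 R hy (dz_FB' R _ b s h2)]
      exact h3
    · rintro y ⟨⟨h1, h2⟩, h3⟩
      obtain ⟨x, ⟨hx1, hx2⟩, rfl⟩ := pX_surj 𝔽 R h1 h2
      refine ⟨x, ⟨⟨hx1, hx2⟩, ?_⟩, rfl⟩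
      show dz R x ∈ FB R (Igr 𝔽 R) b s
      rw [← pX_FI 𝔽 R hy (dz_FB' R _ b s hx2), pX_d]
      exact h3
  · rintro x ⟨⟨h1, h2⟩, h3⟩
    constructor
    · intro h
      obtain ⟨a', ha', _, ⟨c', hc', rfl⟩, hsum⟩ := Submodule.mem_sup.mp h
      obtain ⟨c, ⟨hc1, hc2⟩, rfl⟩ := pX_surj 𝔽 R hc'.1 hc'.2
      refine Submodule.mem_sup.mpr ⟨x - dz R c, ⟨?_, ?_⟩, dz R c, ⟨c, ⟨hc1, hc2⟩, rfl⟩, by abel⟩
      · refine Submodule.sub_mem _ h1 ?_
        have h4 := dz_grz' R (j - 1) hc1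
        rwa [sub_add_cancel] at h4
      · show x - dz R c ∈ FB R (Igr 𝔽 R) b s
        rw [← pX_FI 𝔽 R hy (Submodule.sub_mem _ h2 (dz_FB' R _ b s hc2)), map_sub, pX_d 𝔽 R b,
          ← hsum, add_sub_cancel_right]
        exact ha'.2
    · intro h
      obtain ⟨a, ha, _, ⟨c, hc, rfl⟩, hsum⟩ := Submodule.mem_sup.mp h
      rw [← hsum, map_add, pX_d 𝔽 R b]
      refine Submodule.add_mem_sup ⟨pX_gr 𝔽 R ha.1, ?_⟩ ⟨_, ⟨pX_gr 𝔽 R hc.1, pX_mem 𝔽 R hc.2⟩, rfl⟩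
      have h4 : a ∈ FB R ⊤ b s := fun τ => IB_mono_pf R le_top b τ s (ha.2 τ)
      exact (pX_FI 𝔽 R hy h4).mpr ha.2

/-- exactness of `CR` -/
theorem exact_link_pf (hy : yR 𝔽 R (0 : Fin (n + 1)) * yR 𝔽 R (Fin.last n) ∈ nonZeroDivisors R)
    (b : Fin n → ℤ) (s j : ℤ) (h : Hz R (Irs 𝔽 R) ⊤ b s j = 0) :
    ∀ x ∈ (CR 𝔽 R b).gr j ⊓ (CR 𝔽 R b).F s, (CR 𝔽 R b).d x = 0 →
      ∃ w ∈ (CR 𝔽 R b).gr (j - 1) ⊓ (CR 𝔽 R b).F s, (CR 𝔽 R b).d w = x := by
  rintro y ⟨h1, h2⟩ h3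
  obtain ⟨x, ⟨hx1, hx2⟩, rfl⟩ := pX_surj 𝔽 R h1 h2
  have h4 : dz R x ∈ FB R (Irs 𝔽 R) b s := by
    rw [← pX_F0 𝔽 R hy (dz_FB' R _ b s hx2), pX_d, h3]
  obtain ⟨a, ha, _, ⟨c, hc, rfl⟩, hsum⟩ := Submodule.mem_sup.mp
    (GJ2_le h (show x ∈ grz R j ⊓ FB R ⊤ b s ⊓ (FB R (Irs 𝔽 R) b s).comap (dz R) from
      ⟨⟨hx1, hx2⟩, h4⟩))
  refine ⟨pX 𝔽 R c, ⟨pX_gr 𝔽 R hc.1, pX_mem 𝔽 R hc.2⟩, ?_⟩
  have h5 : a ∈ FB R ⊤ b s := fun τ => IB_mono_pf R le_top b τ s (ha.2 τ)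
  rw [← hsum, map_add, (pX_F0 𝔽 R hy h5).mpr ha.2, zero_add, pX_d 𝔽 R b]

/-! ### global sections -/

theorem GJ2_step {x : Xz R n} (hx : dz R x = 0) (τ : Fin n → Fin 3)
    (hτ : ∀ l, τ l ≠ 2) (l : Fin n) :
    x (Function.update τ l 0) = x (Function.update τ l 1) := by
  classical
  have h2 := congrFun hx (Function.update τ l 2)
  rw [GA2_dz_apply] at h2
  have h3 : Finset.univ.filter (fun m => Function.update τ l 2 m = 2) = {l} := by
    ext m
    simp only [Finset.mem_filter, Finset.mem_univ, true_and, Finset.mem_singleton]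
    constructor
    · intro h
      by_contra hne
      rw [Function.update_of_ne hne] at h
      exact hτ m h
    · rintro rfl
      rw [Function.update_self]
  rw [h3, Finset.sum_singleton, Function.update_idem, Function.update_idem] at h2
  have h4 : (x (Function.update τ l 0) - x (Function.update τ l 1)) = 0 := by
    unfold csg at h2
    rcases neg_one_pow_eq_or ℤ (Finset.univ.filter
      (fun m => m < l ∧ Function.update τ l 2 m = 2)).card with h | h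
    · rw [h, one_smul] at h2
      exact h2
    · rw [h, neg_smul, one_smul] at h2
      exact neg_eq_zero.1 h2
  exact sub_eq_zero.1 h4

theorem GJ2_const {x : Xz R n} (hx : dz R x = 0) (τ : Fin n → Fin 3)
    (hτ : ∀ l, τ l ≠ 2) : x τ = x (fun _ => 0) := by
  classical
  have h1 : ∀ s : Finset (Fin n), x (fun l => if l ∈ s then 1 else 0) = x (fun _ => 0) := by
    intro s
    induction s using Finset.induction_on with
    | empty => simp
    | insert a s ha ih =>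
      have h2 := GJ2_step R hx (fun l => if l ∈ s then (1 : Fin 3) else 0) (fun l => by
        split_ifs <;> decide) a
      have e1 : Function.update (fun l => if l ∈ s then (1 : Fin 3) else 0) a 0 =
          fun l => if l ∈ s then 1 else 0 := by
        funext l
        by_cases h : l = a
        · subst h
          rw [Function.update_self, if_neg ha]
        · rw [Function.update_of_ne h]
      have e2 : Function.update (fun l => if l ∈ s then (1 : Fin 3) else 0) a 1 =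
          fun l => if l ∈ insert a s then 1 else 0 := by
        funext l
        by_cases h : l = a
        · subst h
          rw [Function.update_self, if_pos (Finset.mem_insert_self _ _)]
        · rw [Function.update_of_ne h]
          simp only [Finset.mem_insert, h, false_or]
      rw [e1, e2, ih] at h2
      exact h2.symm
  have h3 : τ = fun l => if l ∈ Finset.univ.filter (fun l => τ l = 1) then 1 else 0 := by
    funext l
    have h4 := hτ l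
    by_cases h5 : τ l = 1
    · simp [h5]
    · simp only [Finset.mem_filter, Finset.mem_univ, true_and, h5, if_false]
      revert h4 h5
      generalize τ l = c
      intro h4 h5
      fin_cases c
      · rfl
      · exact absurd rfl h5
      · exact absurd rfl h4
  rw [h3]
  exact h1 _

/-- a constant family of monomials -/
theorem GJ2_mem (b : Fin n → ℤ) (m : (Fin n → ℤ) × ℤ) (h0 : m.2 = 0)
    (h1 : ∀ l, 0 ≤ m.1 l ∧ m.1 l ≤ b l) :
    (fun τ => if ∀ l, τ l ≠ 2 then (AddMonoidAlgebra.single m (1 : 𝔽) : Lau 𝔽 n) else 0 : XA 𝔽 n) ∈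
      MI.M0 (CA 𝔽 b) := by
  refine fr_lift_mem 𝔽 ?_
  rw [mem_MSub]
  intro m' hm'
  classical
  rw [AddMonoidAlgebra.coeff_single, Finsupp.single_apply] at hm'
  by_cases h2 : m = m'
  · subst h2
    refine ⟨h0.ge, fun l => ⟨(h1 l).1, ?_⟩⟩
    rw [h0, add_zero]
    exact (h1 l).2
  · rw [if_neg h2] at hm'
    exact absurd rfl hm'

/-- global sections of `CR` come from `A` -/
theorem M0_link_pf (hy : yR 𝔽 R (0 : Fin (n + 1)) * yR 𝔽 R (Fin.last n) ∈ nonZeroDivisors R)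
    (b : Fin n → ℤ) (h : Hz R ⊥ (Irs 𝔽 R) b 0 1 = 0) :
    MI.M0 (CR 𝔽 R b) = (MI.M0 (CA 𝔽 b)).baseChange R := by
  classical
  apply le_antisymm
  · rintro y ⟨⟨h1, h2⟩, h3⟩
    obtain ⟨x0, ⟨hx1, hx2⟩, rfl⟩ := pX_surj 𝔽 R h1 h2
    have h4 : dz R x0 ∈ FB R (Irs 𝔽 R) b 0 := by
      rw [← pX_F0 𝔽 R hy (dz_FB' R _ b 0 hx2), pX_d 𝔽 R b]
      exact h3
    have h5 : dz R x0 ∈ grz R 1 := by
      have := dz_grz' R 0 hx1
      rwa [zero_add] at this
    obtain ⟨a, ha, _, ⟨c, hc, rfl⟩, hsum⟩ := Submodule.mem_sup.mp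
      (GJ2_le h (show dz R x0 ∈ grz R 1 ⊓ FB R (Irs 𝔽 R) b 0 ⊓
        (FB R (⊥ : Ideal (Pz R n)) b 0).comap (dz R) from
        ⟨⟨h5, h4⟩, by
          show dz R (dz R x0) ∈ FB R (⊥ : Ideal (Pz R n)) b 0
          rw [dz_dz']
          exact Submodule.zero_mem _⟩))
    have ha0 : a = 0 := by
      funext τ
      have := ha.2 τ
      rw [IB_bot_pf, Submodule.mem_bot] at this
      exact this
    rw [ha0, zero_add] at hsum
    rw [show (1 : ℤ) - 1 = 0 from sub_self 1] at hc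
    have hcT : c ∈ FB R ⊤ b 0 := fun τ => IB_mono_pf R le_top b τ 0 (hc.2 τ)
    set x := x0 - c with hxdef
    have hpx : pX 𝔽 R x0 = pX 𝔽 R x := by
      rw [hxdef, map_sub, (pX_F0 𝔽 R hy hcT).mpr hc.2, sub_zero]
    have hx3 : x ∈ grz R 0 := Submodule.sub_mem _ hx1 hc.1
    have hx4 : x ∈ FB R ⊤ b 0 := Submodule.sub_mem _ hx2 hcT
    have hx5 : dz R x = 0 := by rw [hxdef, map_sub, hsum, sub_self]
    rw [hpx]
    set β := x (fun _ => 0) with hβ
    -- the monomials of `β`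
    have hm : ∀ m, β.coeff m ≠ 0 → m.2 = 0 ∧ ∀ l, 0 ≤ m.1 l ∧ m.1 l ≤ b l := by
      intro m hm
      have h6 := hx4 (fun _ => 0)
      rw [IB_top_pf] at h6
      have h7 := hx4 (fun _ => 1)
      rw [IB_top_pf, GJ2_const R hx5 (fun _ => 1) (fun l => by decide)] at h7
      obtain ⟨a1, a2, _⟩ := h6 m hm
      obtain ⟨_, _, a3⟩ := h7 m hm
      refine ⟨a1, fun l => ⟨a3 l rfl, ?_⟩⟩
      have := a2 l rfl
      rwa [add_zero] at this
    have hsum2 : pX 𝔽 R x = ∑ m ∈ β.coeff.support, β.coeff m • ((1 : R) ⊗ₜ[PolyA 𝔽 n]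
        (fun τ => if ∀ l, τ l ≠ 2 then (AddMonoidAlgebra.single m (1 : 𝔽) : Lau 𝔽 n) else 0 :
          XA 𝔽 n)) := by
      apply (cp 𝔽 R).injective
      funext τ
      rw [cp_pX, map_sum, Finset.sum_apply]
      by_cases hτ : ∀ l, τ l ≠ 2
      · rw [GJ2_const R hx5 τ hτ]
        conv_lhs => rw [← hβ, eq_sum_single R β]
        rw [map_sum]
        refine Finset.sum_congr rfl fun m _ => ?_
        rw [pA_single, map_smul, Pi.smul_apply, cp_tmul, if_pos hτ, TensorProduct.smul_tmul',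
          smul_eq_mul, mul_one]
      · have h8 : x τ = 0 := by
          refine hx3 τ ?_
          rw [← fr_num2] at hτ
          exact_mod_cast hτ
        rw [h8, map_zero]
        symm
        refine Finset.sum_eq_zero fun m _ => ?_
        rw [map_smul, Pi.smul_apply, cp_tmul, if_neg hτ, TensorProduct.tmul_zero, smul_zero]
    rw [hsum2]
    refine Submodule.sum_mem _ fun m hm' => Submodule.smul_mem _ _ ?_
    obtain ⟨h9, h10⟩ := hm m (Finsupp.mem_support_iff.mp hm')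
    exact Submodule.tmul_mem_baseChange_of_mem (A := R) 1 (GJ2_mem 𝔽 b m h9 h10)
  · rw [Submodule.baseChange_eq_span, Submodule.span_le]
    rintro _ ⟨f, ⟨⟨h1, h2⟩, h3⟩, rfl⟩
    refine ⟨⟨Submodule.tmul_mem_baseChange_of_mem (A := R) 1 h1,
      Submodule.tmul_mem_baseChange_of_mem (A := R) 1 h2⟩, ?_⟩
    show (CR 𝔽 R b).d ((1 : R) ⊗ₜ[PolyA 𝔽 n] f) = 0
    rw [CR_d, LinearMap.baseChange_tmul]
    have h4 : dA 𝔽 n f = 0 := h3
    rw [h4, TensorProduct.tmul_zero]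

end GJ2c

end Vale.Agent.P202G
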