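import Vale.Agent.P202G.GL1
import Vale.Agent.P202C.Mon

/-!
# P202, stage 2: multiplicity from the pieces (helper67)
-/

set_option autoImplicit false

namespace Vale.Agent.P202G

open IsLocalRing TensorProduct Vale.Agent.P202C Vale.Agent.P202

universe u v w

theorem GL2_sum_pow {n : ℕ} (hn : 1 ≤ n) (T : ℕ) :
    ∑ t ∈ Finset.range T, (t + 1) ^ (n - 1) ≤ T ^ n := by
  calc ∑ t ∈ Finset.range T, (t + 1) ^ (n - 1)
      ≤ ∑ _t ∈ Finset.range T, T ^ (n - 1) := Finset.sum_le_sum fun t ht =>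
        Nat.pow_le_pow_left (Finset.mem_range.1 ht) _
    _ = T ^ n := by
        rw [Finset.sum_const, Finset.card_range, smul_eq_mul, ← pow_succ', Nat.sub_add_cancel hn]

/-- squeeze -/
theorem GL2_lim {n A C c : ℕ} {l : ℕ → ℕ} (h1 : ∀ N, l N ≤ A * (N + n).choose (n + 1) + C * N ^ n)
    (h2 : ∀ N, A * (N + n).choose (n + 1) ≤ l (N + c)) :
    Filter.Tendsto (fun N : ℕ => ((n + 1).factorial : ℝ) * (l N : ℝ) / (N : ℝ) ^ (n + 1))
      Filter.atTop (nhds (A : ℝ)) := by
  have hinv : Filter.Tendsto (fun N : ℕ => ((N : ℝ))⁻¹) Filter.atTop (nhds 0) :=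
    tendsto_inv_atTop_nhds_zero_nat
  have hup : Filter.Tendsto (fun N : ℕ => (A : ℝ) * (1 + (n : ℝ) * (N : ℝ)⁻¹) ^ (n + 1) +
      ((n + 1).factorial : ℝ) * C * (N : ℝ)⁻¹) Filter.atTop (nhds (A : ℝ)) := by
    have := (((hinv.const_mul (n : ℝ)).const_add 1).pow (n + 1)).const_mul (A : ℝ)
    have h3 := this.add (hinv.const_mul (((n + 1).factorial : ℝ) * C))
    simpa using h3
  have hlo : Filter.Tendsto (fun N : ℕ => (A : ℝ) * (1 - (c : ℝ) * (N : ℝ)⁻¹) ^ (n + 1))
      Filter.atTop (nhds (A : ℝ)) := by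
    have := (((hinv.const_mul (c : ℝ)).const_sub 1).pow (n + 1)).const_mul (A : ℝ)
    simpa using this
  refine tendsto_of_tendsto_of_tendsto_of_le_of_le' hlo hup ?_ ?_
  · filter_upwards [Filter.eventually_gt_atTop c] with N hN
    have hN0 : (0 : ℝ) < N := by
      have : 0 < N := by omega
      exact_mod_cast this
    obtain ⟨M, rfl⟩ : ∃ M, N = M + c := ⟨N - c, by omega⟩
    have h3 : A * M ^ (n + 1) ≤ (n + 1).factorial * l (M + c) := by
      have h4 : M ^ (n + 1) ≤ (n + 1).factorial * (M + n).choose (n + 1) := by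
        rw [← Nat.descFactorial_eq_factorial_mul_choose]
        have := Nat.pow_sub_le_descFactorial (M + n) (n + 1)
        rwa [show M + n + 1 - (n + 1) = M by omega] at this
      calc A * M ^ (n + 1) ≤ A * ((n + 1).factorial * (M + n).choose (n + 1)) :=
            Nat.mul_le_mul_left _ h4
        _ = (n + 1).factorial * (A * (M + n).choose (n + 1)) := by ring
        _ ≤ _ := Nat.mul_le_mul_left _ (h2 M)
    have h3' : (A : ℝ) * (M : ℝ) ^ (n + 1) ≤ ((n + 1).factorial : ℝ) * (l (M + c) : ℝ) := by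
      exact_mod_cast h3
    rw [le_div_iff₀ (by positivity)]
    have h5 : (1 - (c : ℝ) * ((M + c : ℕ) : ℝ)⁻¹) ^ (n + 1) * ((M + c : ℕ) : ℝ) ^ (n + 1) =
        (M : ℝ) ^ (n + 1) := by
      rw [← mul_pow]
      congr 1
      rw [sub_mul, one_mul, mul_assoc, inv_mul_cancel₀ hN0.ne']
      push_cast
      ring
    rw [mul_assoc, h5]
    exact h3'
  · filter_upwards [Filter.eventually_gt_atTop 0] with N hN
    have hN0 : (0 : ℝ) < N := by exact_mod_cast hN
    have h3 : (n + 1).factorial * l N ≤ A * (N + n) ^ (n + 1) + (n + 1).factorial * C * N ^ n := by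
      have h4 : (n + 1).factorial * (N + n).choose (n + 1) ≤ (N + n) ^ (n + 1) := by
        rw [← Nat.descFactorial_eq_factorial_mul_choose]
        exact Nat.descFactorial_le_pow _ _
      calc (n + 1).factorial * l N ≤ (n + 1).factorial * (A * (N + n).choose (n + 1) + C * N ^ n) :=
            Nat.mul_le_mul_left _ (h1 N)
        _ = A * ((n + 1).factorial * (N + n).choose (n + 1)) + (n + 1).factorial * C * N ^ n := by
            ring
        _ ≤ _ := Nat.add_le_add_right (Nat.mul_le_mul_left _ h4) _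
    have h3' : ((n + 1).factorial : ℝ) * (l N : ℝ) ≤
        A * ((N : ℝ) + n) ^ (n + 1) + ((n + 1).factorial : ℝ) * C * (N : ℝ) ^ n := by
      exact_mod_cast h3
    rw [div_le_iff₀ (by positivity)]
    have h5 : (1 + (n : ℝ) * (N : ℝ)⁻¹) ^ (n + 1) * (N : ℝ) ^ (n + 1) = ((N : ℝ) + n) ^ (n + 1) := by
      rw [← mul_pow]
      congr 1
      rw [add_mul, one_mul, mul_assoc, inv_mul_cancel₀ hN0.ne']
      ring
    have h6 : (N : ℝ)⁻¹ * (N : ℝ) ^ (n + 1) = (N : ℝ) ^ n := by
      rw [pow_succ']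
      field_simp
    rw [add_mul, mul_assoc, h5, mul_assoc _ _ ((N : ℝ) ^ (n + 1)), h6]
    exact h3'

section GLL
variable {n : ℕ} (κ : Type u) [Field κ]

/-- multiplicity from the pieces -/
theorem mult_pieces_pf (R : Type u) [CommRing R] [IsLocalRing R] [IsNoetherianRing R] (hn : 1 ≤ n)
    (hD : ringKrullDim R = ((n + 1 : ℕ) : WithBot ℕ∞)) (I : Ideal R) (c : ℕ) (hI : I ≤ maximalIdeal R)
    (hc : ∀ t : ℕ, maximalIdeal R ^ (t + c) ≤ I ^ t)
    (r : ℕ) (L : Fin r → Ideal (Pz (ResidueField R) n)) (hL : ∀ i, HI (ResidueField R) (L i))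
    (h : ∀ t : ℕ, rlen (I ^ (t + 1)) (I ^ t) = ∑ i, hf (ResidueField R) (L i) t) :
    HasMult R (((Finset.univ.filter (fun i => L i = ⊥)).card : ℕ) : ℝ) := by
  set A : ℕ := (Finset.univ.filter (fun i => L i = ⊥)).card with hA
  have hch : ∀ T : ℕ, Module.length R (R ⧸ I ^ T) =
      ∑ t ∈ Finset.range T, ∑ i, hf (ResidueField R) (L i) t := by
    intro T
    have h1 := Mon.rlen_chain (fun d => I ^ d) (fun d => Ideal.pow_le_pow_right (Nat.le_succ d)) T
    have h0 : (I ^ 0 : Ideal R) = ⊤ := by rw [pow_zero, Ideal.one_eq_top]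
    rw [h0] at h1
    rw [← Mon.rlen_top, h1]
    exact Finset.sum_congr rfl fun t _ => h t
  have hb : ∀ i, ∃ C : ℕ, L i ≠ ⊥ → ∀ t : ℕ,
      hf (ResidueField R) (L i) t ≤ ((C * (t + 1) ^ (n - 1) : ℕ) : ℕ∞) := by
    intro i
    by_cases hi : L i = ⊥
    · exact ⟨0, fun h' => absurd hi h'⟩
    · obtain ⟨C, hC⟩ := hf_bound_pf (ResidueField R) hn (hL i) hi
      exact ⟨C, fun _ => hC⟩
  choose C hC using hb
  have hbot : ∀ t, ∑ i ∈ Finset.univ.filter (fun i => L i = ⊥), hf (ResidueField R) (L i) t =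
      ((A * (t + n).choose n : ℕ) : ℕ∞) := by
    intro t
    rw [Finset.sum_congr rfl fun i hi => by
      rw [(Finset.mem_filter.1 hi).2, hf_bot_pf (ResidueField R) t]]
    rw [Finset.sum_const, nsmul_eq_mul, hA]
    push_cast
    rfl
  have hlow : ∀ T : ℕ, ((A * (T + n).choose (n + 1) : ℕ) : ℕ∞) ≤ Module.length R (R ⧸ I ^ T) := by
    intro T
    rw [hch T, ← Mon.sum_choose n T, Finset.mul_sum, Nat.cast_sum]
    refine Finset.sum_le_sum fun t _ => ?_
    rw [← hbot t]
    exact Finset.sum_le_sum_of_subset (Finset.filter_subset _ _)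
  have hupp : ∀ T : ℕ, Module.length R (R ⧸ I ^ T) ≤
      ((A * (T + n).choose (n + 1) + (∑ i, C i) * T ^ n : ℕ) : ℕ∞) := by
    intro T
    rw [hch T]
    have h1 : ∀ t ∈ Finset.range T, ∑ i, hf (ResidueField R) (L i) t ≤
        ((A * (t + n).choose n + (∑ i, C i) * (t + 1) ^ (n - 1) : ℕ) : ℕ∞) := by
      intro t _
      rw [← Finset.sum_filter_add_sum_filter_not Finset.univ (fun i => L i = ⊥), hbot t,
        Nat.cast_add]
      refine add_le_add_right ?_ _
      calc ∑ i ∈ Finset.univ.filter (fun i => ¬ L i = ⊥), hf (ResidueField R) (L i) t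
          ≤ ∑ i ∈ Finset.univ.filter (fun i => ¬ L i = ⊥),
            ((C i * (t + 1) ^ (n - 1) : ℕ) : ℕ∞) :=
            Finset.sum_le_sum fun i hi => hC i (Finset.mem_filter.1 hi).2 t
        _ ≤ ∑ i, ((C i * (t + 1) ^ (n - 1) : ℕ) : ℕ∞) :=
            Finset.sum_le_sum_of_subset (Finset.filter_subset _ _)
        _ = _ := by rw [← Nat.cast_sum, ← Finset.sum_mul]
    refine (Finset.sum_le_sum h1).trans ?_
    rw [← Nat.cast_sum, Nat.cast_le, Finset.sum_add_distrib, ← Finset.mul_sum, ← Finset.mul_sum,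
      Mon.sum_choose]
    exact Nat.add_le_add_left (Nat.mul_le_mul_left _ (GL2_sum_pow hn T)) _
  have hm1 : ∀ N : ℕ, Module.length R (R ⧸ maximalIdeal R ^ N) ≤ Module.length R (R ⧸ I ^ N) :=
    fun N => Module.length_le_of_surjective (Submodule.factor (Ideal.pow_right_mono hI N))
      (Submodule.factor_surjective (Ideal.pow_right_mono hI N))
  have hm2 : ∀ N : ℕ, Module.length R (R ⧸ I ^ N) ≤
      Module.length R (R ⧸ maximalIdeal R ^ (N + c)) :=
    fun N => Module.length_le_of_surjective (Submodule.factor (hc N))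
      (Submodule.factor_surjective (hc N))
  have hne : ∀ N : ℕ, Module.length R (R ⧸ maximalIdeal R ^ N) ≠ ⊤ := fun N hN => by
    have h1 := (hm1 N).trans (hupp N)
    rw [hN, top_le_iff] at h1
    exact ENat.natCast_ne_top _ h1
  refine ⟨n + 1, hD, ?_⟩
  refine GL2_lim (n := n) (A := A) (C := ∑ i, C i) (c := c)
    (l := fun N => (Module.length R (R ⧸ maximalIdeal R ^ N)).toNat) ?_ ?_
  · intro N
    have h1 := ENat.toNat_le_toNat ((hm1 N).trans (hupp N)) (ENat.natCast_ne_top _)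
    rwa [ENat.toNat_natCast] at h1
  · intro N
    have h1 := ENat.toNat_le_toNat ((hlow N).trans (hm2 N)) (hne _)
    rwa [ENat.toNat_natCast] at h1

end GLL

end Vale.Agent.P202G
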