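import Vale.Agent.P202G.GMa

/-!
P202 stage 2, module GM (helper59): the module of global sections `M0` over `R` is finite and
embeds into `R^{n!}` with cokernel killed by a power of `y_0`.
-/

set_option autoImplicit false

namespace Vale.Agent.P202G

open TensorProduct Vale.Agent.P202C

universe u v w

section GM

variable (𝔽 : Type w) [Field 𝔽] {n : ℕ} (R : Type u) [CommRing R] [Algebra (PolyA 𝔽 n) R]

/-- constant families, `A`-linear -/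
noncomputable def gmLift : Lau 𝔽 n →ₗ[PolyA 𝔽 n] XA 𝔽 n where
  toFun h := fun τ => if ∀ l, τ l ≠ 2 then h else 0
  map_add' := fun h g => by
    funext τ
    show (if ∀ l, τ l ≠ 2 then h + g else 0) = (if ∀ l, τ l ≠ 2 then h else 0) +
      (if ∀ l, τ l ≠ 2 then g else 0)
    split_ifs
    · rfl
    · rw [add_zero]
  map_smul' := fun a h => by
    funext τ
    show (if ∀ l, τ l ≠ 2 then a • h else 0) = a • (if ∀ l, τ l ≠ 2 then h else 0)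
    split_ifs
    · rfl
    · rw [smul_zero]

theorem gmLift_mem {b : Fin n → ℤ} {h : Lau 𝔽 n} (hh : h ∈ MSub 𝔽 b) :
    gmLift 𝔽 h ∈ MI.M0 (CA 𝔽 b) := fr_lift_mem 𝔽 hh

/-- evaluation, `A`-linear -/
noncomputable def gmEv (N : ℕ) : XA 𝔽 n →ₗ[PolyA 𝔽 n] Lau 𝔽 n :=
  (MvPolynomial.X 0 ^ N : PolyA 𝔽 n) • LinearMap.proj (fun _ => 0)

theorem gmEv_apply (N : ℕ) (x : XA 𝔽 n) :
    gmEv 𝔽 N x = (MvPolynomial.X 0 ^ N : PolyA 𝔽 n) • x (fun _ => 0) := rfl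

theorem gm_ret (N : ℕ) {b : Fin n → ℤ} {x : XA 𝔽 n} (hx : x ∈ MI.M0 (CA 𝔽 b)) :
    gmLift 𝔽 (gmMul 𝔽 n (-((0 : Fin n → ℤ), (N : ℤ))) (gmEv 𝔽 N x)) = x := by
  rw [gmEv_apply, fr_X0]
  have h1 : gmMul 𝔽 n (-((0 : Fin n → ℤ), (N : ℤ)))
      (AddMonoidAlgebra.single ((0 : Fin n → ℤ), (N : ℤ)) 1 * x (fun _ => 0)) =
        x (fun _ => 0) := gm_inv 𝔽 n ((0 : Fin n → ℤ), (N : ℤ)) _
  rw [h1]
  funext τ
  show (if ∀ l, τ l ≠ 2 then x (fun _ => 0) else 0) = x τ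
  split_ifs with h
  · exact (fr_const 𝔽 hx τ h).symm
  · exact (fr_zero 𝔽 hx τ h).symm

theorem gm_ret_bc (N : ℕ) {b : Fin n → ℤ} {z : R ⊗[PolyA 𝔽 n] XA 𝔽 n}
    (hz : z ∈ (MI.M0 (CA 𝔽 b)).baseChange R) :
    (gmLift 𝔽 ∘ₗ gmMul 𝔽 n (-((0 : Fin n → ℤ), (N : ℤ)))).baseChange R
      ((gmEv 𝔽 N).baseChange R z) = z := by
  obtain ⟨z', rfl⟩ := hz
  induction z' using TensorProduct.induction_on with
  | zero => simp
  | tmul r x =>
    have h : (MI.M0 (CA 𝔽 b)).subtype.baseChange R (r ⊗ₜ[PolyA 𝔽 n] x) =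
      r ⊗ₜ[PolyA 𝔽 n] (x : XA 𝔽 n) := rfl
    rw [h, LinearMap.baseChange_tmul, LinearMap.baseChange_tmul, LinearMap.comp_apply,
      gm_ret 𝔽 N x.2]
  | add x y hx hy => rw [map_add, map_add, map_add, hx, hy]

theorem gm_map_bc {X : Type v} [AddCommGroup X] [Module (PolyA 𝔽 n) X]
    {Y : Type v} [AddCommGroup Y] [Module (PolyA 𝔽 n) Y] (f : X →ₗ[PolyA 𝔽 n] Y)
    (P : Submodule (PolyA 𝔽 n) X) (Q : Submodule (PolyA 𝔽 n) Y) (h : ∀ x ∈ P, f x ∈ Q)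
    (z : R ⊗[PolyA 𝔽 n] X) (hz : z ∈ P.baseChange R) : f.baseChange R z ∈ Q.baseChange R := by
  obtain ⟨z', rfl⟩ := hz
  induction z' using TensorProduct.induction_on with
  | zero =>
    rw [map_zero, map_zero]
    exact Submodule.zero_mem _
  | tmul r x =>
    have h1 : P.subtype.baseChange R (r ⊗ₜ[PolyA 𝔽 n] x) = r ⊗ₜ[PolyA 𝔽 n] (x : X) := rfl
    rw [h1, LinearMap.baseChange_tmul]
    exact Submodule.tmul_mem_baseChange_of_mem (A := R) r (h x x.2)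
  | add x y hx hy =>
    rw [map_add, map_add]
    exact Submodule.add_mem _ hx hy

/-- the base change of `M*` is the span of `1 ⊗ z^g` -/
theorem gm_bstar_bc : (MSub 𝔽 (bstar n)).baseChange R =
    Submodule.span R (Set.range (fun g : frI n => (1 : R) ⊗ₜ[PolyA 𝔽 n] frS 𝔽 n g)) := by
  rw [← fr_span 𝔽, Submodule.baseChange_span, ← Set.range_comp]
  rfl

theorem gm_finA (b : Fin n → ℤ) : Module.Finite (PolyA 𝔽 n) (MI.M0 (CA 𝔽 b)) := by
  obtain ⟨g, N, hg, -⟩ := fr_main 𝔽 b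
  exact Module.Finite.of_injective g hg

theorem gm_fin (b : Fin n → ℤ) :
    Module.Finite R ((MI.M0 (CA 𝔽 b)).baseChange R) := by
  have := gm_finA 𝔽 b
  have h : (MI.M0 (CA 𝔽 b)).baseChange R =
    LinearMap.range ((MI.M0 (CA 𝔽 b)).subtype.baseChange R) := rfl
  rw [h]
  infer_instance

theorem gm_shift (b : Fin n → ℤ) :
    ∃ N : ℕ, (∀ l, b l ≤ bstar n l + N) ∧ ∀ l, bstar n l ≤ b l + N := by
  refine ⟨∑ l, (b l - bstar n l).natAbs, fun l => ?_, fun l => ?_⟩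
  · have h1 := Finset.single_le_sum (f := fun l => (b l - bstar n l).natAbs)
      (fun i _ => Nat.zero_le _) (Finset.mem_univ l)
    have h2 : (b l - bstar n l).natAbs ≤ ∑ l, (b l - bstar n l).natAbs := h1
    omega
  · have h1 := Finset.single_le_sum (f := fun l => (b l - bstar n l).natAbs)
      (fun i _ => Nat.zero_le _) (Finset.mem_univ l)
    have h2 : (b l - bstar n l).natAbs ≤ ∑ l, (b l - bstar n l).natAbs := h1
    omega

theorem M0_gen_pf (hy : yR 𝔽 R (0 : Fin (n + 1)) * yR 𝔽 R (Fin.last n) ∈ nonZeroDivisors R)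
    (b : Fin n → ℤ) (hb : ∀ l, 0 ≤ b l)
    (hM : MI.M0 (CR 𝔽 R b) = (MI.M0 (CA 𝔽 b)).baseChange R) :
    Module.Finite R (MI.M0 (CR 𝔽 R b)) ∧
    ∃ (f : MI.M0 (CR 𝔽 R b) →ₗ[R] (Fin n.factorial → R)) (N : ℕ), Function.Injective f ∧
      ∀ v, yR 𝔽 R (0 : Fin (n + 1)) ^ N • v ∈ LinearMap.range f := by
  classical
  clear hb
  rw [hM]
  refine ⟨gm_fin 𝔽 R b, ?_⟩
  obtain ⟨N, hN1, hN2⟩ := gm_shift b
  have hli := gm_indep 𝔽 R hy
  -- the coordinates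
  let e0 : ↥(Submodule.span R (Set.range (fun g : frI n => (1 : R) ⊗ₜ[PolyA 𝔽 n] frS 𝔽 n g)))
      ≃ₗ[R] (frI n → R) := (Module.Basis.span hli).equivFun
  let e : ↥((MSub 𝔽 (bstar n)).baseChange R) ≃ₗ[R] (Fin n.factorial → R) :=
    (LinearEquiv.ofEq _ _ (gm_bstar_bc 𝔽 R)).trans (e0.trans (LinearEquiv.funCongrLeft R R
      (Fintype.equivFinOfCardEq (card_frI (n := n))).symm))
  have hmem : ∀ z ∈ (MI.M0 (CA 𝔽 b)).baseChange R,
      (gmEv 𝔽 N).baseChange R z ∈ (MSub 𝔽 (bstar n)).baseChange R := fun z hz =>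
    gm_map_bc 𝔽 R (gmEv 𝔽 N) _ _
      (fun x hx => fr_X0_mem 𝔽 N b (bstar n) hN1 _ (fr_ev_mem 𝔽 hx)) z hz
  let G : ↥((MI.M0 (CA 𝔽 b)).baseChange R) →ₗ[R] ↥((MSub 𝔽 (bstar n)).baseChange R) :=
    ((gmEv 𝔽 N).baseChange R).restrict hmem
  refine ⟨e.toLinearMap ∘ₗ G, N + N, ?_, ?_⟩
  · refine e.injective.comp ?_
    intro x y hxy
    have h1 : (gmEv 𝔽 N).baseChange R x.1 = (gmEv 𝔽 N).baseChange R y.1 :=
      congrArg Subtype.val hxy
    have h2 := gm_ret_bc 𝔽 R N x.2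
    rw [h1, gm_ret_bc 𝔽 R N y.2] at h2
    exact Subtype.ext h2.symm
  · intro v
    set w := e.symm v with hw
    let H : Lau 𝔽 n →ₗ[PolyA 𝔽 n] XA 𝔽 n :=
      (MvPolynomial.X 0 ^ N : PolyA 𝔽 n) • gmLift 𝔽
    have hH : ∀ x ∈ MSub 𝔽 (bstar n), H x ∈ MI.M0 (CA 𝔽 b) := by
      intro x hx
      have h1 := gmLift_mem 𝔽 (fr_X0_mem 𝔽 N (bstar n) b hN2 _ hx)
      rw [map_smul] at h1
      exact h1
    have hz := gm_map_bc 𝔽 R H _ _ hH w.1 w.2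
    have key : (gmEv 𝔽 N) ∘ₗ H =
        (MvPolynomial.X 0 ^ (N + N) : PolyA 𝔽 n) • (LinearMap.id : Lau 𝔽 n →ₗ[PolyA 𝔽 n] Lau 𝔽 n) := by
      refine LinearMap.ext fun x => ?_
      show (MvPolynomial.X 0 ^ N : PolyA 𝔽 n) • ((MvPolynomial.X 0 ^ N : PolyA 𝔽 n) •
        (if ∀ l : Fin n, (0 : Fin 3) ≠ 2 then x else 0)) = (MvPolynomial.X 0 ^ (N + N) :
          PolyA 𝔽 n) • x
      rw [if_pos (fun _ => by decide), smul_smul, pow_add]
    refine ⟨⟨_, hz⟩, ?_⟩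
    have h3 : G ⟨_, hz⟩ = yR 𝔽 R (0 : Fin (n + 1)) ^ (N + N) • w := by
      apply Subtype.ext
      show (gmEv 𝔽 N).baseChange R (H.baseChange R w.1) = yR 𝔽 R (0 : Fin (n + 1)) ^ (N + N) • w.1
      rw [← LinearMap.comp_apply, ← LinearMap.baseChange_comp, key, LinearMap.baseChange_smul,
        LinearMap.baseChange_id, LinearMap.smul_apply, LinearMap.id_apply]
      unfold yR
      rw [← map_pow, algebraMap_smul]
    show e (G ⟨_, hz⟩) = _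
    rw [h3, map_smul, hw, LinearEquiv.apply_symm_apply]

end GM

end Vale.Agent.P202G
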