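import Vale.Agent.P202G.GK
import Vale.Agent.P202G.GH
import Vale.Agent.P202G.GL2
import Vale.Agent.P202G.GM
import Vale.Agent.P202G.GJ2c

/-!
# P202, stage 2: the package of facts about `CR` for general `R` (helper40)
-/

set_option autoImplicit false

namespace Vale.Agent.P202G

open IsLocalRing TensorProduct Vale.Agent.P202C Vale.Agent.P202

universe u v w

section GP

variable {n : ℕ} (κ : Type u) [Field κ]

theorem GP_top_ne (b : Fin n → ℤ) (s j : ℤ) : Hz κ ⊥ ⊤ b s j ≠ ⊤ := by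
  by_cases h : j = negc b s
  · rw [h, Hz_top_eq']
    exact ENat.natCast_ne_top _
  · rw [Hz_top_zero' κ b s j h]
    exact ENat.zero_ne_top

theorem GP_chz_abs {I : Ideal (Pz κ n)} {b : Fin n → ℤ} {s : ℤ} {B : ℕ}
    (h : ∀ j, Hz κ I ⊤ b s j ≤ (B : ℕ∞)) : |chz κ I ⊤ b s| ≤ ((n + 1) * B : ℕ) := by
  unfold chz
  calc |∑ j ∈ Finset.range (n + 1), (-1 : ℤ) ^ j * ((Hz κ I ⊤ b s j).toNat : ℤ)| ≤
      ∑ j ∈ Finset.range (n + 1), |(-1 : ℤ) ^ j * ((Hz κ I ⊤ b s j).toNat : ℤ)| :=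
        Finset.abs_sum_le_sum_abs _ _
    _ ≤ ∑ _j ∈ Finset.range (n + 1), (B : ℤ) := by
        refine Finset.sum_le_sum fun j _ => ?_
        rw [abs_mul, abs_pow, abs_neg, abs_one, one_pow, one_mul, Nat.abs_cast]
        have h1 := ENat.toNat_le_toNat (h j) (ENat.natCast_ne_top B)
        rw [ENat.toNat_natCast] at h1
        exact_mod_cast h1
    _ = _ := by
        rw [Finset.sum_const, Finset.card_range, nsmul_eq_mul]
        push_cast
        ring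

end GP

section Package

variable (𝔽 : Type w) [Field 𝔽] {n : ℕ} (R : Type u) [CommRing R] [Algebra (PolyA 𝔽 n) R]
  [IsLocalRing R] [IsNoetherianRing R]

theorem package (hn : 1 ≤ n) (hD : ringKrullDim R = ((n + 1 : ℕ) : WithBot ℕ∞))
    (hy : yR 𝔽 R (0 : Fin (n + 1)) * yR 𝔽 R (Fin.last n) ∈ nonZeroDivisors R)
    (hfin : Module.length R (R ⧸ yI 𝔽 n R) ≠ ⊤) (hmax : yI 𝔽 n R ≤ maximalIdeal R)
    (c : ℕ) (hc : ∀ t : ℕ, maximalIdeal R ^ (t + c) ≤ yI 𝔽 n R ^ t) :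
    ∃ e : ℕ, HasMult R (e : ℝ) ∧ ∃ (C : ℕ) (c0 : ℤ), 0 ≤ c0 ∧
      (∀ (b : Fin n → ℤ) (s k : ℤ), sl (CR 𝔽 R b) s k ≠ ⊤) ∧
      (∀ (b : Fin n → ℤ) (s k : ℤ), k ≠ negc b s →
        sl (CR 𝔽 R b) s k ≤ ((C * Nz b s ^ (n - 1) : ℕ) : ℕ∞)) ∧
      (∀ (b : Fin n → ℤ) (s : ℤ),
        |slEul (CR 𝔽 R b) n s - e * ∏ l, (b l + s + 1)| ≤ ((C * Nz b s ^ (n - 1) : ℕ) : ℤ)) ∧
      (∀ (b : Fin n → ℤ) (s : ℤ), (∀ l, c0 ≤ b l + s) → ∀ k : ℤ, 1 ≤ k →
        ∀ x ∈ (CR 𝔽 R b).gr k ⊓ (CR 𝔽 R b).F s, (CR 𝔽 R b).d x = 0 →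
          ∃ w ∈ (CR 𝔽 R b).gr (k - 1) ⊓ (CR 𝔽 R b).F s, (CR 𝔽 R b).d w = x) ∧
      (∀ b : Fin n → ℤ, (∀ l, c0 ≤ b l) → Module.Finite R (MI.M0 (CR 𝔽 R b)) ∧
        ∃ (f : MI.M0 (CR 𝔽 R b) →ₗ[R] (Fin n.factorial → R)) (N : ℕ), Function.Injective f ∧
          ∀ v, yR 𝔽 R (0 : Fin (n + 1)) ^ N • v ∈ LinearMap.range f) := by
  classical
  obtain ⟨r, L, hL, h1, h2, h3⟩ := pieces_pf 𝔽 R hy hfin hmax hn
  have hmult := mult_pieces_pf R hn hD (yI 𝔽 n R) c hmax hc r L hL h3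
  refine ⟨(Finset.univ.filter (fun i => L i = ⊥)).card, hmult, ?_⟩
  -- constants for the nonzero pieces_pf
  have hB : ∀ i, ∃ B : ℕ, L i ≠ ⊥ → ∀ (b : Fin n → ℤ) (s j : ℤ),
      Hz (ResidueField R) (L i) ⊤ b s j ≤ ((B * Nz b s ^ (n - 1) : ℕ) : ℕ∞) := by
    intro i
    by_cases h : L i = ⊥
    · exact ⟨0, fun h' => absurd h h'⟩
    · obtain ⟨B, hB⟩ := ideal_bound_pf (ResidueField R) hn (hL i) h
      exact ⟨B, fun _ => hB⟩
  choose B hB using hB
  obtain ⟨c0, hc0⟩ := vanish_pf R (HI_Irs' 𝔽 R (n := n))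
  refine ⟨(n + 1) * ∑ i, B i, max c0 0, le_max_right _ _, ?_, ?_, ?_, ?_, ?_⟩
  · intro b s k
    refine ne_top_of_le_ne_top ?_ (h1 b s k)
    rw [ENat.sum_ne_top]
    intro i _
    by_cases h : L i = ⊥
    · rw [h]; exact GP_top_ne _ b s k
    · exact ne_top_of_le_ne_top (ENat.natCast_ne_top _) (hB i h b s k)
  · intro b s k hk
    refine (h1 b s k).trans ?_
    calc ∑ i, Hz (ResidueField R) (L i) ⊤ b s k ≤
        ∑ i, ((B i * Nz b s ^ (n - 1) : ℕ) : ℕ∞) := by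
          refine Finset.sum_le_sum fun i _ => ?_
          by_cases h : L i = ⊥
          · rw [h, Hz_top_zero' _ b s k hk]; exact zero_le
          · exact hB i h b s k
      _ = (((∑ i, B i) * Nz b s ^ (n - 1) : ℕ) : ℕ∞) := by
          rw [← Nat.cast_sum, Finset.sum_mul]
      _ ≤ _ := by
          refine Nat.cast_le.mpr (Nat.mul_le_mul_right _ ?_)
          exact Nat.le_mul_of_pos_left _ (Nat.succ_pos n)
  · intro b s
    rw [h2]
    have h4 : ∑ i, chz (ResidueField R) (L i) ⊤ b s -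
        (((Finset.univ.filter (fun i => L i = ⊥)).card : ℕ) : ℤ) * ∏ l, (b l + s + 1) =
        ∑ i ∈ Finset.univ.filter (fun i => ¬ L i = ⊥), chz (ResidueField R) (L i) ⊤ b s := by
      rw [← Finset.sum_filter_add_sum_filter_not Finset.univ (fun i => L i = ⊥)]
      have h5 : ∑ i ∈ Finset.univ.filter (fun i => L i = ⊥), chz (ResidueField R) (L i) ⊤ b s =
          (((Finset.univ.filter (fun i => L i = ⊥)).card : ℕ) : ℤ) * ∏ l, (b l + s + 1) := by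
        rw [Finset.sum_congr rfl (g := fun _ => ∏ l, (b l + s + 1)) ?_, Finset.sum_const,
          nsmul_eq_mul]
        intro i hi
        rw [(Finset.mem_filter.mp hi).2, chz_top']
      rw [h5]
      ring
    rw [h4]
    calc _ ≤ ∑ i ∈ Finset.univ.filter (fun i => ¬ L i = ⊥),
          |chz (ResidueField R) (L i) ⊤ b s| := Finset.abs_sum_le_sum_abs _ _
      _ ≤ ∑ i ∈ Finset.univ.filter (fun i => ¬ L i = ⊥),
          (((n + 1) * (B i * Nz b s ^ (n - 1)) : ℕ) : ℤ) := by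
          refine Finset.sum_le_sum fun i hi => ?_
          exact GP_chz_abs _ fun j => hB i (Finset.mem_filter.mp hi).2 b s j
      _ ≤ ∑ i, (((n + 1) * (B i * Nz b s ^ (n - 1)) : ℕ) : ℤ) := by
          refine Finset.sum_le_sum_of_subset_of_nonneg (Finset.filter_subset _ _) ?_
          intro i _ _
          exact Int.natCast_nonneg _
      _ = _ := by
          rw [← Nat.cast_sum, ← Finset.mul_sum, ← Finset.sum_mul, mul_assoc]
  · intro b s hb k hk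
    exact exact_link_pf 𝔽 R hy b s k
      (hc0 b s (fun l => (le_max_left _ _).trans (hb l)) k hk).1
  · intro b hb
    refine M0_gen_pf 𝔽 R hy b (fun l => (le_max_right c0 0).trans (hb l)) ?_
    refine M0_link_pf 𝔽 R hy b (hc0 b 0 (fun l => ?_) 1 le_rfl).2
    rw [add_zero]
    exact (le_max_left _ _).trans (hb l)

end Package

end Vale.Agent.P202G
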