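import Vale.Agent.P202.Full

/-!
P202 in characteristic p, module F6 (helper59): reduction to positive depth.  `J = H^0_m(R)`,
`R1 = R ⧸ J`, `S1 = S ⧸ J S`.
-/

set_option autoImplicit false

namespace Vale.Agent.P202G

open IsLocalRing Vale.Agent.P202 Filter Topology

universe u v

section One

variable {A : Type u} [CommRing A] [IsLocalRing A] [IsNoetherianRing A]

theorem dep_artin_of_pow {s : ℕ} (h : maximalIdeal A ^ s ≤ ⊥) : ringKrullDim A ≤ 0 := by
  have h1 : IsArtinianRing A :=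
    (isArtinianRing_iff_isNilpotent_maximalIdeal A).2 ⟨s, le_bot_iff.1 h⟩
  exact (Ring.krullDimLE_iff (n := 0) (R := A)).1 inferInstance

theorem dep_ne_top {J : Ideal A} {s : ℕ} (hs : maximalIdeal A ^ s * J ≤ ⊥)
    (hD : 1 ≤ ringKrullDim A) : J ≠ ⊤ := by
  intro h
  rw [h, Ideal.mul_top] at hs
  have h1 := hD.trans (dep_artin_of_pow hs)
  exact absurd h1 (by decide)

omit [IsNoetherianRing A] in
theorem dep_le_prime {J : Ideal A} (hJ : J ≠ ⊤) {s : ℕ} (hs : maximalIdeal A ^ s * J ≤ ⊥)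
    (P : Ideal A) [P.IsPrime] : J ≤ P := by
  have h1 : maximalIdeal A ^ s * J ≤ P := hs.trans bot_le
  rcases (Ideal.IsPrime.mul_le ‹P.IsPrime›).1 h1 with h2 | h2
  · have h3 : maximalIdeal A ≤ P := by
      rcases Nat.eq_zero_or_pos s with h4 | h4
      · rw [h4, pow_zero, Ideal.one_eq_top, top_le_iff] at h2
        exact absurd h2 (Ideal.IsPrime.ne_top ‹P.IsPrime›)
      · exact (Ideal.IsPrime.pow_le_iff h4.ne').1 h2
    exact (IsLocalRing.le_maximalIdeal hJ).trans h3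
  · exact h2

theorem dep_dim {J : Ideal A} (hJ : J ≠ ⊤) {s : ℕ} (hs : maximalIdeal A ^ s * J ≤ ⊥) :
    ringKrullDim (A ⧸ J) = ringKrullDim A := by
  rw [ringKrullDim_quotient]
  have h1 : PrimeSpectrum.zeroLocus (J : Set A) = Set.univ := by
    refine Set.eq_univ_of_forall fun P => ?_
    have := P.isPrime
    exact dep_le_prime hJ hs P.asIdeal
  rw [h1]
  exact Order.krullDim_eq_of_orderIso OrderIso.Set.univ

omit [IsNoetherianRing A] in
theorem dep_max (J : Ideal A) [IsLocalRing (A ⧸ J)] (hJ : J ≠ ⊤) :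
    maximalIdeal (A ⧸ J) = (maximalIdeal A).map (Ideal.Quotient.mk J) := by
  have hmax : ((maximalIdeal A).map (Ideal.Quotient.mk J)).IsMaximal := by
    refine Ideal.IsMaximal.map_of_surjective_of_ker_le Ideal.Quotient.mk_surjective ?_
    rw [Ideal.mk_ker]
    exact IsLocalRing.le_maximalIdeal hJ
  exact (IsLocalRing.eq_maximalIdeal hmax).symm

theorem dep_len (J : Ideal A) [IsLocalRing (A ⧸ J)] (hJ : J ≠ ⊤) (N : ℕ) :
    Module.length (A ⧸ J) ((A ⧸ J) ⧸ maximalIdeal (A ⧸ J) ^ N) =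
      cl (J ⊔ maximalIdeal A ^ N) := by
  have h1 := Module.length_eq_of_surjective (R := A ⧸ J) (S := A)
    (M := (A ⧸ J) ⧸ maximalIdeal (A ⧸ J) ^ N) Ideal.Quotient.mk_surjective
  rw [← h1, dep_max J hJ, ← Ideal.map_pow]
  exact (DoubleQuot.quotQuotEquivQuotSupₐ A J (maximalIdeal A ^ N)).toLinearEquiv.length_eq

theorem dep_fin {J : Ideal A} {s : ℕ} (hs : maximalIdeal A ^ s * J ≤ ⊥) : rl ⊥ J ≠ ⊤ := by
  have h1 : J ≤ sat (⊥ : Ideal A) := by
    intro w hw
    exact ⟨s, fun u hu => hs (Ideal.mul_mem_mul hu hw)⟩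
  exact ne_top_of_le_ne_top (rl_sat_ne_top (⊥ : Ideal A)) (rl_mono bot_le h1)

theorem dep_compare {J : Ideal A} {s : ℕ} (hs : maximalIdeal A ^ s * J ≤ ⊥) (N : ℕ) :
    (cl (J ⊔ maximalIdeal A ^ N)).toNat ≤ (cl (maximalIdeal A ^ N)).toNat ∧
    (cl (maximalIdeal A ^ N)).toNat ≤ (cl (J ⊔ maximalIdeal A ^ N)).toNat + (rl ⊥ J).toNat := by
  have h1 := cl_eq_rl_add (V := maximalIdeal A ^ N) (U := J ⊔ maximalIdeal A ^ N) le_sup_right
  rw [rl_sup] at h1
  have h2 : rl (J ⊓ maximalIdeal A ^ N) J ≤ rl ⊥ J := rl_anti bot_le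
  have h3 := dep_fin hs
  have h4 : cl (J ⊔ maximalIdeal A ^ N) ≠ ⊤ := cl_sup_pow_ne_top J N
  have h5 : rl (J ⊓ maximalIdeal A ^ N) J ≠ ⊤ := ne_top_of_le_ne_top h3 h2
  have h6 : (rl (J ⊓ maximalIdeal A ^ N) J).toNat ≤ (rl ⊥ J).toNat := ENat.toNat_le_toNat h2 h3
  rw [h1, ENat.toNat_add h5 h4]
  omega

theorem dep_hasMult {J : Ideal A} {s : ℕ} (hs : maximalIdeal A ^ s * J ≤ ⊥)
    (hD : 1 ≤ ringKrullDim A) [IsLocalRing (A ⧸ J)] (e : ℝ) :
    HasMult A e ↔ HasMult (A ⧸ J) e := by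
  have hJ := dep_ne_top hs hD
  unfold HasMult
  refine exists_congr fun d => ?_
  rw [dep_dim hJ hs]
  refine and_congr_right fun hd => ?_
  have hd1 : d ≠ 0 := by
    rintro rfl
    rw [hd] at hD
    exact absurd hD (by decide)
  simp only [dep_len J hJ]
  set f : ℕ → ℝ := fun N => (d.factorial : ℝ) *
    ((Module.length A (A ⧸ maximalIdeal A ^ N)).toNat : ℝ) / (N : ℝ) ^ d with hf
  set g : ℕ → ℝ := fun N => (d.factorial : ℝ) *
    ((cl (J ⊔ maximalIdeal A ^ N)).toNat : ℝ) / (N : ℝ) ^ d with hg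
  have hlim : Tendsto (fun N => f N - g N) atTop (𝓝 0) := by
    refine squeeze_zero (g := fun N : ℕ => ((d.factorial : ℝ) * (rl ⊥ J).toNat) / (N : ℝ) ^ d)
      (fun N => ?_) (fun N => ?_) (tendsto_const_div_pow _ d hd1)
    · have h1 : ((cl (J ⊔ maximalIdeal A ^ N)).toNat : ℝ) ≤
          ((Module.length A (A ⧸ maximalIdeal A ^ N)).toNat : ℝ) := by
        exact_mod_cast (dep_compare hs N).1
      simp only [hf, hg]
      rw [← sub_div, ← mul_sub]
      have h2 : (0 : ℝ) ≤ (N : ℝ) ^ d := by positivity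
      have h3 : (0 : ℝ) ≤ (d.factorial : ℝ) := by positivity
      exact div_nonneg (mul_nonneg h3 (by linarith)) h2
    · have h1 : ((Module.length A (A ⧸ maximalIdeal A ^ N)).toNat : ℝ) ≤
          ((cl (J ⊔ maximalIdeal A ^ N)).toNat : ℝ) + ((rl ⊥ J).toNat : ℝ) := by
        exact_mod_cast (dep_compare hs N).2
      simp only [hf, hg]
      rw [← sub_div, ← mul_sub]
      have h3 : (0 : ℝ) ≤ (d.factorial : ℝ) := by positivity
      exact div_le_div_of_nonneg_right (mul_le_mul_of_nonneg_left (by linarith) h3)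
        (by positivity)
  constructor
  · intro h
    have h1 := h.sub hlim
    rw [sub_zero] at h1
    refine h1.congr fun N => ?_
    ring
  · intro h
    have h1 := h.add hlim
    rw [add_zero] at h1
    refine h1.congr fun N => ?_
    ring

/-- a nonzerodivisor in the maximal ideal of `A ⧸ H^0_m(A)` -/
theorem dep_nzd [IsLocalRing (A ⧸ sat (⊥ : Ideal A))] (hJ : sat (⊥ : Ideal A) ≠ ⊤) :
    ∃ x ∈ maximalIdeal (A ⧸ sat (⊥ : Ideal A)), x ∈ nonZeroDivisors (A ⧸ sat (⊥ : Ideal A)) := by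
  by_contra hcon
  push Not at hcon
  have hdis : Disjoint ((maximalIdeal (A ⧸ sat (⊥ : Ideal A)) : Set (A ⧸ sat (⊥ : Ideal A))))
      (nonZeroDivisors (A ⧸ sat (⊥ : Ideal A))) := by
    rw [Set.disjoint_left]
    exact fun x hx hx' => hcon x hx hx'
  obtain ⟨-, y, hy, hy0⟩ := SetLike.lt_iff_le_and_exists.1
    (Ideal.bot_lt_annihilator_of_disjoint_nonZeroDivisors hdis)
  obtain ⟨w, rfl⟩ := Ideal.Quotient.mk_surjective y
  apply hy0
  rw [Submodule.mem_bot, Ideal.Quotient.eq_zero_iff_mem]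
  obtain ⟨s, hs⟩ := exists_sat_pow (⊥ : Ideal A)
  have h1 : ∀ u ∈ maximalIdeal A, u * w ∈ sat (⊥ : Ideal A) := by
    intro u hu
    have h2 : Ideal.Quotient.mk (sat (⊥ : Ideal A)) u ∈ maximalIdeal (A ⧸ sat (⊥ : Ideal A)) := by
      rw [dep_max _ hJ]
      exact Ideal.mem_map_of_mem _ hu
    have h3 := Submodule.mem_annihilator.1 hy _ h2
    rw [smul_eq_mul, ← map_mul, Ideal.Quotient.eq_zero_iff_mem] at h3
    rwa [mul_comm]
  refine ⟨s + 1, fun v hv => ?_⟩
  rw [pow_succ] at hv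
  refine Submodule.mul_induction_on (C := fun v => v * w ∈ (⊥ : Ideal A)) hv ?_ ?_
  · intro a ha c hc
    rw [mul_assoc]
    exact hs (Ideal.mul_mem_mul ha (h1 c hc))
  · intro a c ha hc
    rw [add_mul]
    exact Ideal.add_mem _ ha hc

end One

end Vale.Agent.P202G
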