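import Vale.Agent.P202C.SliceR
import Vale.Agent.P202C.MainIneq

/-!
# P202, stage 2 (general R, not Cohen-Macaulay): definitions (helper40)

`k` is any commutative ring (the local ring `R`, or its residue field).  Homogeneous ideals `I` of
`k[Y_0..Y_n]`, the pieces `(I B)_s` of the Cech blocks inside the Laurent ring
`Lz = k[z_1^±, .., z_n^±, T^±]` (monomials `(i, t)`), `Y_j = T e_j(z)`, and the cohomology lengths
`Hz I J b s j` of the complexes `(J B)_s / (I B)_s` in degree `j`.
-/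

set_option autoImplicit false

namespace Vale.Agent.P202G

open IsLocalRing TensorProduct Vale.Agent.P202C

universe u v w

section Defs

variable (k : Type u) [CommRing k] (n : ℕ)

/-- `k[Y_0..Y_n]` -/
abbrev Pz : Type u := MvPolynomial (Fin (n + 1)) k

/-- Laurent polynomials, monomials `(i, t)` -/
abbrev Lz : Type u := AddMonoidAlgebra k ((Fin n → ℤ) × ℤ)

/-- `T e_j(z)` -/
noncomputable def eE (j : Fin (n + 1)) : Lz k n :=
  ∑ E ∈ (Finset.univ : Finset (Fin n)).powersetCard j.val,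
    AddMonoidAlgebra.single (indE E, (1 : ℤ)) (1 : k)

/-- the structure map `k[Y] → Lz` -/
noncomputable def tL : Pz k n →ₐ[k] Lz k n := MvPolynomial.aeval (eE k n)

variable {n}

/-- monomials allowed in the block `τ` of T-degree exactly `s` -/
def alw (b : Fin n → ℤ) (τ : Fin n → Fin 3) (s : ℤ) (m : (Fin n → ℤ) × ℤ) : Prop :=
  m.2 = s ∧ (∀ l, τ l = 0 → m.1 l ≤ b l + s) ∧ (∀ l, τ l = 1 → 0 ≤ m.1 l)

/-- `B_s`: the part of T-degree exactly `s` of the block `τ` -/
def Bs (b : Fin n → ℤ) (τ : Fin n → Fin 3) (s : ℤ) : Submodule k (Lz k n) where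
  carrier := {f | ∀ m, f.coeff m ≠ 0 → alw b τ s m}
  zero_mem' := fun m hm => absurd rfl hm
  add_mem' := fun {f g} hf hg m hm => by
    by_cases h : f.coeff m = 0
    · refine hg m fun h2 => hm ?_
      rw [AddMonoidAlgebra.coeff_add, Finsupp.add_apply, h, h2, add_zero]
    · exact hf m h
  smul_mem' := fun r f hf m hm => by
    refine hf m fun h => hm ?_
    rw [AddMonoidAlgebra.coeff_smul, Finsupp.smul_apply, h, smul_zero]

/-- homogeneous ideals -/
def HI (I : Ideal (Pz k n)) : Prop :=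
  ∀ f ∈ I, ∀ j : ℕ, MvPolynomial.homogeneousComponent j f ∈ I

/-- `(I B)_s` in the block `τ` -/
noncomputable def IB (I : Ideal (Pz k n)) (b : Fin n → ℤ) (τ : Fin n → Fin 3) (s : ℤ) :
    Submodule k (Lz k n) :=
  Submodule.span k {x | ∃ (j : ℕ) (f : Pz k n) (β : Lz k n), f ∈ I ∧ f.IsHomogeneous j ∧
    β ∈ Bs k b τ (s - j) ∧ x = tL k n f * β}

variable (n) in
/-- total space -/
abbrev Xz : Type u := (Fin n → Fin 3) → Lz k n

/-- the Cech differential -/
noncomputable def dz : Xz k n →ₗ[k] Xz k n where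
  toFun f := fun τ => ∑ l ∈ Finset.univ.filter (fun l => τ l = 2),
    csg τ l • (f (Function.update τ l 0) - f (Function.update τ l 1))
  map_add' := fun f g => by
    funext τ
    rw [Pi.add_apply, ← Finset.sum_add_distrib]
    refine Finset.sum_congr rfl fun l _ => ?_
    rw [Pi.add_apply, Pi.add_apply, ← smul_add]
    congr 1
    abel
  map_smul' := fun a f => by
    funext τ
    rw [RingHom.id_apply, Pi.smul_apply, Finset.smul_sum]
    refine Finset.sum_congr rfl fun l _ => ?_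
    rw [Pi.smul_apply, Pi.smul_apply, ← smul_sub, smul_comm]

/-- cochains of degree `j` -/
def grz (j : ℤ) : Submodule k (Xz k n) where
  carrier := {f | ∀ τ, (num2 τ : ℤ) ≠ j → f τ = 0}
  zero_mem' := fun _ _ => rfl
  add_mem' := fun {f g} hf hg τ h => by
    change f τ + g τ = 0
    rw [hf τ h, hg τ h, add_zero]
  smul_mem' := fun a f hf τ h => by
    rw [Pi.smul_apply, hf τ h, smul_zero]

/-- the subcomplex `(I B)_s` -/
noncomputable def FB (I : Ideal (Pz k n)) (b : Fin n → ℤ) (s : ℤ) : Submodule k (Xz k n) where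
  carrier := {x | ∀ τ, x τ ∈ IB k I b τ s}
  zero_mem' := fun _ => Submodule.zero_mem _
  add_mem' := fun hx hy τ => Submodule.add_mem _ (hx τ) (hy τ)
  smul_mem' := fun r _ hx τ => Submodule.smul_mem _ r (hx τ)

/-- length over `k` of the degree `j` cohomology of `(J B)_s / (I B)_s` -/
noncomputable def Hz (I J : Ideal (Pz k n)) (b : Fin n → ℤ) (s j : ℤ) : ℕ∞ :=
  rlen ((grz k j ⊓ FB k I b s) ⊔ (grz k (j - 1) ⊓ FB k J b s).map (dz k))
    (grz k j ⊓ FB k J b s ⊓ (FB k I b s).comap (dz k))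

/-- Euler characteristic of `(J B)_s / (I B)_s` -/
noncomputable def chz (I J : Ideal (Pz k n)) (b : Fin n → ℤ) (s : ℤ) : ℤ :=
  ∑ j ∈ Finset.range (n + 1), (-1 : ℤ) ^ j * ((Hz k I J b s j).toNat : ℤ)

/-- the colon ideal `(I : g)` -/
def Ic (I : Ideal (Pz k n)) (g : Pz k n) : Ideal (Pz k n) where
  carrier := {f | g * f ∈ I}
  zero_mem' := by
    show g * 0 ∈ I
    rw [mul_zero]
    exact I.zero_mem
  add_mem' := fun {a b} ha hb => by
    show g * (a + b) ∈ I
    rw [mul_add]
    exact I.add_mem ha hb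
  smul_mem' := fun c a ha => by
    show g * (c * a) ∈ I
    have h : g * (c * a) = c * (g * a) := by ring
    rw [h]
    exact I.mul_mem_left c ha

/-- size of the twist -/
def Nz (b : Fin n → ℤ) (s : ℤ) : ℕ := 1 + ∑ l, (b l + s).natAbs

variable (n) in
/-- index set of the Artin monomials `z^g`, `0 ≤ g l ≤ l` -/
abbrev Ga : Type := (l : Fin n) → Fin (l.val + 1)

/-- the Artin monomial -/
noncomputable def gm (g : Ga n) : Lz k n :=
  AddMonoidAlgebra.single ((fun l => ((g l : ℕ) : ℤ)), (0 : ℤ)) (1 : k)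

variable (n) in
/-- `M*_t`: span of the monomials `(i, t)` with `0 ≤ i l ≤ l + t` -/
def Ms (t : ℤ) : Submodule k (Lz k n) where
  carrier := {f | ∀ m : (Fin n → ℤ) × ℤ, f.coeff m ≠ 0 →
    m.2 = t ∧ ∀ l : Fin n, 0 ≤ m.1 l ∧ m.1 l ≤ (l : ℕ) + t}
  zero_mem' := fun m hm => absurd rfl hm
  add_mem' := fun {f g} hf hg m hm => by
    by_cases h : f.coeff m = 0
    · refine hg m fun h2 => hm ?_
      rw [AddMonoidAlgebra.coeff_add, Finsupp.add_apply, h, h2, add_zero]
    · exact hf m h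
  smul_mem' := fun r f hf m hm => by
    refine hf m fun h => hm ?_
    rw [AddMonoidAlgebra.coeff_smul, Finsupp.smul_apply, h, smul_zero]

/-- Hilbert function (length over `k` of degree `t` part of `k[Y]/I`) -/
noncomputable def hf (I : Ideal (Pz k n)) (t : ℕ) : ℕ∞ :=
  rlen (I.restrictScalars k) (MvPolynomial.homogeneousSubmodule (Fin (n + 1)) k t)

end Defs

section Link

variable (𝔽 : Type w) [Field 𝔽] {n : ℕ} (R : Type u) [CommRing R] [Algebra (PolyA 𝔽 n) R]

/-- evaluation `R[Y] → R`, `Y_j ↦ y_j` -/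
noncomputable def evY : Pz R n →ₐ[R] R := MvPolynomial.aeval (fun j => yR 𝔽 R j)

/-- ideal of the Rees algebra -/
noncomputable def Irs : Ideal (Pz R n) :=
  Ideal.span {f | ∃ j : ℕ, f.IsHomogeneous j ∧ evY 𝔽 R f = 0}

/-- ideal of the associated graded ring -/
noncomputable def Igr : Ideal (Pz R n) :=
  Ideal.span {f | ∃ j : ℕ, f.IsHomogeneous j ∧ evY 𝔽 R f ∈ yI 𝔽 n R ^ (j + 1)}

end Link

end Vale.Agent.P202G
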