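import Vale.Agent.P202G.G0
import Vale.Agent.P202C.Free1

/-!
P202 stage 2, module GB: the free basis of `M*` over any commutative ring (helper59).
-/

set_option autoImplicit false

namespace Vale.Agent.P202G

open Vale.Agent.P202C

universe u v w

section FrConc

variable (k : Type u) [CommRing k] (n : ℕ)

/-- the variables -/
noncomputable def gbZ (l : ℕ) : Lz k n :=
  if h : l < n then AddMonoidAlgebra.single (Pi.single (⟨l, h⟩ : Fin n) (1 : ℤ), (0 : ℤ)) 1 else 1

/-- the grading variable -/
noncomputable def gbT : Lz k n := AddMonoidAlgebra.single ((0 : Fin n → ℤ), (1 : ℤ)) 1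

theorem gb_prod_single {κ : Type*} (s : Finset κ) (g : κ → (Fin n → ℤ) × ℤ) :
    ∏ l ∈ s, (AddMonoidAlgebra.single (g l) (1 : k) : Lz k n) =
      AddMonoidAlgebra.single (∑ l ∈ s, g l) 1 := by
  classical
  induction s using Finset.induction_on with
  | empty => rw [Finset.prod_empty, Finset.sum_empty, AddMonoidAlgebra.one_def]
  | insert a s ha ih =>
    rw [Finset.prod_insert ha, Finset.sum_insert ha, ih, AddMonoidAlgebra.single_mul_single,
      mul_one]

theorem gbE_eq (j : ℕ) : frE (gbZ k n) n j =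
    ∑ E ∈ (Finset.univ : Finset (Fin n)).powersetCard j,
      AddMonoidAlgebra.single (indE E, (0 : ℤ)) (1 : k) := by
  classical
  rw [← frE_coeff, Finset.prod_range, Finset.prod_one_add, Polynomial.finsetSum_coeff,
    Finset.powersetCard_eq_filter, Finset.sum_filter]
  refine Finset.sum_congr rfl fun E _ => ?_
  have h1 : ∏ l ∈ E, (Polynomial.C (gbZ k n (l : ℕ)) * Polynomial.X) =
      Polynomial.C (AddMonoidAlgebra.single (indE E, (0 : ℤ)) (1 : k)) * Polynomial.X ^ E.card := by
    rw [Finset.prod_mul_distrib, Finset.prod_const, ← map_prod]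
    congr 2
    have h2 : ∀ l ∈ E, gbZ k n (l : ℕ) =
        AddMonoidAlgebra.single (Pi.single l (1 : ℤ), (0 : ℤ)) 1 := by
      intro l _
      unfold gbZ
      rw [dif_pos l.2]
    rw [Finset.prod_congr rfl h2, gb_prod_single]
    congr 1
    refine Prod.ext ?_ ?_
    · rw [Prod.fst_sum]
      funext l
      rw [Finset.sum_apply]
      simp only [Pi.single_apply, indE]
      rw [Finset.sum_ite_eq]
    · rw [Prod.snd_sum]
      simp
  rw [h1, Polynomial.coeff_C_mul, Polynomial.coeff_X_pow]
  by_cases h : j = E.card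
  · rw [if_pos h, mul_one, if_pos h.symm]
  · rw [if_neg h, mul_zero, if_neg (fun h' => h h'.symm)]

theorem gbE_elemE (j : Fin (n + 1)) : eE k n j = gbT k n * frE (gbZ k n) n (j : ℕ) := by
  rw [gbE_eq, Finset.mul_sum]
  unfold eE gbT
  refine Finset.sum_congr rfl fun E _ => ?_
  rw [AddMonoidAlgebra.single_mul_single, mul_one]
  congr 1
  refine Prod.ext ?_ ?_
  · show indE E = 0 + indE E
    rw [zero_add]
  · show (1 : ℤ) = 1 + 0
    norm_num

theorem gbZ_prod (i : ℕ → ℕ) : ∏ l ∈ Finset.range n, gbZ k n l ^ i l =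
    AddMonoidAlgebra.single (fun l : Fin n => ((i l : ℕ) : ℤ), (0 : ℤ)) 1 := by
  classical
  rw [Finset.prod_range]
  have h2 : ∀ l ∈ (Finset.univ : Finset (Fin n)), gbZ k n (l : ℕ) ^ i (l : ℕ) =
      AddMonoidAlgebra.single (i (l : ℕ) • ((Pi.single l (1 : ℤ), (0 : ℤ)) : (Fin n → ℤ) × ℤ)) 1 := by
    intro l _
    unfold gbZ
    rw [dif_pos l.2, AddMonoidAlgebra.single_pow, one_pow]
  rw [Finset.prod_congr rfl h2, gb_prod_single]
  congr 1
  refine Prod.ext ?_ ?_
  · rw [Prod.fst_sum]
    funext l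
    rw [Finset.sum_apply]
    simp only [Prod.smul_fst, Pi.smul_apply, Pi.single_apply, smul_ite, smul_zero]
    rw [Finset.sum_ite_eq]
    simp
  · rw [Prod.snd_sum]
    simp

/-- the degree `t` part of the span of the basis -/
noncomputable def gbW (t : ℕ) : Submodule k (Lz k n) :=
  Submodule.span k (Set.range fun p : ↥((Finset.univ : Finset (Fin (n + 1))).finsuppAntidiag t) ×
    Ga n => tL k n (MvPolynomial.monomial p.1.1 1) * gm k p.2)

theorem gbW_mul (t : ℕ) (j : Fin (n + 1)) (x : Lz k n) (hx : x ∈ gbW k n t) :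
    eE k n j * x ∈ gbW k n (t + 1) := by
  classical
  have h : gbW k n t ≤ (gbW k n (t + 1)).comap (LinearMap.mulLeft k (eE k n j)) := by
    unfold gbW
    rw [Submodule.span_le]
    rintro _ ⟨⟨⟨α, hα⟩, i⟩, rfl⟩
    refine Submodule.subset_span ⟨⟨⟨Finsupp.single j 1 + α, ?_⟩, i⟩, ?_⟩
    · rw [Finset.mem_finsuppAntidiag] at hα ⊢
      refine ⟨?_, Finset.subset_univ _⟩
      have hα1 : ∑ l, α l = t := hα.1
      show ∑ l, ((Finsupp.single j 1 : Fin (n + 1) →₀ ℕ) l + α l) = t + 1
      rw [Finset.sum_add_distrib, hα1]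
      simp only [Finsupp.single_apply]
      rw [Finset.sum_ite_eq, if_pos (Finset.mem_univ _), add_comm]
    · show tL k n (MvPolynomial.monomial (Finsupp.single j 1 + α) 1) * gm k i =
        eE k n j * (tL k n (MvPolynomial.monomial α 1) * gm k i)
      have e1 : (MvPolynomial.monomial (Finsupp.single j 1 + α) (1 : k)) =
          MvPolynomial.X j * MvPolynomial.monomial α 1 := by
        rw [MvPolynomial.X, MvPolynomial.monomial_mul, one_mul]
      have e2 : tL k n (MvPolynomial.X j) = eE k n j := by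
        unfold tL
        rw [MvPolynomial.aeval_X]
      rw [e1, map_mul, e2, mul_assoc]
  exact h hx

theorem gbBox_W (t : ℕ) : ∀ g ∈ frBox k (gbZ k n) (fun l => l + t) n,
    gbT k n ^ t * g ∈ gbW k n t := by
  classical
  induction t with
  | zero =>
    intro g hg
    rw [pow_zero, one_mul]
    have h1 := frBox_span (k := k) (gbZ k n) (fun l => l + 0) n hg
    refine (Submodule.span_le (p := gbW k n 0)).2 ?_ h1
    rintro _ ⟨i, hi, rfl⟩
    rw [gbZ_prod]
    refine Submodule.subset_span ⟨⟨⟨0, ?_⟩, fun l => ⟨i l, ?_⟩⟩, ?_⟩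
    · rw [Finset.mem_finsuppAntidiag]
      simp
    · have := hi l l.2
      omega
    · show tL k n (MvPolynomial.monomial 0 1) * gm k _ = _
      have e1 : (MvPolynomial.monomial 0 (1 : k) : Pz k n) = 1 := rfl
      rw [e1, map_one, one_mul]
      rfl
  | succ t ih =>
    intro g hg
    have h1 := frBox_le (k := k) (gbZ k n) (fun l => l + t) n (fun l _ => by omega) hg
    have h2 : frV k (gbZ k n) (fun l => l + t) n ≤
        (gbW k n (t + 1)).comap (LinearMap.mulLeft k (gbT k n ^ (t + 1))) := by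
      refine iSup_le fun j => ?_
      rintro _ ⟨g, hg, rfl⟩
      show gbT k n ^ (t + 1) * (frE (gbZ k n) n (j : ℕ) * g) ∈ gbW k n (t + 1)
      have h3 := gbW_mul k n t j _ (ih g hg)
      rw [gbE_elemE] at h3
      have e : gbT k n ^ (t + 1) * (frE (gbZ k n) n (j : ℕ) * g) =
          gbT k n * frE (gbZ k n) n (j : ℕ) * (gbT k n ^ t * g) := by ring
      rw [e]
      exact h3
    exact h2 h1

theorem gbT_pow (t : ℕ) : gbT k n ^ t = AddMonoidAlgebra.single ((0 : Fin n → ℤ), (t : ℤ)) 1 := by
  unfold gbT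
  rw [AddMonoidAlgebra.single_pow, one_pow]
  congr 1
  refine Prod.ext ?_ ?_
  · show t • (0 : Fin n → ℤ) = 0
    rw [smul_zero]
  · show t • (1 : ℤ) = t
    simp

/-- every monomial of the box lies in the span -/
theorem gb_single_mem (t : ℕ) (i : Fin n → ℕ) (hi : ∀ l, i l ≤ l + t) :
    AddMonoidAlgebra.single (fun l => (i l : ℤ), (t : ℤ)) (1 : k) ∈ gbW k n t := by
  have h1 := gbBox_W k n t (∏ l ∈ Finset.range n, gbZ k n l ^ (if h : l < n then i ⟨l, h⟩ else 0))
    (frBox_prod (gbZ k n) (fun l => l + t) (fun l => if h : l < n then i ⟨l, h⟩ else 0) n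
      (fun l hl => by
        simp only [dif_pos hl]
        exact hi ⟨l, hl⟩))
  rw [gbZ_prod, gbT_pow, AddMonoidAlgebra.single_mul_single, mul_one] at h1
  convert h1 using 2
  refine Prod.ext ?_ ?_
  · funext l
    simp
  · simp

/-- the family of degree `t` -/
noncomputable def gbFam (t : ℕ)
    (p : ↥((Finset.univ : Finset (Fin (n + 1))).finsuppAntidiag t) × Ga n) : Lz k n :=
  tL k n (MvPolynomial.monomial p.1.1 1) * gm k p.2

theorem gb_card (t : ℕ) :
    Fintype.card (↥((Finset.univ : Finset (Fin (n + 1))).finsuppAntidiag t) × Ga n) =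
      Fintype.card ((l : Fin n) → Fin ((l : ℕ) + t + 1)) := by
  rw [Fintype.card_prod, Fintype.card_coe, Finset.card_finsuppAntidiag_nat_eq_choose,
    Fintype.card_pi, Fintype.card_pi]
  simp only [Fintype.card_fin, Finset.card_univ]
  rw [Fin.prod_univ_eq_prod_range (fun l => l + 1) n,
    Fin.prod_univ_eq_prod_range (fun l => l + t + 1) n, Finset.prod_range_add_one_eq_factorial]
  have h1 : ∏ l ∈ Finset.range n, (l + t + 1) = (t + 1).ascFactorial n := by
    rw [Nat.ascFactorial_eq_prod_range]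
    exact Finset.prod_congr rfl fun l _ => by omega
  rw [h1, Nat.ascFactorial_eq_factorial_mul_choose, mul_comm]
  congr 1
  rw [show n + 1 + t - 1 = t + n by omega]
  exact (Nat.choose_symm_add).symm ▸ rfl

theorem gbFam_indep (t : ℕ) : LinearIndependent k (gbFam k n t) := by
  classical
  rw [linearIndependent_iff_injective_fintypeLinearCombination]
  set gg : ((l : Fin n) → Fin ((l : ℕ) + t + 1)) → (Fin n → ℤ) × ℤ :=
    fun i => (fun l => ((i l : ℕ) : ℤ), (t : ℤ)) with hgg
  have hinj : Function.Injective gg := by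
    intro i i' h
    have h1 := (Prod.mk.inj h).1
    funext l
    have h2 := congrFun h1 l
    exact Fin.ext (by exact_mod_cast h2)
  let π : Lz k n →ₗ[k] (((l : Fin n) → Fin ((l : ℕ) + t + 1)) → k) :=
    { toFun := fun f i => f.coeff (gg i)
      map_add' := fun f g => by
        funext i
        rw [AddMonoidAlgebra.coeff_add]
        rfl
      map_smul' := fun c f => by
        funext i
        rw [AddMonoidAlgebra.coeff_smul]
        rfl }
  have hsingle : ∀ i, π (AddMonoidAlgebra.single (gg i) (1 : k)) = Pi.single i 1 := by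
    intro i
    funext i'
    show (AddMonoidAlgebra.single (gg i) (1 : k)).coeff (gg i') = _
    rw [AddMonoidAlgebra.coeff_single, Finsupp.single_apply, Pi.single_apply]
    by_cases h : i' = i
    · rw [h, if_pos rfl, if_pos rfl]
    · rw [if_neg h, if_neg (fun h' => h (hinj h').symm)]
  have hsurj : Function.Surjective (π ∘ₗ Fintype.linearCombination k (gbFam k n t)) := by
    rw [← LinearMap.range_eq_top, eq_top_iff]
    intro y _
    have hy : y = ∑ i, y i • (Pi.single i (1 : k) : ((l : Fin n) → Fin ((l : ℕ) + t + 1)) → k) := by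
      funext i'
      rw [Finset.sum_apply]
      simp [Pi.single_apply]
    rw [hy]
    refine Submodule.sum_mem _ fun i _ => Submodule.smul_mem _ _ ?_
    have h1 := gb_single_mem k n t (fun l => (i l : ℕ)) (fun l => by
      have := (i l).2
      omega)
    have h2 : gbW k n t = LinearMap.range (Fintype.linearCombination k (gbFam k n t)) := by
      rw [Fintype.range_linearCombination]
      rfl
    rw [h2] at h1
    obtain ⟨c, hc⟩ := h1
    refine ⟨c, ?_⟩
    rw [LinearMap.comp_apply, hc]
    exact hsingle i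
  let e := Fintype.equivOfCardEq (gb_card n t)
  let E := LinearEquiv.funCongrLeft k k e
  have h := OrzechProperty.injective_of_surjective_endomorphism
    (E.toLinearMap ∘ₗ (π ∘ₗ Fintype.linearCombination k (gbFam k n t)))
    (E.surjective.comp hsurj)
  exact Function.Injective.of_comp (f := fun x => E (π x)) h

theorem gb_ext {k : Type u} [CommRing k] {n : ℕ} {f g : Lz k n}
    (h : ∀ m, f.coeff m = g.coeff m) : f = g :=
  AddMonoidAlgebra.coeff_injective (Finsupp.ext h)

/-- homogeneous elements for the `T`-degree -/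
def gbH (t : ℤ) (f : Lz k n) : Prop := ∀ m, f.coeff m ≠ 0 → m.2 = t

variable {k n}

theorem gbH_mul {s t : ℤ} {f g : Lz k n} (hf : gbH k n s f) (hg : gbH k n t g) :
    gbH k n (s + t) (f * g) := by
  classical
  intro m hm
  have h1 : m ∈ (f * g).coeff.support := Finsupp.mem_support_iff.mpr hm
  obtain ⟨x, hx, y, hy, rfl⟩ := Finset.mem_add.mp (AddMonoidAlgebra.support_coeff_mul_subset f g h1)
  show x.2 + y.2 = s + t
  rw [hf x (Finsupp.mem_support_iff.mp hx), hg y (Finsupp.mem_support_iff.mp hy)]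

theorem gbH_single (m : (Fin n → ℤ) × ℤ) (r : k) :
    gbH k n m.2 (AddMonoidAlgebra.single m r) := by
  classical
  intro m' hm'
  rw [AddMonoidAlgebra.coeff_single, Finsupp.single_apply] at hm'
  by_cases h2 : m = m'
  · rw [h2]
  · rw [if_neg h2] at hm'
    exact absurd rfl hm'

theorem gbH_sum {t : ℤ} {κ : Type*} (s : Finset κ) (f : κ → Lz k n)
    (h : ∀ i ∈ s, gbH k n t (f i)) : gbH k n t (∑ i ∈ s, f i) := by
  classical
  intro m hm
  by_contra hcon
  apply hm
  rw [AddMonoidAlgebra.coeff_sum, Finsupp.finsetSum_apply]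
  refine Finset.sum_eq_zero fun i hi => ?_
  by_contra h'
  exact hcon (h i hi m h')

theorem gbH_elemE (j : Fin (n + 1)) : gbH k n 1 (eE k n j) := by
  unfold eE
  exact gbH_sum _ _ fun E _ => gbH_single (indE E, (1 : ℤ)) 1

theorem gbH_one : gbH k n 0 (1 : Lz k n) := by
  rw [AddMonoidAlgebra.one_def]
  exact gbH_single 0 1

theorem gbH_pow {t : ℤ} {f : Lz k n} (hf : gbH k n t f) (q : ℕ) : gbH k n (q * t) (f ^ q) := by
  induction q with
  | zero =>
    rw [pow_zero, Nat.cast_zero, zero_mul]
    exact gbH_one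
  | succ k ih =>
    rw [pow_succ]
    have h := gbH_mul ih hf
    push_cast
    rwa [add_mul, one_mul]

theorem gbH_mono (α : Fin (n + 1) →₀ ℕ) :
    gbH k n ((∑ l, α l : ℕ) : ℤ) (tL k n (MvPolynomial.monomial α 1)) := by
  classical
  have h1 : tL k n (MvPolynomial.monomial α 1) = ∏ l, eE k n l ^ α l := by
    unfold tL
    rw [MvPolynomial.aeval_monomial, map_one, one_mul, Finsupp.prod_fintype]
    intro i
    rw [pow_zero]
  rw [h1]
  have h2 : ∀ s : Finset (Fin (n + 1)), gbH k n ((∑ l ∈ s, α l : ℕ) : ℤ)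
      (∏ l ∈ s, eE k n l ^ α l) := by
    intro s
    induction s using Finset.induction_on with
    | empty =>
      rw [Finset.prod_empty, Finset.sum_empty, Nat.cast_zero]
      exact gbH_one
    | insert a s ha ih =>
      rw [Finset.prod_insert ha, Finset.sum_insert ha]
      have h3 := gbH_mul (gbH_pow (gbH_elemE (k := k) a) (α a)) ih
      push_cast at h3 ⊢
      rwa [mul_one] at h3
  exact h2 _

theorem gbH_Fam (α : Fin (n + 1) →₀ ℕ) (i : Ga n) :
    gbH k n ((∑ l, α l : ℕ) : ℤ) (tL k n (MvPolynomial.monomial α 1) * gm k i) := by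
  have h := gbH_mul (gbH_mono (k := k) α) (gbH_single (k := k)
    (((fun l => ((i l : ℕ) : ℤ)), (0 : ℤ)) : (Fin n → ℤ) × ℤ) 1)
  rw [add_zero] at h
  exact h

variable (k n)

theorem gb_expand (a : Pz k n) : tL k n a = ∑ β ∈ a.support,
    a.coeff β • tL k n (MvPolynomial.monomial β 1) := by
  conv_lhs => rw [← MvPolynomial.support_sum_monomial_coeff a]
  rw [map_sum]
  refine Finset.sum_congr rfl fun β _ => ?_
  rw [← map_smul, MvPolynomial.smul_monomial, smul_eq_mul, mul_one]

theorem gb_coeff (a : Pz k n) (i : Ga n) (m : (Fin n → ℤ) × ℤ) (t : ℕ) (hm : m.2 = t) :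
    (tL k n a * gm k i).coeff m =
      ∑ β ∈ (Finset.univ : Finset (Fin (n + 1))).finsuppAntidiag t,
        a.coeff β * (tL k n (MvPolynomial.monomial β 1) * gm k i).coeff m := by
  classical
  have h1 : (tL k n a * gm k i).coeff m = ∑ β ∈ a.support,
      a.coeff β * (tL k n (MvPolynomial.monomial β 1) * gm k i).coeff m := by
    rw [gb_expand, Finset.sum_mul, AddMonoidAlgebra.coeff_sum, Finsupp.finsetSum_apply]
    refine Finset.sum_congr rfl fun β _ => ?_
    rw [smul_mul_assoc, AddMonoidAlgebra.coeff_smul, Finsupp.smul_apply, smul_eq_mul]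
  rw [h1]
  have h2 : ∀ β : Fin (n + 1) →₀ ℕ,
      β ∉ (Finset.univ : Finset (Fin (n + 1))).finsuppAntidiag t →
      (tL k n (MvPolynomial.monomial β 1) * gm k i).coeff m = 0 := by
    intro β hβ
    by_contra hcon
    apply hβ
    have h3 := gbH_Fam (k := k) β i m hcon
    rw [hm] at h3
    rw [Finset.mem_finsuppAntidiag]
    exact ⟨by exact_mod_cast h3.symm, Finset.subset_univ _⟩
  rw [← Finset.sum_subset (Finset.inter_subset_left : a.support ∩
    (Finset.univ : Finset (Fin (n + 1))).finsuppAntidiag t ⊆ a.support)]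
  · refine Finset.sum_subset Finset.inter_subset_right fun β hβ hβ' => ?_
    rw [Finset.mem_inter, not_and'] at hβ'
    have := hβ' hβ
    rw [MvPolynomial.notMem_support_iff] at this
    rw [this, zero_mul]
  · intro β hβ hβ'
    rw [Finset.mem_inter, not_and] at hβ'
    rw [h2 β (hβ' hβ), mul_zero]

theorem gb_coeff' (a : Pz k n) (i : Ga n) (m : (Fin n → ℤ) × ℤ) (t : ℕ) (hm : m.2 = t) :
    ∑ β : ↥((Finset.univ : Finset (Fin (n + 1))).finsuppAntidiag t),
      (a.coeff β.1 • gbFam k n t (β, i)).coeff m = (tL k n a * gm k i : Lz k n).coeff m := by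
  have h2 := gb_coeff k n a i m t hm
  rw [h2]
  rw [← Finset.sum_coe_sort ((Finset.univ : Finset (Fin (n + 1))).finsuppAntidiag t)
    (fun β => a.coeff β * (tL k n (MvPolynomial.monomial β 1) * gm k i).coeff m)]
  refine Finset.sum_congr rfl fun β _ => ?_
  rw [AddMonoidAlgebra.coeff_smul, Finsupp.smul_apply, smul_eq_mul]
  rfl

variable {n}

/-- uniqueness -/
theorem Ms_unique_pf (φ : Ga n → Pz k n) (h : ∑ g, tL k n (φ g) * gm k g = 0) : ∀ g, φ g = 0 := by
  classical
  intro i
  refine MvPolynomial.ext _ _ fun α => ?_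
  rw [MvPolynomial.coeff_zero]
  set t : ℕ := ∑ l, α l with ht
  have hα : α ∈ (Finset.univ : Finset (Fin (n + 1))).finsuppAntidiag t := by
    rw [Finset.mem_finsuppAntidiag]
    exact ⟨rfl, Finset.subset_univ _⟩
  have key : ∑ p : ↥((Finset.univ : Finset (Fin (n + 1))).finsuppAntidiag t) × Ga n,
      ((φ p.2).coeff p.1.1) • gbFam k n t p = 0 := by
    refine gb_ext fun m => ?_
    rw [AddMonoidAlgebra.coeff_sum, Finsupp.finsetSum_apply, AddMonoidAlgebra.coeff_zero,
      Finsupp.coe_zero, Pi.zero_apply]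
    by_cases hm : m.2 = t
    · have h1 := congrArg (fun f : Lz k n => f.coeff m) h
      rw [AddMonoidAlgebra.coeff_sum, Finsupp.finsetSum_apply, AddMonoidAlgebra.coeff_zero,
        Finsupp.coe_zero, Pi.zero_apply] at h1
      rw [← h1, Fintype.sum_prod_type_right]
      exact Finset.sum_congr rfl fun i _ => gb_coeff' k n (φ i) i m t hm
    · refine (Finset.sum_eq_zero fun p _ => ?_)
      rw [AddMonoidAlgebra.coeff_smul, Finsupp.smul_apply]
      have h2 : (gbFam k n t p).coeff m = 0 := by
        by_contra hcon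
        apply hm
        have h3 := gbH_Fam (k := k) p.1.1 p.2 m hcon
        have h4 := (Finset.mem_finsuppAntidiag.1 p.1.2).1
        rw [h3]
        exact_mod_cast h4
      rw [h2, smul_zero]
  have h5 := Fintype.linearIndependent_iff.1 (gbFam_indep k n t) _ key (⟨α, hα⟩, i)
  exact h5

/-- existence -/
theorem Ms_exists_pf (t : ℕ) {β : Lz k n} (hβ : β ∈ Ms k n t) :
    ∃ φ : Ga n → Pz k n, (∀ g, (φ g).IsHomogeneous t) ∧ β = ∑ g, tL k n (φ g) * gm k g := by
  classical
  have h1 : β ∈ gbW k n t := by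
    have h1 : β = ∑ m ∈ β.coeff.support, (AddMonoidAlgebra.single m (β.coeff m) : Lz k n) := by
      refine gb_ext fun m => ?_
      rw [AddMonoidAlgebra.coeff_sum, Finsupp.finsetSum_apply]
      simp only [AddMonoidAlgebra.coeff_single, Finsupp.single_apply]
      rw [Finset.sum_ite_eq']
      split_ifs with h
      · rfl
      · exact Finsupp.notMem_support_iff.1 h
    rw [h1]
    refine Submodule.sum_mem _ fun m hm => ?_
    obtain ⟨a1, a2⟩ := hβ m (Finsupp.mem_support_iff.1 hm)
    have h2 := gb_single_mem k n t (fun l => (m.1 l).toNat) (fun l => by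
      have h3 := a2 l
      omega)
    have h5 : ((fun l => (((m.1 l).toNat : ℕ) : ℤ), (t : ℤ)) : (Fin n → ℤ) × ℤ) = m := by
      refine Prod.ext ?_ a1.symm
      funext l
      exact Int.toNat_of_nonneg (a2 l).1
    rw [h5] at h2
    have h6 : (AddMonoidAlgebra.single m (β.coeff m) : Lz k n) =
        β.coeff m • AddMonoidAlgebra.single m (1 : k) := by
      rw [AddMonoidAlgebra.smul_single, smul_eq_mul, mul_one]
    rw [h6]
    exact Submodule.smul_mem _ _ h2
  unfold gbW at h1
  clear hβ
  induction h1 using Submodule.span_induction with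
  | mem x hx =>
    obtain ⟨⟨α, i⟩, rfl⟩ := hx
    refine ⟨fun g => if g = i then MvPolynomial.monomial α.1 1 else 0, fun g => ?_, ?_⟩
    · beta_reduce
      split_ifs with hg
      · refine MvPolynomial.isHomogeneous_monomial _ ?_
        have h4 := (Finset.mem_finsuppAntidiag.1 α.2).1
        rw [Finsupp.degree_eq_sum]
        exact h4
      · exact MvPolynomial.isHomogeneous_zero _ _ _
    · rw [Finset.sum_eq_single i]
      · beta_reduce
        rw [if_pos rfl]
      · intro g _ hg
        beta_reduce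
        rw [if_neg hg, map_zero, zero_mul]
      · intro h
        exact absurd (Finset.mem_univ i) h
  | zero =>
    exact ⟨fun _ => 0, fun _ => MvPolynomial.isHomogeneous_zero _ _ _, by simp⟩
  | add x y _ _ h1 h2 =>
    obtain ⟨φ, hφ, e1⟩ := h1
    obtain ⟨ψ, hψ, e2⟩ := h2
    refine ⟨fun g => φ g + ψ g, fun g => (hφ g).add (hψ g), ?_⟩
    rw [e1, e2, ← Finset.sum_add_distrib]
    refine Finset.sum_congr rfl fun g _ => ?_
    rw [map_add, add_mul]
  | smul c x _ h =>
    obtain ⟨φ, hφ, e1⟩ := h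
    refine ⟨fun g => c • φ g, fun g => ?_, ?_⟩
    · exact (MvPolynomial.homogeneousSubmodule (Fin (n + 1)) k t).smul_mem c (hφ g)
    · rw [e1, Finset.smul_sum]
      refine Finset.sum_congr rfl fun g _ => ?_
      rw [map_smul, smul_mul_assoc]

end FrConc

end Vale.Agent.P202G
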