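import Vale.Agent.P202G.G0

/-! # P202 stage 2, module GC1: shifting block elements into `M*` (helper25) -/

set_option autoImplicit false

namespace Vale.Agent.P202G

open IsLocalRing TensorProduct Vale.Agent.P202C

universe u v w

section GC1
variable (k : Type u) [CommRing k] {n : ℕ}

theorem gc1_coeff (w : (Fin n → ℤ) × ℤ) (f : Lz k n) (m : (Fin n → ℤ) × ℤ) :
    (AddMonoidAlgebra.single w (1 : k) * f).coeff m = f.coeff (m - w) := by
  rw [AddMonoidAlgebra.coeff_single_mul_eq_mul_coeff (m₂ := m - w), one_mul]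
  intro m' _
  constructor
  · intro h
    rw [← h, add_sub_cancel_left]
  · intro h
    rw [h, add_sub_cancel]

/-- `w = (μ, m)`, `μ l = m + l - b l` (τ l = 0), `0` (τ l = 1), `⌊m/2⌋` (τ l = 2), `m` large -/
theorem shift_Ms_pf (b : Fin n → ℤ) (τ : Fin n → Fin 3) (S : Finset (Lz k n × ℤ))
    (hS : ∀ p ∈ S, p.1 ∈ Bs k b τ p.2) :
    ∃ w : (Fin n → ℤ) × ℤ, 0 ≤ w.2 ∧
      (∀ p ∈ S, 0 ≤ p.2 + w.2 ∧
        AddMonoidAlgebra.single w (1 : k) * p.1 ∈ Ms k n (p.2 + w.2)) ∧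
      (∀ t : ℤ, ∀ x ∈ Ms k n t, AddMonoidAlgebra.single (-w) (1 : k) * x ∈ Bs k b τ (t - w.2)) := by
  classical
  set M : ℕ := ∑ l, (b l).natAbs + ∑ p ∈ S, (p.2.natAbs +
    ∑ q ∈ p.1.coeff.support, ∑ l, (q.1 l).natAbs) with hM
  have hb : ∀ l, (b l).natAbs ≤ ∑ l, (b l).natAbs := fun l =>
    Finset.single_le_sum (f := fun l => (b l).natAbs) (fun _ _ => Nat.zero_le _)
      (Finset.mem_univ l)
  have hp : ∀ p ∈ S, p.2.natAbs + ∑ q ∈ p.1.coeff.support, ∑ l, (q.1 l).natAbs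
      ≤ ∑ p ∈ S, (p.2.natAbs + ∑ q ∈ p.1.coeff.support, ∑ l, (q.1 l).natAbs) := fun p hp =>
    Finset.single_le_sum (f := fun p : Lz k n × ℤ => p.2.natAbs +
      ∑ q ∈ p.1.coeff.support, ∑ l, (q.1 l).natAbs) (fun _ _ => Nat.zero_le _) hp
  have hq : ∀ p : Lz k n × ℤ, ∀ q, p.1.coeff q ≠ 0 → ∀ l, (q.1 l).natAbs
      ≤ ∑ q ∈ p.1.coeff.support, ∑ l, (q.1 l).natAbs := by
    intro p q hq l
    calc (q.1 l).natAbs ≤ ∑ l, (q.1 l).natAbs :=
          Finset.single_le_sum (f := fun l => (q.1 l).natAbs) (fun _ _ => Nat.zero_le _)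
            (Finset.mem_univ l)
      _ ≤ _ := Finset.single_le_sum (f := fun q : (Fin n → ℤ) × ℤ => ∑ l, (q.1 l).natAbs)
            (fun _ _ => Nat.zero_le _) (Finsupp.mem_support_iff.2 hq)
  refine ⟨(fun l => if τ l = 0 then 2 * (M : ℤ) + l - b l else if τ l = 1 then 0 else M,
    2 * (M : ℤ)), by positivity, ?_, ?_⟩
  · intro p hpS
    have h1 := hp p hpS
    refine ⟨by show 0 ≤ p.2 + 2 * (M : ℤ); omega, ?_⟩
    intro m hm
    rw [gc1_coeff] at hm
    obtain ⟨e1, e2, e3⟩ := hS p hpS _ hm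
    have e4 : m.2 - 2 * (M : ℤ) = p.2 := e1
    refine ⟨by show m.2 = p.2 + 2 * (M : ℤ); omega, fun l => ?_⟩
    have h2 := hq p _ hm l
    have h3 := hb l
    have e5 := e2 l
    have e6 := e3 l
    simp only [Prod.fst_sub, Pi.sub_apply] at h2 e5 e6
    show 0 ≤ m.1 l ∧ m.1 l ≤ (l : ℕ) + (p.2 + 2 * (M : ℤ))
    by_cases h0 : τ l = 0
    · have e7 := e5 h0
      rw [if_pos h0] at h2 e7
      omega
    · by_cases h1' : τ l = 1
      · have e7 := e6 h1'
        rw [if_neg h0, if_pos h1'] at h2 e7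
        omega
      · rw [if_neg h0, if_neg h1'] at h2
        omega
  · intro t x hx m hm
    rw [gc1_coeff] at hm
    obtain ⟨e1, e2⟩ := hx _ hm
    have e3 : m.2 - -(2 * (M : ℤ)) = t := e1
    refine ⟨by show m.2 = t - 2 * (M : ℤ); omega, fun l h0 => ?_, fun l h1 => ?_⟩
    · have e4 := e2 l
      simp only [Prod.fst_sub, Prod.fst_neg, Pi.sub_apply, Pi.neg_apply] at e4
      rw [if_pos h0] at e4
      show m.1 l ≤ b l + (t - 2 * (M : ℤ))
      omega
    · have e4 := e2 l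
      simp only [Prod.fst_sub, Prod.fst_neg, Pi.sub_apply, Pi.neg_apply] at e4
      rw [if_neg (by rw [h1]; decide), if_pos h1] at e4
      omega

end GC1

end Vale.Agent.P202G
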