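import Vale.Agent.P202G.G0
import Vale.Agent.P202G.GB
import Vale.Agent.P202G.GC1

/-! # P202 stage 2, module GC2: the colon property (helper25) -/

set_option autoImplicit false

namespace Vale.Agent.P202G

open IsLocalRing TensorProduct Vale.Agent.P202C

universe u v w

section GC2
variable (k : Type u) [CommRing k] {n : ℕ}

/-- elements of `IB` as finite sums -/
theorem gc2_rep {I : Ideal (Pz k n)} {b : Fin n → ℤ} {τ : Fin n → Fin 3} {s : ℤ} {x : Lz k n}
    (hx : x ∈ IB k I b τ s) :
    ∃ (N : ℕ) (j : Fin N → ℕ) (f : Fin N → Pz k n) (β : Fin N → Lz k n),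
      (∀ i, f i ∈ I) ∧ (∀ i, (f i).IsHomogeneous (j i)) ∧ (∀ i, β i ∈ Bs k b τ (s - j i)) ∧
      x = ∑ i, tL k n (f i) * β i := by
  unfold IB at hx
  induction hx using Submodule.span_induction with
  | mem x h =>
    obtain ⟨j, f, β, h1, h2, h3, h4⟩ := h
    exact ⟨1, fun _ => j, fun _ => f, fun _ => β, fun _ => h1, fun _ => h2, fun _ => h3, by
      rw [h4]; simp⟩
  | zero => exact ⟨0, Fin.elim0, Fin.elim0, Fin.elim0, fun i => i.elim0, fun i => i.elim0,
      fun i => i.elim0, by simp⟩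
  | add x y _ _ ihx ihy =>
    obtain ⟨N, j, f, β, h1, h2, h3, h4⟩ := ihx
    obtain ⟨N', j', f', β', h1', h2', h3', h4'⟩ := ihy
    refine ⟨N + N', Fin.append j j', Fin.append f f', Fin.append β β', ?_, ?_, ?_, ?_⟩
    · intro i
      refine Fin.addCases (fun i => ?_) (fun i => ?_) i
      · rw [Fin.append_left]; exact h1 i
      · rw [Fin.append_right]; exact h1' i
    · intro i
      refine Fin.addCases (fun i => ?_) (fun i => ?_) i
      · rw [Fin.append_left, Fin.append_left]; exact h2 i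
      · rw [Fin.append_right, Fin.append_right]; exact h2' i
    · intro i
      refine Fin.addCases (fun i => ?_) (fun i => ?_) i
      · rw [Fin.append_left, Fin.append_left]; exact h3 i
      · rw [Fin.append_right, Fin.append_right]; exact h3' i
    · rw [Fin.sum_univ_add]
      simp only [Fin.append_left, Fin.append_right]
      rw [h4, h4']
  | smul r x _ ih =>
    obtain ⟨N, j, f, β, h1, h2, h3, h4⟩ := ih
    refine ⟨N, j, f, fun i => r • β i, h1, h2, fun i => Submodule.smul_mem _ r (h3 i), ?_⟩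
    rw [h4, Finset.smul_sum]
    refine Finset.sum_congr rfl fun i _ => ?_
    rw [mul_smul_comm]

theorem gc2_gm (g : Ga n) : gm k g ∈ Ms k n 0 := by
  intro m hm
  have h1 : (gm k g).coeff m = (Finsupp.single ((fun l => ((g l : ℕ) : ℤ)), (0 : ℤ)) (1 : k)) m :=
    rfl
  rw [h1] at hm
  have h2 : ((fun l => ((g l : ℕ) : ℤ)), (0 : ℤ)) = m := by
    by_contra h
    exact hm (Finsupp.single_eq_of_ne (Ne.symm h))
  subst h2
  refine ⟨rfl, fun l => ?_⟩
  have h3 := (g l).isLt
  show 0 ≤ ((g l : ℕ) : ℤ) ∧ ((g l : ℕ) : ℤ) ≤ (l : ℕ) + 0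
  omega

/-- **colon property** -/
theorem colon_IB_pf {I : Ideal (Pz k n)} (hI : HI k I) {g : Pz k n} {c : ℕ}
    (hg : g.IsHomogeneous c) (b : Fin n → ℤ) (τ : Fin n → Fin 3) (s : ℤ) {β : Lz k n}
    (hβ : β ∈ Bs k b τ s) (h : tL k n g * β ∈ IB k I b τ (s + c)) : β ∈ IB k (Ic k I g) b τ s := by
  classical
  obtain ⟨N, j, f, γ, h1, h2, h3, h4⟩ := gc2_rep k h
  obtain ⟨w, hw0, hw1, hw2⟩ := shift_Ms_pf k b τ
    (insert (β, s) (Finset.univ.image (fun i => (γ i, s + c - j i)))) (by
      intro p hp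
      rw [Finset.mem_insert, Finset.mem_image] at hp
      rcases hp with rfl | ⟨i, -, rfl⟩
      · exact hβ
      · exact h3 i)
  obtain ⟨p0, p1⟩ := hw1 (β, s) (Finset.mem_insert_self _ _)
  have p2 : ∀ i, 0 ≤ (s + c - j i) + w.2 ∧
      AddMonoidAlgebra.single w (1 : k) * γ i ∈ Ms k n ((s + c - j i) + w.2) := fun i =>
    hw1 (γ i, s + c - j i) (Finset.mem_insert_of_mem (Finset.mem_image_of_mem _
      (Finset.mem_univ i)))
  have p0' : (((s + w.2).toNat : ℕ) : ℤ) = s + w.2 := Int.toNat_of_nonneg p0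
  have p1' : AddMonoidAlgebra.single w (1 : k) * β ∈ Ms k n (((s + w.2).toNat : ℕ) : ℤ) := by
    rw [p0']
    exact p1
  obtain ⟨φ, hφ1, hφ2⟩ := Ms_exists_pf k (s + w.2).toNat p1'
  have p2' : ∀ i, AddMonoidAlgebra.single w (1 : k) * γ i ∈
      Ms k n ((((s + c - j i) + w.2).toNat : ℕ) : ℤ) := by
    intro i
    rw [Int.toNat_of_nonneg (p2 i).1]
    exact (p2 i).2
  choose ψ hψ1 hψ2 using fun i => Ms_exists_pf k ((s + c - j i) + w.2).toNat (p2' i)
  -- the relation
  have hrel : ∑ q : Ga n, tL k n (g * φ q - ∑ i, f i * ψ i q) * gm k q = 0 := by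
    have e1 : tL k n g * (AddMonoidAlgebra.single w (1 : k) * β)
        = ∑ i, tL k n (f i) * (AddMonoidAlgebra.single w (1 : k) * γ i) := by
      calc tL k n g * (AddMonoidAlgebra.single w (1 : k) * β)
          = AddMonoidAlgebra.single w (1 : k) * (tL k n g * β) := by ring
        _ = AddMonoidAlgebra.single w (1 : k) * ∑ i, tL k n (f i) * γ i := by rw [h4]
        _ = _ := by
            rw [Finset.mul_sum]
            refine Finset.sum_congr rfl fun i _ => ?_
            ring
    have e2 : ∀ q, tL k n (g * φ q - ∑ i, f i * ψ i q) * gm k q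
        = tL k n g * (tL k n (φ q) * gm k q)
          - ∑ i, tL k n (f i) * (tL k n (ψ i q) * gm k q) := by
      intro q
      rw [map_sub, map_sum, map_mul, sub_mul, Finset.sum_mul, mul_assoc]
      congr 1
      refine Finset.sum_congr rfl fun i _ => ?_
      rw [map_mul, mul_assoc]
    calc ∑ q : Ga n, tL k n (g * φ q - ∑ i, f i * ψ i q) * gm k q
        = ∑ q : Ga n, (tL k n g * (tL k n (φ q) * gm k q)
          - ∑ i, tL k n (f i) * (tL k n (ψ i q) * gm k q)) :=
          Finset.sum_congr rfl fun q _ => e2 q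
      _ = tL k n g * ∑ q : Ga n, (tL k n (φ q) * gm k q)
          - ∑ i, tL k n (f i) * ∑ q : Ga n, (tL k n (ψ i q) * gm k q) := by
          rw [Finset.sum_sub_distrib, Finset.mul_sum, Finset.sum_comm]
          congr 1
          refine Finset.sum_congr rfl fun i _ => ?_
          rw [Finset.mul_sum]
      _ = 0 := by
          rw [← hφ2, e1, sub_eq_zero]
          refine Finset.sum_congr rfl fun i _ => ?_
          rw [hψ2 i]
  have hzero := Ms_unique_pf k (fun q => g * φ q - ∑ i, f i * ψ i q) hrel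
  have hmem : ∀ q, φ q ∈ Ic k I g := by
    intro q
    show g * φ q ∈ I
    have e3 : g * φ q = ∑ i, f i * ψ i q := by
      have := hzero q
      rwa [sub_eq_zero] at this
    rw [e3]
    exact I.sum_mem fun i _ => I.mul_mem_right _ (h1 i)
  have hone : AddMonoidAlgebra.single (-w) (1 : k) * AddMonoidAlgebra.single w (1 : k)
      = (1 : Lz k n) := by
    rw [AddMonoidAlgebra.single_mul_single, neg_add_cancel, mul_one]
    rfl
  have hfin : β = ∑ q : Ga n, tL k n (φ q) * (AddMonoidAlgebra.single (-w) (1 : k) * gm k q) := by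
    calc β = AddMonoidAlgebra.single (-w) (1 : k) * AddMonoidAlgebra.single w (1 : k) * β := by
          rw [hone, one_mul]
      _ = AddMonoidAlgebra.single (-w) (1 : k) * ∑ q : Ga n, tL k n (φ q) * gm k q := by
          rw [mul_assoc, hφ2]
      _ = _ := by
          rw [Finset.mul_sum]
          refine Finset.sum_congr rfl fun q _ => ?_
          ring
  rw [hfin]
  refine Submodule.sum_mem _ fun q _ => Submodule.subset_span
    ⟨(s + w.2).toNat, φ q, AddMonoidAlgebra.single (-w) (1 : k) * gm k q, hmem q, hφ1 q, ?_, rfl⟩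
  have h5 := hw2 0 (gm k q) (gc2_gm k q)
  have h6 : s - (((s + w.2).toNat : ℕ) : ℤ) = 0 - w.2 := by
    rw [p0']
    ring
  rw [h6]
  exact h5

end GC2

end Vale.Agent.P202G
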