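import Vale.Agent.P202G.G0
import Vale.Agent.P202G.GA1
import Vale.Agent.P202G.GA2
import Vale.Agent.P202G.GC2

/-! # P202 stage 2, module GC3: the colon isomorphism -/

set_option autoImplicit false

namespace Vale.Agent.P202G

open IsLocalRing TensorProduct Vale.Agent.P202C

universe u v w

/-- equality of the lengths of two subquotients from a comparison map -/
theorem GC3_len {k : Type u} [CommRing k] {X : Type v} [AddCommGroup X] [Module k X]
    {Y : Type w} [AddCommGroup Y] [Module k Y] (G : Y →ₗ[k] X)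
    (N P : Submodule k X) (N' P' : Submodule k Y) (h1 : ∀ x ∈ P', G x ∈ P)
    (h2 : ∀ x ∈ P', G x ∈ N ↔ x ∈ N') (h3 : ∀ z ∈ P, ∃ x ∈ P', z - G x ∈ N) :
    rlen N P = rlen N' P' := by
  unfold rlen
  let f : P' →ₗ[k] (P ⧸ N.submoduleOf P) :=
    (N.submoduleOf P).mkQ.comp (G.restrict h1)
  have hker : LinearMap.ker f = N'.submoduleOf P' := by
    ext x
    rw [LinearMap.mem_ker]
    change (N.submoduleOf P).mkQ (G.restrict h1 x) = 0 ↔ _
    rw [Submodule.mkQ_apply, Submodule.Quotient.mk_eq_zero]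
    exact h2 x.1 x.2
  have hsurj : Function.Surjective f := by
    intro z
    obtain ⟨z, rfl⟩ := (N.submoduleOf P).mkQ_surjective z
    obtain ⟨x, hx, hz⟩ := h3 z.1 z.2
    refine ⟨⟨x, hx⟩, ?_⟩
    change (N.submoduleOf P).mkQ (G.restrict h1 ⟨x, hx⟩) = (N.submoduleOf P).mkQ z
    rw [Submodule.mkQ_apply, Submodule.mkQ_apply, eq_comm, Submodule.Quotient.eq]
    exact hz
  have e1 := (f.quotKerEquivOfSurjective hsurj).length_eq
  rw [← e1]
  exact (Submodule.quotEquivOfEq _ _ hker).length_eq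

section

variable (k : Type u) [CommRing k] {n : ℕ}

/-- multiplication by `tL g` on the total space -/
noncomputable def GC3_G (g : Pz k n) : Xz k n →ₗ[k] Xz k n where
  toFun x := fun τ => tL k n g * x τ
  map_add' := fun x y => by
    funext τ
    rw [Pi.add_apply, Pi.add_apply, mul_add]
  map_smul' := fun r x => by
    funext τ
    rw [Pi.smul_apply, RingHom.id_apply, Pi.smul_apply, mul_smul_comm]

theorem GC3_G_apply (g : Pz k n) (x : Xz k n) (τ : Fin n → Fin 3) :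
    GC3_G k g x τ = tL k n g * x τ := rfl

theorem GC3_dz (g : Pz k n) (x : Xz k n) : dz k (GC3_G k g x) = GC3_G k g (dz k x) := by
  funext τ
  change ∑ l ∈ Finset.univ.filter (fun l => τ l = 2),
    csg τ l • (tL k n g * x (Function.update τ l 0) - tL k n g * x (Function.update τ l 1)) =
    tL k n g * ∑ l ∈ Finset.univ.filter (fun l => τ l = 2),
      csg τ l • (x (Function.update τ l 0) - x (Function.update τ l 1))
  rw [Finset.mul_sum]
  refine Finset.sum_congr rfl fun l _ => ?_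
  rw [mul_smul_comm, mul_sub]

theorem GC3_grz (g : Pz k n) (j : ℤ) {x : Xz k n} (hx : x ∈ grz k j) :
    GC3_G k g x ∈ grz k j := by
  intro τ h
  rw [GC3_G_apply, hx τ h, mul_zero]

/-- multiplication by `g` maps `(I : g)` into `I` -/
theorem GC3_colon {I : Ideal (Pz k n)} {g : Pz k n} {c : ℕ} (hg : g.IsHomogeneous c)
    (b : Fin n → ℤ) (τ : Fin n → Fin 3) (s : ℤ) {x : Lz k n}
    (hx : x ∈ IB k (Ic k I g) b τ (s - c)) : tL k n g * x ∈ IB k I b τ s := by
  unfold IB at hx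
  induction hx using Submodule.span_induction with
  | mem x hx =>
    obtain ⟨j, f, β, hf, hfh, hβ, hx⟩ := hx
    have e : s - ((c + j : ℕ) : ℤ) = s - c - j := by push_cast; ring
    have h1 : tL k n (g * f) * β ∈ IB k I b τ s := by
      refine Submodule.subset_span ⟨c + j, g * f, β, hf, hg.mul hfh, ?_, rfl⟩
      rw [e]
      exact hβ
    rw [map_mul, mul_assoc] at h1
    rw [hx]
    exact h1
  | zero => rw [mul_zero]; exact Submodule.zero_mem _
  | add x y _ _ h1 h2 => rw [mul_add]; exact Submodule.add_mem _ h1 h2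
  | smul a x _ h1 => rw [mul_smul_comm]; exact Submodule.smul_mem _ a h1

/-- decomposition of a cochain with values in `I + (g)` -/
theorem GC3_dec {I : Ideal (Pz k n)} (hI : HI k I) {g : Pz k n} {c : ℕ}
    (hg : g.IsHomogeneous c) (b : Fin n → ℤ) (s j : ℤ) {z : Xz k n} (hz : z ∈ grz k j)
    (hz2 : z ∈ FB k (I ⊔ Ideal.span {g}) b s) :
    ∃ a x : Xz k n, a ∈ grz k j ∧ a ∈ FB k I b s ∧ x ∈ grz k j ∧ x ∈ FB k ⊤ b (s - c) ∧
      z = a + GC3_G k g x := by
  have h1 : ∀ τ, ∃ a x : Lz k n, a ∈ IB k I b τ s ∧ x ∈ Bs k b τ (s - c) ∧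
      z τ = a + tL k n g * x ∧ ((num2 τ : ℤ) ≠ j → a = 0 ∧ x = 0) := by
    intro τ
    by_cases h : (num2 τ : ℤ) ≠ j
    · refine ⟨0, 0, Submodule.zero_mem _, Submodule.zero_mem _, ?_, fun _ => ⟨rfl, rfl⟩⟩
      rw [hz τ h, mul_zero, add_zero]
    · have h2 := hz2 τ
      rw [IB_sup_span_pf k hI hg b τ s] at h2
      obtain ⟨a, ha, y, hy, hay⟩ := Submodule.mem_sup.1 h2
      obtain ⟨x, hx, rfl⟩ := Submodule.mem_map.1 hy
      exact ⟨a, x, ha, hx, hay.symm, fun h3 => absurd h3 h⟩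
  choose a x ha hx hax h0 using h1
  refine ⟨a, x, fun τ h => (h0 τ h).1, ha, fun τ h => (h0 τ h).2, fun τ => ?_, ?_⟩
  · rw [IB_top_pf]
    exact hx τ
  · funext τ
    exact hax τ

/-- `g x ∈ I` implies `x ∈ (I : g)` for cochains -/
theorem GC3_col2 {I : Ideal (Pz k n)} (hI : HI k I) {g : Pz k n} {c : ℕ}
    (hg : g.IsHomogeneous c) (b : Fin n → ℤ) (s : ℤ) {x : Xz k n}
    (hx : x ∈ FB k ⊤ b (s - c)) (h : GC3_G k g x ∈ FB k I b s) :
    x ∈ FB k (Ic k I g) b (s - c) := by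
  intro τ
  have h1 := hx τ
  rw [IB_top_pf] at h1
  have h2 : tL k n g * x τ ∈ IB k I b τ s := h τ
  refine colon_IB_pf k hI hg b τ (s - c) h1 ?_
  rw [sub_add_cancel]
  exact h2

theorem GC3_col1 {I : Ideal (Pz k n)} {g : Pz k n} {c : ℕ}
    (hg : g.IsHomogeneous c) (b : Fin n → ℤ) (s : ℤ) {x : Xz k n}
    (hx : x ∈ FB k (Ic k I g) b (s - c)) : GC3_G k g x ∈ FB k I b s :=
  fun τ => GC3_colon k hg b τ s (hx τ)

theorem GC3_top {I : Ideal (Pz k n)} (hI : HI k I) {g : Pz k n} {c : ℕ}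
    (hg : g.IsHomogeneous c) (b : Fin n → ℤ) (s : ℤ) {x : Xz k n}
    (hx : x ∈ FB k ⊤ b (s - c)) : GC3_G k g x ∈ FB k (I ⊔ Ideal.span {g}) b s := by
  intro τ
  have h1 := hx τ
  rw [IB_top_pf] at h1
  rw [IB_sup_span_pf k hI hg b τ s]
  exact Submodule.mem_sup_right (Submodule.mem_map_of_mem h1)

/-- **colon isomorphism** -/
theorem Hz_colon_pf {I : Ideal (Pz k n)} (hI : HI k I) {g : Pz k n} {c : ℕ}
    (hg : g.IsHomogeneous c) (b : Fin n → ℤ) (s j : ℤ) :
    Hz k I (I ⊔ Ideal.span {g}) b s j = Hz k (Ic k I g) ⊤ b (s - c) j := by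
  unfold Hz
  have hj : j - 1 + 1 = j := by ring
  refine GC3_len (GC3_G k g) _ _ _ _ ?_ ?_ ?_
  · rintro x ⟨⟨hx1, hx2⟩, hx3⟩
    refine ⟨⟨GC3_grz k g j hx1, GC3_top k hI hg b s hx2⟩, ?_⟩
    change dz k (GC3_G k g x) ∈ FB k I b s
    rw [GC3_dz]
    exact GC3_col1 k hg b s hx3
  · rintro x ⟨⟨hx1, hx2⟩, hx3⟩
    constructor
    · intro h
      obtain ⟨u, ⟨hu1, hu2⟩, y, hy, huy⟩ := Submodule.mem_sup.1 h
      obtain ⟨w, ⟨hw1, hw2⟩, rfl⟩ := Submodule.mem_map.1 hy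
      obtain ⟨a, v, ha1, ha2, hv1, hv2, rfl⟩ := GC3_dec k hI hg b s (j - 1) hw1 hw2
      have hdv : dz k v ∈ grz k j := by
        have := dz_grz' k (j - 1) hv1
        rwa [hj] at this
      have h1 : x - dz k v ∈ FB k (Ic k I g) b (s - c) := by
        refine GC3_col2 k hI hg b s (Submodule.sub_mem _ hx2 (dz_FB' k ⊤ b (s - c) hv2)) ?_
        have e : GC3_G k g (x - dz k v) = u + dz k a := by
          rw [map_sub, ← huy, map_add, GC3_dz]
          abel
        rw [e]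
        exact Submodule.add_mem _ hu2 (dz_FB' k I b s ha2)
      refine Submodule.mem_sup.2 ⟨x - dz k v, ⟨Submodule.sub_mem _ hx1 hdv, h1⟩, dz k v,
        Submodule.mem_map_of_mem ⟨hv1, hv2⟩, by abel⟩
    · intro h
      obtain ⟨u, ⟨hu1, hu2⟩, y, hy, rfl⟩ := Submodule.mem_sup.1 h
      obtain ⟨w, ⟨hw1, hw2⟩, rfl⟩ := Submodule.mem_map.1 hy
      rw [map_add, ← GC3_dz]
      refine Submodule.add_mem_sup ⟨GC3_grz k g j hu1, GC3_col1 k hg b s hu2⟩ ?_
      exact Submodule.mem_map_of_mem ⟨GC3_grz k g (j - 1) hw1, GC3_top k hI hg b s hw2⟩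
  · rintro z ⟨⟨hz1, hz2⟩, hz3⟩
    obtain ⟨a, x, ha1, ha2, hx1, hx2, rfl⟩ := GC3_dec k hI hg b s j hz1 hz2
    refine ⟨x, ⟨⟨hx1, hx2⟩, ?_⟩, ?_⟩
    · change dz k x ∈ FB k (Ic k I g) b (s - c)
      refine GC3_col2 k hI hg b s (dz_FB' k ⊤ b (s - c) hx2) ?_
      have h1 : dz k (a + GC3_G k g x) ∈ FB k I b s := hz3
      rw [map_add, GC3_dz] at h1
      have h2 := Submodule.sub_mem _ h1 (dz_FB' k I b s ha2)
      rwa [add_sub_cancel_left] at h2
    · rw [add_sub_cancel_right]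
      exact Submodule.mem_sup_left ⟨ha1, ha2⟩

end

end Vale.Agent.P202G
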