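import Vale.Agent.P202G.GA1
import Vale.Agent.P202G.GA2
import Vale.Agent.P202G.GC3

/-!
P202 stage 2, module GD (helper28): chains of homogeneous ideals.
-/

set_option autoImplicit false

namespace Vale.Agent.P202G

open IsLocalRing TensorProduct Vale.Agent.P202C MvPolynomial

universe u v w

section GD

variable (k : Type u) [CommRing k] {n : ℕ}

/-- finite sets of homogeneous generators -/
theorem GD_fg {J : Ideal (Pz k n)} (hJ : HI k J) (hfg : J.FG) :
    ∃ T : Finset (Pz k n), (∀ g ∈ T, ∃ e : ℕ, g.IsHomogeneous e) ∧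
      Ideal.span (T : Set (Pz k n)) = J := by
  classical
  obtain ⟨S, hS⟩ := hfg
  refine ⟨S.biUnion fun x => (Finset.range (x.totalDegree + 1)).image
    fun d => homogeneousComponent d x, ?_, ?_⟩
  · intro g hg
    simp only [Finset.mem_biUnion, Finset.mem_image] at hg
    obtain ⟨x, _, d, _, rfl⟩ := hg
    exact ⟨d, homogeneousComponent_isHomogeneous d x⟩
  · refine le_antisymm (Ideal.span_le.2 ?_) ?_
    · intro g hg
      simp only [Finset.coe_biUnion, Set.mem_iUnion, Finset.mem_coe, Finset.mem_image] at hg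
      obtain ⟨x, hx, d, _, rfl⟩ := hg
      refine hJ x ?_ d
      rw [← hS]
      exact Ideal.subset_span hx
    · rw [← hS]
      refine Ideal.span_le.2 fun x hx => ?_
      rw [← sum_homogeneousComponent x]
      refine Ideal.sum_mem _ fun d hd => Ideal.subset_span ?_
      simp only [Finset.coe_biUnion, Set.mem_iUnion, Finset.mem_coe, Finset.mem_image]
      exact ⟨x, hx, d, hd, rfl⟩

theorem GD_Hz_self (I : Ideal (Pz k n)) (b : Fin n → ℤ) (s j : ℤ) : Hz k I I b s j = 0 := by
  show HC.ql _ _ = 0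
  rw [HC.ql_eq_zero]
  exact inf_le_left.trans le_sup_left

variable [IsNoetherianRing k]

theorem exists_chain_pf {I K : Ideal (Pz k n)} (hI : HI k I) (hK : HI k K) (hIK : I ≤ K) :
    ∃ (r : ℕ) (J : ℕ → Ideal (Pz k n)) (g : ℕ → Pz k n) (c : ℕ → ℕ), J 0 = I ∧ J r = K ∧
      (∀ i, HI k (J i)) ∧ (∀ i, I ≤ J i) ∧ (∀ i, J i ≤ K) ∧
      ∀ i, i < r → g i ∈ K ∧ (g i).IsHomogeneous (c i) ∧ J (i + 1) = J i ⊔ Ideal.span {g i} := by
  classical
  obtain ⟨T, hT, hTK⟩ := GD_fg k hK (IsNoetherian.noetherian K)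
  set g : ℕ → Pz k n := fun i => if h : i < T.card then (T.equivFin.symm ⟨i, h⟩ : Pz k n) else 0
    with hg
  have hgT : ∀ i, i < T.card → g i ∈ T := by
    intro i hi
    simp only [hg, dif_pos hi]
    exact (T.equivFin.symm ⟨i, hi⟩).2
  have hgh : ∀ i, ∃ e : ℕ, (g i).IsHomogeneous e := by
    intro i
    by_cases hi : i < T.card
    · exact hT _ (hgT i hi)
    · simp only [hg, dif_neg hi]
      exact ⟨0, isHomogeneous_zero _ _ _⟩
  have hgK : ∀ i, g i ∈ K := by
    intro i
    by_cases hi : i < T.card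
    · rw [← hTK]
      exact Ideal.subset_span (hgT i hi)
    · simp only [hg, dif_neg hi]
      exact K.zero_mem
  choose c hc using hgh
  set J : ℕ → Ideal (Pz k n) := fun i => I ⊔ Ideal.span (g '' {j | j < i}) with hJ
  have hJs : ∀ i, J (i + 1) = J i ⊔ Ideal.span {g i} := by
    intro i
    simp only [hJ]
    have h1 : {j : ℕ | j < i + 1} = {j | j < i} ∪ {i} := by
      ext j
      simp only [Set.mem_ofPred_eq, Set.mem_union, Set.mem_singleton_iff]
      omega
    rw [h1, Set.image_union, Set.image_singleton, Ideal.span_union, sup_assoc]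
  have hJ0 : J 0 = I := by
    simp [hJ]
  refine ⟨T.card, J, g, c, hJ0, ?_, ?_, fun i => le_sup_left, ?_, fun i _ =>
    ⟨hgK i, hc i, hJs i⟩⟩
  · simp only [hJ]
    have h1 : g '' {j | j < T.card} = (T : Set (Pz k n)) := by
      ext x
      constructor
      · rintro ⟨j, hj, rfl⟩
        exact hgT j hj
      · intro hx
        refine ⟨(T.equivFin ⟨x, hx⟩).val, (T.equivFin ⟨x, hx⟩).2, ?_⟩
        simp only [hg, dif_pos (T.equivFin ⟨x, hx⟩).2]
        simp
    rw [h1, hTK, sup_eq_right.2 hIK]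
  · intro i
    induction i with
    | zero =>
      rw [hJ0]
      exact hI
    | succ i ih =>
      rw [hJs]
      exact HI_sup_span_pf k ih (hc i)
  · intro i
    refine sup_le hIK (Ideal.span_le.2 ?_)
    rintro _ ⟨j, _, rfl⟩
    exact hgK j

/-- the colon pieces bound the cohomology -/
theorem Hz_chain_pf {I K : Ideal (Pz k n)} (hI : HI k I) (hK : HI k K) (hIK : I ≤ K) :
    ∃ (r : ℕ) (L : Fin r → Ideal (Pz k n)) (c : Fin r → ℕ), (∀ i, HI k (L i)) ∧
      (∀ i, I ≤ L i) ∧ ∀ (b : Fin n → ℤ) (s j : ℤ),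
        Hz k I K b s j ≤ ∑ i, Hz k (L i) ⊤ b (s - c i) j := by
  obtain ⟨r, J, g, c, hJ0, hJr, hJh, hIJ, hJK, hg⟩ := exists_chain_pf k hI hK hIK
  refine ⟨r, fun i => Ic k (J i) (g i), fun i => c i, fun i => ?_, fun i => ?_, fun b s j => ?_⟩
  · exact HI_Ic_pf k (hJh i) (hg i i.2).2.1
  · refine (hIJ i).trans fun f hf => ?_
    show g i * f ∈ J i
    exact (J i).mul_mem_left _ hf
  · have key : ∀ i : ℕ, i ≤ r → Hz k I (J i) b s j ≤
        ∑ i' ∈ Finset.range i, Hz k (Ic k (J i') (g i')) ⊤ b (s - c i') j := by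
      intro i
      induction i with
      | zero =>
        intro _
        rw [hJ0, GD_Hz_self]
        exact zero_le
      | succ i ih =>
        intro hi
        have hi' : i < r := hi
        rw [Finset.sum_range_succ]
        have h1 : J i ≤ J (i + 1) := by
          rw [(hg i hi').2.2]
          exact le_sup_left
        refine (Hz_AC' k (hIJ i) h1 b s j).trans (add_le_add (ih hi'.le) (le_of_eq ?_))
        rw [(hg i hi').2.2]
        exact Hz_colon_pf k (hJh i) (hg i hi').2.1 b s j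
    have h2 := key r le_rfl
    rw [hJr] at h2
    refine h2.trans (le_of_eq ?_)
    rw [Finset.sum_range]

end GD

end Vale.Agent.P202G
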