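import Vale.Agent.P202G.GE1

/-!
# P202, stage 2, module GE: cohomology of `B_s` over a field (helper98)
-/

set_option autoImplicit false

namespace Vale.Agent.P202G

open IsLocalRing TensorProduct Vale.Agent.P202C

universe u v w

namespace GE

section Gen

variable (k : Type u) [CommRing k] {n : ℕ}

/-- `Hz` in terms of exact T-degree -/
theorem Hz_top_unfold (b : Fin n → ℤ) (s j : ℤ) : Hz k ⊥ ⊤ b s j =
    rlen ((grz k (j - 1) ⊓ FB k ⊤ b s).map (dz k)) (grz k j ⊓ FB k ⊤ b s ⊓ LinearMap.ker (dz k)) := by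
  unfold Hz
  rw [FB_bot, inf_bot_eq, bot_sup_eq]
  rfl

theorem Hz_top_zero_aux (b : Fin n → ℤ) (s j : ℤ) (hj : j ≠ negc b s) :
    Hz k ⊥ ⊤ b s j = 0 := by
  rw [Hz_top_unfold]
  refine HC.ql_eq_zero.mpr ?_
  rintro x ⟨⟨h1, h2⟩, h3⟩
  rw [SetLike.mem_coe, mem_FB_top] at h2
  have h4 : dz k x = 0 := h3
  have h5 : x ∈ Gn.PA k b j s := by
    refine ⟨⟨h1, mem_FA k h2⟩, ?_⟩
    show Gn.dA k n x ∈ Gn.FA k b (s + 1)
    rw [← dz_eq, h4]
    exact Submodule.zero_mem _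
  obtain ⟨x', hx', _, ⟨z, hz, rfl⟩, he⟩ := Submodule.mem_sup.mp (Gn.slice_zero k hj h5)
  have h6 : dz k (rs k s z) = x := by
    rw [← rs_self k h2, ← he, rs_add, rs_high k hx'.2, zero_add, ← rs_dz]
    rfl
  exact ⟨rs k s z, ⟨rs_gr k hz.1, (mem_FB_top k).mpr (rs_Bs k hz.2)⟩, h6⟩

/-- evaluation of a cocycle -/
noncomputable def evz (b : Fin n → ℤ) (s : ℤ) :
    ↥(grz k (negc b s) ⊓ FB k ⊤ b s ⊓ LinearMap.ker (dz k) : Submodule k (Xz k n)) →ₗ[k]
      (↥(hS b s) → k) where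
  toFun x := fun i => (x.1 (τ1 b s)).coeff (i.1, s)
  map_add' := fun x y => by
    funext i
    show (x.1 (τ1 b s) + y.1 (τ1 b s)).coeff (i.1, s) = _
    rw [AddMonoidAlgebra.coeff_add, Finsupp.add_apply]
    rfl
  map_smul' := fun r x => by
    funext i
    show (r • x.1 (τ1 b s)).coeff (i.1, s) = _
    rw [AddMonoidAlgebra.coeff_smul, Finsupp.smul_apply]
    rfl

theorem evz_apply (b : Fin n → ℤ) (s : ℤ)
    (x : ↥(grz k (negc b s) ⊓ FB k ⊤ b s ⊓ LinearMap.ker (dz k) : Submodule k (Xz k n)))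
    (i : ↥(hS b s)) : evz k b s x i = (x.1 (τ1 b s)).coeff (i.1, s) := rfl

theorem mem_PA {b : Fin n → ℤ} {s j : ℤ} {x : Xz k n}
    (hx : x ∈ grz k j ⊓ FB k ⊤ b s ⊓ LinearMap.ker (dz k)) : x ∈ Gn.PA k b j s := by
  obtain ⟨⟨h1, h2⟩, h3⟩ := hx
  rw [SetLike.mem_coe, mem_FB_top] at h2
  have h4 : dz k x = 0 := h3
  refine ⟨⟨h1, mem_FA k h2⟩, ?_⟩
  show Gn.dA k n x ∈ Gn.FA k b (s + 1)
  rw [← dz_eq, h4]
  exact Submodule.zero_mem _

theorem ker_evz (b : Fin n → ℤ) (s : ℤ) : LinearMap.ker (evz k b s) =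
    ((grz k ((negc b s : ℤ) - 1) ⊓ FB k ⊤ b s).map (dz k)).submoduleOf
      (grz k (negc b s) ⊓ FB k ⊤ b s ⊓ LinearMap.ker (dz k)) := by
  ext x
  rw [LinearMap.mem_ker]
  constructor
  · intro h
    have hP := mem_PA k x.2
    have h1 : (⟨x.1, hP⟩ : ↥(Gn.PA k b (negc b s) s)) ∈ LinearMap.ker (Gn.evA k b (negc b s) s) := by
      rw [LinearMap.mem_ker]
      funext i
      rw [Gn.evA_apply]
      have h2 := congrFun h i
      rw [evz_apply] at h2
      rw [h2]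
      unfold Gn.clC
      rw [Pi.zero_apply, Pi.zero_apply, map_zero, map_zero]
    rw [Gn.ker_evA] at h1
    have h2 : x.1 ∈ Gn.NA k b (negc b s) s := h1
    obtain ⟨x', hx', _, ⟨z, hz, rfl⟩, he⟩ := Submodule.mem_sup.mp h2
    have h3 : ∀ τ, x.1 τ ∈ Bs k b τ s := (mem_FB_top k).mp x.2.1.2
    have h6 : dz k (rs k s z) = x.1 := by
      rw [← rs_self k h3, ← he, rs_add, rs_high k hx'.2, zero_add, ← rs_dz]
      rfl
    exact ⟨rs k s z, ⟨rs_gr k hz.1, (mem_FB_top k).mpr (rs_Bs k hz.2)⟩, h6⟩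
  · intro h
    obtain ⟨z, hz, hzx⟩ := h
    funext i
    rw [evz_apply, Pi.zero_apply]
    have h3 : x.1 ∈ Gn.NA k b (negc b s) s :=
      Submodule.mem_sup_right ⟨z, ⟨hz.1, mem_FA k ((mem_FB_top k).mp hz.2)⟩, hzx⟩
    exact Gn.ev_NA k h3 i.2

theorem evz_surj (b : Fin n → ℤ) (s : ℤ) : Function.Surjective (evz k b s) := by
  classical
  intro g
  have h0 := Gn.repX_mem k b s g
  have hB : ∀ τ, Gn.repX k b s g τ ∈ Bs k b τ s := by
    intro τ m hm
    obtain ⟨h1, h2, h3⟩ := h0.1.2 τ m hm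
    have h4 : m.2 = s := by
      by_contra hne
      apply hm
      unfold Gn.repX
      split_ifs with h
      · rw [Gn.coeff_sum']
        refine Finset.sum_eq_zero fun i _ => ?_
        rw [AddMonoidAlgebra.coeff_single, Finsupp.single_apply, if_neg]
        intro h'
        exact hne (by rw [← h'])
      · rfl
    rw [h4] at h2
    exact ⟨h4, h2, h3⟩
  have hd : dz k (Gn.repX k b s g) = 0 := by
    have h1 : dz k (Gn.repX k b s g) ∈ Gn.FA k b (s + 1) := h0.2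
    have h2 : rs k s (dz k (Gn.repX k b s g)) = dz k (Gn.repX k b s g) := by
      rw [rs_dz, rs_self k hB]
    rw [← h2, rs_high k h1]
  refine ⟨⟨Gn.repX k b s g, ⟨h0.1.1, (mem_FB_top k).mpr hB⟩, hd⟩, ?_⟩
  funext i
  rw [evz_apply]
  show (Gn.repX k b s g (τ1 b s)).coeff (i.1, s) = g i
  unfold Gn.repX
  rw [if_pos, Gn.coeff_sum', Finset.sum_eq_single i]
  · rw [AddMonoidAlgebra.coeff_single, Finsupp.single_eq_same]
  · intro j _ hj
    rw [AddMonoidAlgebra.coeff_single, Finsupp.single_apply, if_neg]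
    intro h
    exact hj (Subtype.ext (Prod.mk.inj h).1)
  · intro h
    exact absurd (Finset.mem_univ i) h
  · intro l
    unfold τ1
    split_ifs with h
    · simp [h]
    · simp [h]

/-- **the cohomology in the critical degree** (any ring) -/
noncomputable def Hz_equiv (b : Fin n → ℤ) (s : ℤ) :
    (↥(grz k (negc b s) ⊓ FB k ⊤ b s ⊓ LinearMap.ker (dz k)) ⧸
      ((grz k ((negc b s : ℤ) - 1) ⊓ FB k ⊤ b s).map (dz k)).submoduleOf
        (grz k (negc b s) ⊓ FB k ⊤ b s ⊓ LinearMap.ker (dz k))) ≃ₗ[k] (↥(hS b s) → k) :=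
  (Submodule.quotEquivOfEq _ _ (ker_evz k b s).symm).trans
    ((evz k b s).quotKerEquivOfSurjective (evz_surj k b s))

theorem Hz_top_eq_aux (b : Fin n → ℤ) (s : ℤ) :
    Hz k ⊥ ⊤ b s (negc b s) =
      ((∏ l, (b l + s + 1).natAbs : ℕ) : ℕ∞) * Module.length k k := by
  classical
  rw [Hz_top_unfold]
  unfold rlen
  rw [(Hz_equiv k b s).length_eq, Module.length_pi_of_fintype, Finset.sum_const,
    Finset.card_univ, Fintype.card_coe, card_hS, nsmul_eq_mul]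

end Gen

end GE

section GE

variable {n : ℕ} (κ : Type u) [Field κ]

theorem Hz_top_zero' (b : Fin n → ℤ) (s j : ℤ) (hj : j ≠ negc b s) : Hz κ ⊥ ⊤ b s j = 0 :=
  GE.Hz_top_zero_aux κ b s j hj

theorem Hz_top_eq' (b : Fin n → ℤ) (s : ℤ) :
    Hz κ ⊥ ⊤ b s (negc b s) = ((∏ l, (b l + s + 1).natAbs : ℕ) : ℕ∞) := by
  have h1 : Module.length κ κ = 1 := Module.length_eq_one κ κ
  rw [GE.Hz_top_eq_aux, h1, mul_one]

theorem chz_top' (b : Fin n → ℤ) (s : ℤ) : chz κ ⊥ ⊤ b s = ∏ l, (b l + s + 1) := by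
  unfold chz
  rw [Finset.sum_eq_single (negc b s)]
  · rw [Hz_top_eq', prod_eq, ENat.toNat_natCast]
  · intro k _ hk
    rw [Hz_top_zero' κ b s k (by exact_mod_cast hk)]
    simp
  · intro h
    exact absurd (Finset.mem_range.mpr (Nat.lt_succ_of_le (negc_le b s))) h

end GE

end Vale.Agent.P202G
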