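import Vale.Agent.P202G.GA1
import Vale.Agent.P202G.GA2
import Vale.Agent.P202G.GB
import Vale.Agent.P202G.GE2
import Vale.Agent.P202G.GC3

/-!
# P202, stage 2, module GF: cohomology of `B / f B` for one form `f` over a field (helper99)
-/

set_option autoImplicit false

namespace Vale.Agent.P202G

open IsLocalRing TensorProduct Vale.Agent.P202C

universe u v w

section GFlin

variable (κ : Type u) [Field κ]

/-- span modulo `N`, by induction along a key -/
theorem gf_span {M : Type v} [AddCommGroup M] [Module κ M] {ι : Type*}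
    {Λ : Type*} [LinearOrder Λ] (N : Submodule κ M) (S bad : Finset ι) (φ : ι → Λ) (u : ι → M)
    (h : ∀ i ∈ S, i ∉ bad → u i ∈ N ⊔ Submodule.span κ (u '' {m | m ∈ S ∧ φ m < φ i})) :
    ∀ i ∈ S, u i ∈ N ⊔ Submodule.span κ (u '' (bad : Set ι)) := by
  classical
  by_contra hcon
  push Not at hcon
  obtain ⟨i0, hi0, hi0'⟩ := hcon
  obtain ⟨i, hi, hmin⟩ := Finset.exists_min_image
    (S.filter (fun i => u i ∉ N ⊔ Submodule.span κ (u '' (bad : Set ι)))) φ
    ⟨i0, Finset.mem_filter.mpr ⟨hi0, hi0'⟩⟩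
  rw [Finset.mem_filter] at hi
  have hib : i ∉ bad := fun hb =>
    hi.2 (Submodule.mem_sup_right (Submodule.subset_span ⟨i, hb, rfl⟩))
  have h1 := h i hi.1 hib
  have h2 : N ⊔ Submodule.span κ (u '' {m | m ∈ S ∧ φ m < φ i}) ≤
      N ⊔ Submodule.span κ (u '' (bad : Set ι)) := by
    refine sup_le le_sup_left ?_
    rw [Submodule.span_le]
    rintro _ ⟨m, ⟨hm1, hm2⟩, rfl⟩
    by_contra hm3
    exact absurd (hmin m (Finset.mem_filter.mpr ⟨hm1, hm3⟩)) (not_le.mpr hm2)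
  exact hi.2 (h2 h1)

/-- length of a quotient generated by `bad` -/
theorem gf_len {M : Type v} [AddCommGroup M] [Module κ M] {ι : Type*} (N P : Submodule κ M)
    (bad : Finset ι) (u : ι → M) (h : P ≤ N ⊔ Submodule.span κ (u '' (bad : Set ι))) :
    rlen N P ≤ (bad.card : ℕ∞) := by
  classical
  refine (HC.ql_mono N h).trans ?_
  rw [sup_comm]
  refine (HC.ql_sup N _).le.trans ?_
  unfold HC.ql
  refine (Module.length_le_of_surjective (Submodule.mkQ _) (Submodule.mkQ_surjective _)).trans ?_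
  have h1 : ∀ i : ↥bad, u i.1 ∈ Submodule.span κ (u '' (bad : Set ι)) := fun i =>
    Submodule.subset_span ⟨i.1, i.2, rfl⟩
  have h2 : Module.length κ (↥bad → κ) = (bad.card : ℕ∞) := by
    rw [Module.length_pi_of_fintype, Finset.sum_const, Finset.card_univ, Fintype.card_coe,
      nsmul_eq_mul, Module.length_eq_one κ κ, mul_one]
  rw [← h2]
  refine Module.length_le_of_surjective (Fintype.linearCombination κ
    (fun i : ↥bad => (⟨u i.1, h1 i⟩ : ↥(Submodule.span κ (u '' (bad : Set ι)))))) ?_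
  intro x
  have h3 : (x : M) ∈ Submodule.span κ (Set.range fun i : ↥bad => u i.1) := by
    have h4 : Set.range (fun i : ↥bad => u i.1) = u '' (bad : Set ι) := by
      ext y
      constructor
      · rintro ⟨i, rfl⟩
        exact ⟨i.1, i.2, rfl⟩
      · rintro ⟨i, hi, rfl⟩
        exact ⟨⟨i, hi⟩, rfl⟩
    rw [h4]
    exact x.2
  rw [← Fintype.range_linearCombination] at h3
  obtain ⟨g, hg⟩ := h3
  refine ⟨g, Subtype.ext ?_⟩
  rw [← hg, Fintype.linearCombination_apply, Fintype.linearCombination_apply]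
  rw [Submodule.coe_sum]
  rfl

end GFlin

section GFX

variable {n : ℕ} (κ : Type u) [Field κ]

theorem gf_tL_ne {f : Pz κ n} (hf0 : f ≠ 0) : tL κ n f ≠ 0 := by
  classical
  intro h
  refine hf0 ?_
  let g0 : Ga n := fun l => ⟨0, Nat.succ_pos _⟩
  have h2 : ∑ g, tL κ n ((Pi.single g0 f : Ga n → Pz κ n) g) * gm κ g = 0 := by
    refine Finset.sum_eq_zero fun g _ => ?_
    by_cases hg : g = g0
    · rw [hg, Pi.single_eq_same, h, zero_mul]
    · rw [Pi.single_eq_of_ne hg, map_zero, zero_mul]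
  have h1 := Ms_unique_pf κ (Pi.single g0 f) h2 g0
  rwa [Pi.single_eq_same] at h1

/-- leading exponent -/
theorem gf_lead {f : Pz κ n} {δ : ℕ} (hf : f.IsHomogeneous δ) (hf0 : f ≠ 0) :
    ∃ α : Fin n → ℤ, (∀ l, 0 ≤ α l ∧ α l ≤ (δ : ℤ)) ∧ (tL κ n f).coeff (α, (δ : ℤ)) ≠ 0 ∧
      ∀ m, (tL κ n f).coeff m ≠ 0 → toLex m.1 ≤ toLex α := by
  classical
  have hF := gf_tL_ne κ hf0
  have hne : (tL κ n f).coeff.support.Nonempty := by
    rw [Finsupp.support_nonempty_iff]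
    intro h
    exact hF (AddMonoidAlgebra.coeff_injective (by rw [h, AddMonoidAlgebra.coeff_zero]))
  obtain ⟨m0, hm0, hmax⟩ := Finset.exists_max_image (tL κ n f).coeff.support
    (fun m => toLex m.1) hne
  have h1 := GE.Hb_tL κ hf m0 (Finsupp.mem_support_iff.mp hm0)
  refine ⟨m0.1, h1.2, ?_, fun m hm => hmax m (Finsupp.mem_support_iff.mpr hm)⟩
  rw [← h1.1]
  exact Finsupp.mem_support_iff.mp hm0

open Classical in
/-- the monomial cochain -/
noncomputable def gfX (b : Fin n → ℤ) (s : ℤ) (i : Fin n → ℤ) : Xz κ n := fun τ =>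
  if ∀ l, τ l = 2 ↔ b l + s < 0 then AddMonoidAlgebra.single (i, s) 1 else 0

theorem gfX_grz (b : Fin n → ℤ) (s : ℤ) (i : Fin n → ℤ) : gfX κ b s i ∈ grz κ (negc b s) := by
  intro τ hτ
  unfold gfX
  rw [if_neg]
  intro h
  apply hτ
  unfold num2 negc
  congr 2
  ext l
  simp only [Finset.mem_filter, Finset.mem_univ, true_and]
  exact h l

theorem gfX_dz (b : Fin n → ℤ) (s : ℤ) (i : Fin n → ℤ) : dz κ (gfX κ b s i) = 0 := by
  classical
  funext τ
  rw [GA2_dz_apply, Pi.zero_apply]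
  refine Finset.sum_eq_zero fun l hl => ?_
  have h1 : gfX κ b s i (Function.update τ l 0) = gfX κ b s i (Function.update τ l 1) := by
    unfold gfX
    have h2 : (∀ m, Function.update τ l 0 m = 2 ↔ b m + s < 0) ↔
        (∀ m, Function.update τ l 1 m = 2 ↔ b m + s < 0) := by
      refine forall_congr' fun m => ?_
      by_cases hm : m = l
      · rw [hm, Function.update_self, Function.update_self]
        simp
      · rw [Function.update_of_ne hm, Function.update_of_ne hm]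
    by_cases h3 : ∀ m, Function.update τ l 0 m = 2 ↔ b m + s < 0
    · rw [if_pos h3, if_pos (h2.mp h3)]
    · rw [if_neg h3, if_neg (fun h => h3 (h2.mpr h))]
  rw [h1, sub_self, smul_zero]

theorem gfX_FB (b : Fin n → ℤ) (s : ℤ) (i : Fin n → ℤ)
    (hi : ∀ l, ¬ b l + s < 0 → 0 ≤ i l ∧ i l ≤ b l + s) : gfX κ b s i ∈ FB κ ⊤ b s := by
  classical
  rw [GE.mem_FB_top]
  intro τ
  unfold gfX
  split_ifs with h
  · intro m hm
    rw [AddMonoidAlgebra.coeff_single, Finsupp.single_apply] at hm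
    by_cases h2 : (i, s) = m
    · rw [← h2]
      refine ⟨rfl, fun l hl => ?_, fun l hl => ?_⟩
      · have h1 : ¬ b l + s < 0 := by
          rw [← h l, hl]
          decide
        exact (hi l h1).2
      · have h1 : ¬ b l + s < 0 := by
          rw [← h l, hl]
          decide
        exact (hi l h1).1
    · rw [if_neg h2] at hm
      exact absurd rfl hm
  · exact Submodule.zero_mem _

theorem gfX_Z (b : Fin n → ℤ) (s : ℤ) (i : Fin n → ℤ)
    (hi : ∀ l, ¬ b l + s < 0 → 0 ≤ i l ∧ i l ≤ b l + s) :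
    gfX κ b s i ∈ grz κ (negc b s) ⊓ FB κ ⊤ b s ⊓ LinearMap.ker (dz κ) :=
  ⟨⟨gfX_grz κ b s i, gfX_FB κ b s i hi⟩, gfX_dz κ b s i⟩

theorem gfX_coeff (b : Fin n → ℤ) (s : ℤ) (i j : Fin n → ℤ) [Decidable (i = j)] :
    (gfX κ b s i (τ1 b s)).coeff (j, s) = if i = j then 1 else 0 := by
  classical
  unfold gfX
  rw [if_pos, AddMonoidAlgebra.coeff_single, Finsupp.single_apply]
  · by_cases h : i = j
    · rw [if_pos h, if_pos (by rw [h])]
    · rw [if_neg h, if_neg (fun h' => h (Prod.mk.inj h').1)]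
  · intro l
    unfold τ1
    split_ifs with h
    · simp [h]
    · simp [h]

/-- cocycles with zero evaluation are coboundaries -/
theorem gf_bd (b : Fin n → ℤ) (s : ℤ) {x : Xz κ n}
    (hx : x ∈ grz κ (negc b s) ⊓ FB κ ⊤ b s ⊓ LinearMap.ker (dz κ))
    (h : ∀ i ∈ hS b s, (x (τ1 b s)).coeff (i, s) = 0) :
    x ∈ (grz κ ((negc b s : ℤ) - 1) ⊓ FB κ ⊤ b s).map (dz κ) := by
  have h1 : (⟨x, hx⟩ : ↥(grz κ (negc b s) ⊓ FB κ ⊤ b s ⊓ LinearMap.ker (dz κ))) ∈
      LinearMap.ker (GE.evz κ b s) := by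
    rw [LinearMap.mem_ker]
    funext i
    rw [GE.evz_apply]
    exact h i.1 i.2
  rw [GE.ker_evz] at h1
  exact h1

/-- monomial cochains outside `hS` are coboundaries -/
theorem gfX_bd (b : Fin n → ℤ) (s : ℤ) (i : Fin n → ℤ)
    (hi : ∀ l, ¬ b l + s < 0 → 0 ≤ i l ∧ i l ≤ b l + s) (hi' : i ∉ hS b s) :
    gfX κ b s i ∈ (grz κ ((negc b s : ℤ) - 1) ⊓ FB κ ⊤ b s).map (dz κ) := by
  classical
  refine gf_bd κ b s (gfX_Z κ b s i hi) fun j hj => ?_
  rw [gfX_coeff, if_neg]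
  intro h
  exact hi' (h ▸ hj)

theorem gf_hS_hi {b : Fin n → ℤ} {s : ℤ} {i : Fin n → ℤ} (hi : i ∈ hS b s) :
    ∀ l, ¬ b l + s < 0 → 0 ≤ i l ∧ i l ≤ b l + s := (mem_hS.mp hi).2

/-- cocycles are combinations of monomial cochains modulo coboundaries -/
theorem gf_cocycle (b : Fin n → ℤ) (s : ℤ) {x : Xz κ n}
    (hx : x ∈ grz κ (negc b s) ⊓ FB κ ⊤ b s ⊓ LinearMap.ker (dz κ)) :
    x ∈ (grz κ ((negc b s : ℤ) - 1) ⊓ FB κ ⊤ b s).map (dz κ) ⊔
      Submodule.span κ (gfX κ b s '' (hS b s : Set (Fin n → ℤ))) := by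
  classical
  set y : Xz κ n := ∑ i ∈ hS b s, (x (τ1 b s)).coeff (i, s) • gfX κ b s i with hy
  have hyZ : y ∈ grz κ (negc b s) ⊓ FB κ ⊤ b s ⊓ LinearMap.ker (dz κ) :=
    Submodule.sum_mem _ fun i hi => Submodule.smul_mem _ _ (gfX_Z κ b s i (gf_hS_hi hi))
  have hyS : y ∈ Submodule.span κ (gfX κ b s '' (hS b s : Set (Fin n → ℤ))) :=
    Submodule.sum_mem _ fun i hi => Submodule.smul_mem _ _ (Submodule.subset_span ⟨i, hi, rfl⟩)
  have h1 : x - y ∈ (grz κ ((negc b s : ℤ) - 1) ⊓ FB κ ⊤ b s).map (dz κ) := by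
    refine gf_bd κ b s (Submodule.sub_mem _ hx hyZ) fun j hj => ?_
    have h2 : (y (τ1 b s)).coeff (j, s) = (x (τ1 b s)).coeff (j, s) := by
      rw [hy, Finset.sum_apply, Gn.coeff_sum', Finset.sum_eq_single j]
      · rw [Pi.smul_apply, AddMonoidAlgebra.coeff_smul, Finsupp.smul_apply, gfX_coeff, if_pos rfl,
          smul_eq_mul, mul_one]
      · intro i _ hij
        rw [Pi.smul_apply, AddMonoidAlgebra.coeff_smul, Finsupp.smul_apply, gfX_coeff, if_neg hij,
          smul_zero]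
      · intro h
        exact absurd hj h
    rw [Pi.sub_apply, AddMonoidAlgebra.coeff_sub, Finsupp.sub_apply, h2, sub_self]
  have h3 : x = (x - y) + y := (sub_add_cancel x y).symm
  rw [h3]
  exact Submodule.add_mem _ (Submodule.mem_sup_left h1) (Submodule.mem_sup_right hyS)

/-- multiplication by `F` on a monomial cochain -/
theorem gfX_mul {F : Lz κ n} {δ : ℕ} (hF : F ∈ GE.Hb κ n δ) (b : Fin n → ℤ) (s : ℤ)
    (hA : ∀ l, b l + (s - δ) < 0 ↔ b l + s < 0) (i : Fin n → ℤ) :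
    (fun τ => F * gfX κ b (s - δ) i τ : Xz κ n) =
      ∑ m ∈ F.coeff.support, F.coeff m • gfX κ b s (m.1 + i) := by
  classical
  funext τ
  rw [Finset.sum_apply]
  have hc : (∀ l, τ l = 2 ↔ b l + (s - δ) < 0) ↔ (∀ l, τ l = 2 ↔ b l + s < 0) :=
    forall_congr' fun l => by rw [hA l]
  by_cases h : ∀ l, τ l = 2 ↔ b l + s < 0
  · have h1 : gfX κ b (s - δ) i τ = AddMonoidAlgebra.single (i, s - δ) 1 := by
      unfold gfX
      rw [if_pos (hc.mpr h)]
    rw [h1]
    refine Gn.lau_ext κ fun m => ?_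
    rw [Gn.coeff_sum', AddMonoidAlgebra.coeff_mul_single_eq_coeff_mul (m₂ := m - (i, s - δ))]
    · rw [mul_one]
      have h2 : ∀ m' ∈ F.coeff.support, ((F.coeff m' • gfX κ b s (m'.1 + i)) τ).coeff m =
          if m - (i, s - δ) = m' then F.coeff m' else 0 := by
        intro m' hm'
        have h3 : m'.2 = δ := (hF m' (Finsupp.mem_support_iff.mp hm')).1
        rw [Pi.smul_apply, AddMonoidAlgebra.coeff_smul, Finsupp.smul_apply]
        unfold gfX
        rw [if_pos h, AddMonoidAlgebra.coeff_single, Finsupp.single_apply]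
        by_cases h4 : m - (i, s - δ) = m'
        · rw [if_pos h4, if_pos, smul_eq_mul, mul_one]
          rw [← h4]
          refine Prod.ext ?_ ?_
          · show (m.1 - i) + i = m.1
            rw [sub_add_cancel]
          · show s = m.2
            rw [← h4] at h3
            have h5 : m.2 - (s - δ) = δ := h3
            linarith
        · rw [if_neg h4, if_neg, smul_zero]
          intro h5
          apply h4
          rw [← h5]
          refine Prod.ext ?_ ?_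
          · show (m'.1 + i) - i = m'.1
            rw [add_sub_cancel_right]
          · show s - (s - δ) = m'.2
            rw [h3]
            ring
      rw [Finset.sum_congr rfl h2, Finset.sum_ite_eq]
      split_ifs with h6
      · rfl
      · exact Finsupp.notMem_support_iff.mp h6
    · intro z _
      constructor
      · intro h3
        rw [← h3, add_sub_cancel_right]
      · intro h3
        rw [h3, sub_add_cancel]
  · have h1 : gfX κ b (s - δ) i τ = 0 := by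
      unfold gfX
      rw [if_neg (fun h' => h (hc.mp h'))]
    rw [h1, mul_zero]
    refine (Finset.sum_eq_zero fun m _ => ?_).symm
    rw [Pi.smul_apply]
    unfold gfX
    rw [if_neg h, smul_zero]

theorem gf_negc {b : Fin n → ℤ} {s : ℤ} {δ : ℕ} (hA : ∀ l, b l + (s - δ) < 0 ↔ b l + s < 0) :
    negc b (s - δ) = negc b s := by
  unfold negc
  congr 1
  ext l
  rw [Finset.mem_filter, Finset.mem_filter, hA l]

theorem gf_key {f : Pz κ n} {δ : ℕ} (hf : f.IsHomogeneous δ) {α : Fin n → ℤ}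
    (hα0 : (tL κ n f).coeff (α, (δ : ℤ)) ≠ 0)
    (hαm : ∀ m, (tL κ n f).coeff m ≠ 0 → toLex m.1 ≤ toLex α) (b : Fin n → ℤ) (s : ℤ)
    (hA : ∀ l, b l + (s - δ) < 0 ↔ b l + s < 0) {i : Fin n → ℤ}
    (hi' : i - α ∈ hS b (s - δ)) :
    gfX κ b s i ∈ ((grz κ (negc b s) ⊓ FB κ (Ideal.span {f}) b s) ⊔
      (grz κ ((negc b s : ℤ) - 1) ⊓ FB κ ⊤ b s).map (dz κ)) ⊔
      Submodule.span κ (gfX κ b s '' {m | m ∈ hS b s ∧ toLex m < toLex i}) := by
  classical
  set U := ((grz κ (negc b s) ⊓ FB κ (Ideal.span {f}) b s) ⊔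
      (grz κ ((negc b s : ℤ) - 1) ⊓ FB κ ⊤ b s).map (dz κ)) ⊔
      Submodule.span κ (gfX κ b s '' {m | m ∈ hS b s ∧ toLex m < toLex i}) with hU
  have hy : (fun τ => tL κ n f * gfX κ b (s - δ) (i - α) τ : Xz κ n) ∈ U := by
    refine Submodule.mem_sup_left (Submodule.mem_sup_left ⟨?_, ?_⟩)
    · intro τ hτ
      have h1 := gfX_grz κ b (s - δ) (i - α) τ (by rw [gf_negc hA]; exact hτ)
      show tL κ n f * gfX κ b (s - δ) (i - α) τ = 0
      rw [h1, mul_zero]
    · intro τ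
      have h1 := (GE.mem_FB_top κ).mp (gfX_FB κ b (s - δ) (i - α) (gf_hS_hi hi')) τ
      exact Submodule.subset_span ⟨δ, f, _, Ideal.subset_span rfl, hf, h1, rfl⟩
  rw [gfX_mul κ (GE.Hb_tL κ hf) b s hA] at hy
  rw [← Finset.add_sum_erase _ _ (Finsupp.mem_support_iff.mpr hα0)] at hy
  have hai : α + (i - α) = i := add_sub_cancel α i
  have hrest : ∑ m ∈ (tL κ n f).coeff.support.erase (α, (δ : ℤ)),
      (tL κ n f).coeff m • gfX κ b s (m.1 + (i - α)) ∈ U := by
    refine Submodule.sum_mem _ fun m hm => Submodule.smul_mem _ _ ?_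
    obtain ⟨hm1, hm2⟩ := Finset.mem_erase.mp hm
    have hm3 := Finsupp.mem_support_iff.mp hm2
    obtain ⟨hm4, hm5⟩ := GE.Hb_tL κ hf m hm3
    have hm6 : m.1 ≠ α := fun h => hm1 (Prod.ext h hm4)
    have hm7 : toLex m.1 < toLex α := lt_of_le_of_ne (hαm m hm3) (fun h => hm6 (toLex.injective h))
    by_cases hS : m.1 + (i - α) ∈ hS b s
    · refine Submodule.mem_sup_right (Submodule.subset_span ⟨_, ⟨hS, ?_⟩, rfl⟩)
      have h1 : toLex m.1 + toLex (i - α) < toLex α + toLex (i - α) := by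
        exact add_lt_add_left hm7 _
      have h2 : toLex (m.1 + (i - α)) < toLex (α + (i - α)) := h1
      rwa [hai] at h2
    · refine Submodule.mem_sup_left (Submodule.mem_sup_right (gfX_bd κ b s _ ?_ hS))
      intro l hl
      have h1 := gf_hS_hi hi' l (fun h => hl ((hA l).mp h))
      have h2 := hm5 l
      show 0 ≤ m.1 l + (i - α) l ∧ m.1 l + (i - α) l ≤ b l + s
      constructor
      · linarith [h1.1, h2.1]
      · linarith [h1.2, h2.2]
  have h3 : (tL κ n f).coeff (α, (δ : ℤ)) • gfX κ b s i ∈ U := by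
    have h4 := Submodule.sub_mem _ hy hrest
    rw [add_sub_cancel_right] at h4
    have h5 : gfX κ b s ((α, (δ : ℤ)).1 + (i - α)) = gfX κ b s i := by
      rw [hai]
    rwa [h5] at h4
  exact (Submodule.smul_mem_iff _ hα0).mp h3

theorem gf_Hzf {f : Pz κ n} {δ : ℕ} (hf : f.IsHomogeneous δ) (hf0 : f ≠ 0) (b : Fin n → ℤ)
    (s j : ℤ) : Hz κ ⊥ (Ideal.span {f}) b s j = Hz κ ⊥ ⊤ b (s - δ) j := by
  have h1 := Hz_colon_pf κ (GA1_HI_bot κ (n := n)) hf b s j
  have h2 : Ic κ (⊥ : Ideal (Pz κ n)) f = ⊥ := by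
    rw [eq_bot_iff]
    intro g hg
    have h3 : f * g ∈ (⊥ : Ideal (Pz κ n)) := hg
    rw [Ideal.mem_bot] at h3 ⊢
    exact (mul_eq_zero.mp h3).resolve_left hf0
  rw [h2, bot_sup_eq] at h1
  exact h1

/-- cokernel bound -/
theorem gf_coker {f : Pz κ n} {δ : ℕ} (hf : f.IsHomogeneous δ) (hf0 : f ≠ 0) {α : Fin n → ℤ}
    (hα0 : (tL κ n f).coeff (α, (δ : ℤ)) ≠ 0)
    (hαm : ∀ m, (tL κ n f).coeff m ≠ 0 → toLex m.1 ≤ toLex α) (b : Fin n → ℤ) (s : ℤ)
    (hA : ∀ l, b l + (s - δ) < 0 ↔ b l + s < 0) [DecidablePred fun i => i - α ∉ hS b (s - δ)] :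
    Hz κ (Ideal.span {f}) ⊤ b s (negc b s) ≤
      (((hS b s).filter (fun i => i - α ∉ hS b (s - δ))).card : ℕ∞) := by
  classical
  have hsp := gf_span κ ((grz κ (negc b s) ⊓ FB κ (Ideal.span {f}) b s) ⊔
    (grz κ ((negc b s : ℤ) - 1) ⊓ FB κ ⊤ b s).map (dz κ)) (hS b s)
    ((hS b s).filter (fun i => i - α ∉ hS b (s - δ))) toLex (gfX κ b s) (by
      intro i hi hib
      refine gf_key κ hf hα0 hαm b s hA ?_
      by_contra h
      exact hib (Finset.mem_filter.mpr ⟨hi, h⟩))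
  unfold Hz
  refine gf_len κ _ _ _ (gfX κ b s) ?_
  rintro x ⟨⟨hx1, hx2⟩, hx3⟩
  have h0 : Hz κ ⊥ (Ideal.span {f}) b s ((negc b s : ℤ) + 1) = 0 := by
    rw [gf_Hzf κ hf hf0]
    refine GE.Hz_top_zero_aux κ b (s - δ) _ ?_
    rw [gf_negc hA]
    exact Int.ne_of_gt (lt_add_one _)
  unfold Hz at h0
  have h1 : dz κ x ∈ grz κ ((negc b s : ℤ) + 1) ⊓ FB κ (Ideal.span {f}) b s ⊓
      (FB κ ⊥ b s).comap (dz κ) := by
    refine ⟨⟨dz_grz' κ _ hx1, hx3⟩, ?_⟩
    show dz κ (dz κ x) ∈ FB κ ⊥ b s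
    rw [dz_dz']
    exact Submodule.zero_mem _
  have h2 := HC.ql_eq_zero.mp h0 h1
  rw [GE.FB_bot, inf_bot_eq, bot_sup_eq, add_sub_cancel_right] at h2
  obtain ⟨w, hw, hwx⟩ := h2
  have hwT : w ∈ FB κ ⊤ b s := by
    rw [GE.mem_FB_top]
    intro τ
    exact GE.IB_le_Bs κ _ b τ s (hw.2 τ)
  have hz : x - w ∈ grz κ (negc b s) ⊓ FB κ ⊤ b s ⊓ LinearMap.ker (dz κ) := by
    refine ⟨⟨Submodule.sub_mem _ hx1 hw.1, Submodule.sub_mem _ hx2 hwT⟩, ?_⟩
    show dz κ (x - w) = 0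
    rw [map_sub, hwx, sub_self]
  have h4 := gf_cocycle κ b s hz
  have h5 : x - w ∈ ((grz κ (negc b s) ⊓ FB κ (Ideal.span {f}) b s) ⊔
      (grz κ ((negc b s : ℤ) - 1) ⊓ FB κ ⊤ b s).map (dz κ)) ⊔
      Submodule.span κ (gfX κ b s '' (((hS b s).filter (fun i => i - α ∉ hS b (s - δ)) :
        Finset (Fin n → ℤ)) : Set (Fin n → ℤ))) := by
    have hle : Submodule.span κ (gfX κ b s '' (hS b s : Set (Fin n → ℤ))) ≤
        ((grz κ (negc b s) ⊓ FB κ (Ideal.span {f}) b s) ⊔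
          (grz κ ((negc b s : ℤ) - 1) ⊓ FB κ ⊤ b s).map (dz κ)) ⊔
        Submodule.span κ (gfX κ b s '' (((hS b s).filter (fun i => i - α ∉ hS b (s - δ)) :
          Finset (Fin n → ℤ)) : Set (Fin n → ℤ))) := by
      rw [Submodule.span_le]
      rintro _ ⟨i, hi, rfl⟩
      exact hsp i hi
    exact (sup_le (le_sup_right.trans le_sup_left) hle) h4
  have h6 : x = (x - w) + w := (sub_add_cancel x w).symm
  rw [h6]
  exact Submodule.add_mem _ h5 (Submodule.mem_sup_left (Submodule.mem_sup_left hw))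

end GFX

section GFcount

variable {n : ℕ}

theorem gf_prod_le (x : Fin n → ℕ) (l0 : Fin n) {δ M : ℕ} (h0 : x l0 ≤ δ) (hx : ∀ l, x l ≤ M) :
    ∏ l, x l ≤ δ * M ^ (n - 1) := by
  classical
  rw [← Finset.mul_prod_erase Finset.univ x (Finset.mem_univ l0)]
  refine Nat.mul_le_mul h0 ?_
  refine (Finset.prod_le_pow_card _ _ M fun l _ => hx l).trans (le_of_eq ?_)
  rw [Finset.card_erase_of_mem (Finset.mem_univ _), Finset.card_univ, Fintype.card_fin]

theorem gf_prod_diff (x y : Fin n → ℕ) {δ M : ℕ} (h : ∀ l, x l ≤ y l + δ) (hx : ∀ l, x l ≤ M)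
    (hy : ∀ l, y l ≤ M) (S : Finset (Fin n)) :
    ∏ l ∈ S, x l ≤ ∏ l ∈ S, y l + S.card * (δ * M ^ (S.card - 1)) := by
  classical
  induction S using Finset.induction_on with
  | empty => simp
  | insert a S ha ih =>
    rw [Finset.prod_insert ha, Finset.prod_insert ha, Finset.card_insert_of_notMem ha,
      Nat.add_sub_cancel]
    have h1 : ∏ l ∈ S, y l ≤ M ^ S.card := Finset.prod_le_pow_card _ _ M fun l _ => hy l
    have h2 : S.card * (δ * M ^ (S.card - 1)) * M ≤ S.card * (δ * M ^ S.card) := by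
      rcases Nat.eq_zero_or_pos S.card with h0 | h0
      · rw [h0]
        simp
      · refine le_of_eq ?_
        have h3 : M ^ S.card = M ^ (S.card - 1) * M := by
          rw [← pow_succ, Nat.sub_add_cancel h0]
        rw [h3]
        ring
    calc x a * ∏ l ∈ S, x l ≤ x a * (∏ l ∈ S, y l + S.card * (δ * M ^ (S.card - 1))) :=
          Nat.mul_le_mul_left _ ih
      _ = x a * ∏ l ∈ S, y l + x a * (S.card * (δ * M ^ (S.card - 1))) := by ring
      _ ≤ (y a + δ) * ∏ l ∈ S, y l + M * (S.card * (δ * M ^ (S.card - 1))) :=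
          add_le_add (Nat.mul_le_mul_right _ (h a)) (Nat.mul_le_mul_right _ (hx a))
      _ ≤ y a * ∏ l ∈ S, y l + (S.card + 1) * (δ * M ^ S.card) := by
          nlinarith [Nat.mul_le_mul_left δ h1]

theorem gf_card_slice (t : Fin n → Finset ℤ) (l : Fin n) (T : Finset ℤ) {N : ℕ}
    (hN : ∀ m, (t m).card ≤ N) :
    ((Fintype.piFinset t).filter (fun i => i l ∈ T)).card ≤ T.card * N ^ (n - 1) := by
  classical
  have h1 : (Fintype.piFinset t).filter (fun i => i l ∈ T) ⊆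
      Fintype.piFinset (Function.update t l T) := by
    intro i hi
    obtain ⟨h2, h3⟩ := Finset.mem_filter.mp hi
    rw [Fintype.mem_piFinset] at h2 ⊢
    intro m
    by_cases hm : m = l
    · rw [hm, Function.update_self]
      exact h3
    · rw [Function.update_of_ne hm]
      exact h2 m
  refine (Finset.card_le_card h1).trans ?_
  rw [Fintype.card_piFinset]
  rw [← Finset.mul_prod_erase Finset.univ _ (Finset.mem_univ l), Function.update_self]
  refine Nat.mul_le_mul le_rfl ?_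
  have h2 : ∏ m ∈ Finset.univ.erase l, (Function.update t l T m).card =
      ∏ m ∈ Finset.univ.erase l, (t m).card := by
    refine Finset.prod_congr rfl fun m hm => ?_
    rw [Function.update_of_ne (Finset.ne_of_mem_erase hm)]
  rw [h2]
  refine (Finset.prod_le_pow_card _ _ N fun m _ => hN m).trans (le_of_eq ?_)
  rw [Finset.card_erase_of_mem (Finset.mem_univ _), Finset.card_univ, Fintype.card_fin]

theorem gf_le_Nz (b : Fin n → ℤ) (s : ℤ) (l : Fin n) : (b l + s).natAbs + 1 ≤ Nz b s := by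
  unfold Nz
  have h1 := Finset.single_le_sum (f := fun l => (b l + s).natAbs) (fun _ _ => Nat.zero_le _)
    (Finset.mem_univ l)
  have h2 : (b l + s).natAbs ≤ ∑ l, (b l + s).natAbs := h1
  omega

theorem gf_fac (b : Fin n → ℤ) (s : ℤ) (l : Fin n) : (b l + s + 1).natAbs ≤ Nz b s :=
  le_trans (by omega) (gf_le_Nz b s l)

theorem gf_fac' (b : Fin n → ℤ) (s : ℤ) (δ : ℕ) (l : Fin n) :
    (b l + (s - δ) + 1).natAbs ≤ (δ + 1) * Nz b s := by
  have h1 := gf_le_Nz b s l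
  have h2 : (b l + (s - δ) + 1).natAbs ≤ (b l + s).natAbs + 1 + δ := by omega
  have h3 : 1 ≤ Nz b s := by omega
  nlinarith

theorem gf_card (b : Fin n → ℤ) (s : ℤ) {δ : ℕ} {α : Fin n → ℤ}
    (hα : ∀ l, 0 ≤ α l ∧ α l ≤ (δ : ℤ)) (hA : ∀ l, b l + (s - δ) < 0 ↔ b l + s < 0)
    [DecidablePred fun i => i - α ∉ hS b (s - δ)] :
    ((hS b s).filter (fun i => i - α ∉ hS b (s - δ))).card ≤ n * (2 * δ * Nz b s ^ (n - 1)) := by
  classical
  let T : Fin n → Finset ℤ := fun l =>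
    if b l + s < 0 then ∅ else Finset.Ico 0 (δ : ℤ) ∪ Finset.Ioc (b l + s - δ) (b l + s)
  have hT : ∀ l, (T l).card ≤ 2 * δ := by
    intro l
    show (if b l + s < 0 then (∅ : Finset ℤ) else
      Finset.Ico 0 (δ : ℤ) ∪ Finset.Ioc (b l + s - δ) (b l + s)).card ≤ 2 * δ
    split_ifs with h
    · simp
    · refine (Finset.card_union_le _ _).trans ?_
      rw [Int.card_Ico, Int.card_Ioc]
      omega
  have hsub : (hS b s).filter (fun i => i - α ∉ hS b (s - δ)) ⊆
      Finset.univ.biUnion (fun l => (hS b s).filter (fun i => i l ∈ T l)) := by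
    intro i hi
    obtain ⟨h1, h2⟩ := Finset.mem_filter.mp hi
    rw [Finset.mem_biUnion]
    by_contra hcon
    push Not at hcon
    apply h2
    rw [mem_hS] at h1 ⊢
    refine ⟨fun l hl => ?_, fun l hl => ?_⟩
    · have h3 := h1.1 l ((hA l).mp hl)
      have h4 := hα l
      show b l + (s - δ) < i l - α l ∧ i l - α l < 0
      constructor
      · linarith [h3.1, h4.2]
      · linarith [h3.2, h4.1]
    · have hl' : ¬ b l + s < 0 := fun h => hl ((hA l).mpr h)
      have h3 := h1.2 l hl'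
      have h4 := hα l
      have h5 : i l ∉ T l := fun h => hcon l (Finset.mem_univ l)
        (Finset.mem_filter.mpr ⟨mem_hS.mpr h1, h⟩)
      have h6 : T l = Finset.Ico 0 (δ : ℤ) ∪ Finset.Ioc (b l + s - δ) (b l + s) := if_neg hl'
      rw [h6, Finset.mem_union, Finset.mem_Ico, Finset.mem_Ioc] at h5
      push Not at h5
      show 0 ≤ i l - α l ∧ i l - α l ≤ b l + (s - δ)
      have h7 := h5.1 h3.1
      constructor
      · linarith [h4.2]
      · by_contra h8
        have h9 : b l + s - δ < i l := by linarith [h4.1, not_le.mp h8]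
        exact absurd (h5.2 h9) (not_lt.mpr h3.2)
  refine (Finset.card_le_card hsub).trans (Finset.card_biUnion_le.trans ?_)
  have h1 : ∀ l ∈ (Finset.univ : Finset (Fin n)),
      ((hS b s).filter (fun i => i l ∈ T l)).card ≤ 2 * δ * Nz b s ^ (n - 1) := by
    intro l _
    refine (gf_card_slice (fun l => if b l + s < 0 then Finset.Ioo (b l + s) 0 else
      Finset.Icc 0 (b l + s)) l (T l) (N := Nz b s) ?_).trans (Nat.mul_le_mul_right _ (hT l))
    intro m
    have h2 := gf_fac b s m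
    split_ifs with hl
    · rw [Int.card_Ioo]
      omega
    · rw [Int.card_Icc]
      omega
  refine (Finset.sum_le_sum h1).trans (le_of_eq ?_)
  rw [Finset.sum_const, Finset.card_univ, Fintype.card_fin, smul_eq_mul]

end GFcount

section GFmain

variable {n : ℕ} (κ : Type u) [Field κ]

theorem gf_Hz_le (b : Fin n → ℤ) (s j : ℤ) :
    Hz κ ⊥ ⊤ b s j ≤ ((∏ l, (b l + s + 1).natAbs : ℕ) : ℕ∞) := by
  by_cases hj : j = negc b s
  · rw [hj, Hz_top_eq']
  · rw [Hz_top_zero' κ b s j hj]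
    exact zero_le

/-- crude bound -/
theorem gf_crude {f : Pz κ n} {δ : ℕ} (hf : f.IsHomogeneous δ) (hf0 : f ≠ 0) (b : Fin n → ℤ)
    (s j : ℤ) : Hz κ (Ideal.span {f}) ⊤ b s j ≤ Hz κ ⊥ ⊤ b s j + Hz κ ⊥ ⊤ b (s - δ) (j + 1) := by
  refine (Hz_BC' κ bot_le le_top b s j).trans (le_of_eq ?_)
  rw [gf_Hzf κ hf hf0]

theorem gf_fin {f : Pz κ n} {δ : ℕ} (hf : f.IsHomogeneous δ) (hf0 : f ≠ 0) (b : Fin n → ℤ)
    (s j : ℤ) : Hz κ (Ideal.span {f}) ⊤ b s j ≠ ⊤ := by
  refine ne_top_of_le_ne_top ?_ ((gf_crude κ hf hf0 b s j).trans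
    (add_le_add (gf_Hz_le κ b s j) (gf_Hz_le κ b (s - δ) (j + 1))))
  exact_mod_cast ENat.natCast_ne_top _

theorem gf_case1 {f : Pz κ n} {δ : ℕ} (hf : f.IsHomogeneous δ) (hf0 : f ≠ 0) (b : Fin n → ℤ)
    (s j : ℤ) {l0 : Fin n} (h1 : b l0 + (s - δ) < 0) (h2 : ¬ b l0 + s < 0) :
    Hz κ (Ideal.span {f}) ⊤ b s j ≤
      ((δ * Nz b s ^ (n - 1) + δ * ((δ + 1) * Nz b s) ^ (n - 1) : ℕ) : ℕ∞) := by
  refine ((gf_crude κ hf hf0 b s j).trans
    (add_le_add (gf_Hz_le κ b s j) (gf_Hz_le κ b (s - δ) (j + 1)))).trans ?_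
  rw [← Nat.cast_add]
  refine Nat.cast_le.mpr (add_le_add ?_ ?_)
  · exact gf_prod_le _ l0 (by omega) (fun l => gf_fac b s l)
  · exact gf_prod_le _ l0 (by omega) (fun l => gf_fac' b s δ l)

/-- Euler characteristic -/
theorem gf_euler {f : Pz κ n} {δ : ℕ} (hf : f.IsHomogeneous δ) (hf0 : f ≠ 0) (b : Fin n → ℤ)
    (s : ℤ) : ∏ l, (b l + s + 1) = ∏ l, (b l + (s - δ) + 1) + chz κ (Ideal.span {f}) ⊤ b s := by
  have h1 : chz κ ⊥ (Ideal.span {f}) b s = chz κ ⊥ ⊤ b (s - δ) := by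
    unfold chz
    refine Finset.sum_congr rfl fun j _ => ?_
    rw [gf_Hzf κ hf hf0]
  have h2 := chz_add' κ (I := ⊥) (J := Ideal.span {f}) (K := ⊤) bot_le le_top b s (by
    intro j
    rw [gf_Hzf κ hf hf0]
    exact ne_top_of_le_ne_top (ENat.natCast_ne_top _) (gf_Hz_le κ b (s - δ) j))
    (fun j => gf_fin κ hf hf0 b s j)
  rw [h1, chz_top', chz_top'] at h2
  exact h2

/-- same sign pattern: only two degrees -/
theorem gf_zero {f : Pz κ n} {δ : ℕ} (hf : f.IsHomogeneous δ) (hf0 : f ≠ 0) (b : Fin n → ℤ)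
    (s j : ℤ) (hA : ∀ l, b l + (s - δ) < 0 ↔ b l + s < 0) (h1 : j ≠ negc b s)
    (h2 : j + 1 ≠ negc b s) : Hz κ (Ideal.span {f}) ⊤ b s j = 0 := by
  have h3 := gf_crude κ hf hf0 b s j
  rw [Hz_top_zero' κ b s j h1, Hz_top_zero' κ b (s - δ) (j + 1) (by rw [gf_negc hA]; exact h2),
    add_zero] at h3
  exact le_antisymm h3 zero_le

theorem gf_coker' {f : Pz κ n} {δ : ℕ} (hf : f.IsHomogeneous δ) (hf0 : f ≠ 0) (b : Fin n → ℤ)
    (s : ℤ) (hA : ∀ l, b l + (s - δ) < 0 ↔ b l + s < 0) :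
    Hz κ (Ideal.span {f}) ⊤ b s (negc b s) ≤ ((n * (2 * δ * Nz b s ^ (n - 1)) : ℕ) : ℕ∞) := by
  classical
  obtain ⟨α, hα, hα0, hαm⟩ := gf_lead κ hf hf0
  exact (gf_coker κ hf hf0 hα0 hαm b s hA).trans (Nat.cast_le.mpr (gf_card b s hα hA))

theorem gf_ker {f : Pz κ n} {δ : ℕ} (hf : f.IsHomogeneous δ) (hf0 : f ≠ 0) (b : Fin n → ℤ)
    (s : ℤ) (hA : ∀ l, b l + (s - δ) < 0 ↔ b l + s < 0) (ha : 1 ≤ negc b s) :
    Hz κ (Ideal.span {f}) ⊤ b s ((negc b s : ℤ) - 1) ≤
      ((n * (2 * δ * Nz b s ^ (n - 1)) + n * (δ * ((δ + 1) * Nz b s) ^ (n - 1)) : ℕ) : ℕ∞) := by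
  classical
  have h1 := gf_euler κ hf hf0 b s
  rw [prod_eq, prod_eq, gf_negc hA] at h1
  have hna := negc_le b s
  have h2 : chz κ (Ideal.span {f}) ⊤ b s =
      (-1 : ℤ) ^ negc b s * ((Hz κ (Ideal.span {f}) ⊤ b s (negc b s)).toNat : ℤ) -
      (-1 : ℤ) ^ negc b s * ((Hz κ (Ideal.span {f}) ⊤ b s ((negc b s : ℤ) - 1)).toNat : ℤ) := by
    unfold chz
    rw [Finset.sum_eq_add_of_mem (negc b s - 1) (negc b s) (Finset.mem_range.mpr (by omega))
      (Finset.mem_range.mpr (by omega)) (by omega)]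
    · have h3 : ((negc b s - 1 : ℕ) : ℤ) = (negc b s : ℤ) - 1 := by
        rw [Nat.cast_sub ha, Nat.cast_one]
      have h4 : (-1 : ℤ) ^ negc b s = (-1) ^ (negc b s - 1) * (-1) := by
        rw [← pow_succ, Nat.sub_add_cancel ha]
      rw [h3, h4]
      ring
    · intro j _ hj
      rw [gf_zero κ hf hf0 b s j hA (by
        intro h
        exact hj.2 (by exact_mod_cast h)) (by
        intro h
        apply hj.1
        omega)]
      simp
  rw [h2] at h1
  have h5 : ((-1 : ℤ) ^ negc b s) * ((-1 : ℤ) ^ negc b s) = 1 := by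
    rw [← mul_pow]
    norm_num
  have h6 : ((∏ l, (b l + s + 1).natAbs : ℕ) : ℤ) =
      ((∏ l, (b l + (s - δ) + 1).natAbs : ℕ) : ℤ) +
      ((Hz κ (Ideal.span {f}) ⊤ b s (negc b s)).toNat : ℤ) -
      ((Hz κ (Ideal.span {f}) ⊤ b s ((negc b s : ℤ) - 1)).toNat : ℤ) := by
    have h7 := congrArg (fun z => (-1 : ℤ) ^ negc b s * z) h1
    simp only [mul_add, mul_sub, ← mul_assoc, h5, one_mul] at h7
    linarith
  have h8 : ∏ l, (b l + (s - δ) + 1).natAbs ≤ ∏ l, (b l + s + 1).natAbs +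
      n * (δ * ((δ + 1) * Nz b s) ^ (n - 1)) := by
    have h9 := gf_prod_diff (fun l => (b l + (s - δ) + 1).natAbs) (fun l => (b l + s + 1).natAbs)
      (δ := δ) (M := (δ + 1) * Nz b s) (fun l => by omega) (fun l => gf_fac' b s δ l)
      (fun l => (gf_fac b s l).trans (Nat.le_mul_of_pos_left _ (Nat.succ_pos δ))) Finset.univ
    rwa [Finset.card_univ, Fintype.card_fin] at h9
  have h10 := HC.toNat_le (gf_coker' κ hf hf0 b s hA) (ENat.natCast_ne_top _)
  rw [ENat.toNat_natCast] at h10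
  rw [← ENat.natCast_toNat (gf_fin κ hf hf0 b s ((negc b s : ℤ) - 1))]
  refine Nat.cast_le.mpr ?_
  omega

theorem form_bound_pf (hn : 1 ≤ n) {f : Pz κ n} {δ : ℕ} (hf : f.IsHomogeneous δ) (hf0 : f ≠ 0) :
    ∃ C : ℕ, ∀ (b : Fin n → ℤ) (s j : ℤ),
      Hz κ (Ideal.span {f}) ⊤ b s j ≤ ((C * Nz b s ^ (n - 1) : ℕ) : ℕ∞) := by
  refine ⟨(δ + δ * (δ + 1) ^ (n - 1)) + (n * (2 * δ) + n * (δ * (δ + 1) ^ (n - 1))),
    fun b s j => ?_⟩
  have hC1 : δ * Nz b s ^ (n - 1) + δ * ((δ + 1) * Nz b s) ^ (n - 1) =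
      (δ + δ * (δ + 1) ^ (n - 1)) * Nz b s ^ (n - 1) := by
    rw [mul_pow]
    ring
  have hC2 : n * (2 * δ * Nz b s ^ (n - 1)) + n * (δ * ((δ + 1) * Nz b s) ^ (n - 1)) =
      (n * (2 * δ) + n * (δ * (δ + 1) ^ (n - 1))) * Nz b s ^ (n - 1) := by
    rw [mul_pow]
    ring
  by_cases hA : ∀ l, b l + (s - δ) < 0 ↔ b l + s < 0
  · rw [add_mul, ← hC2]
    by_cases h1 : j = negc b s
    · rw [h1]
      refine (gf_coker' κ hf hf0 b s hA).trans (Nat.cast_le.mpr ?_)
      omega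
    · by_cases h2 : j + 1 = negc b s
      · by_cases h3 : 1 ≤ negc b s
        · have h4 : j = (negc b s : ℤ) - 1 := by omega
          rw [h4]
          refine (gf_ker κ hf hf0 b s hA h3).trans (Nat.cast_le.mpr ?_)
          omega
        · rw [Hz_out' κ _ _ b s j (Or.inl (by omega))]
          exact zero_le
      · rw [gf_zero κ hf hf0 b s j hA h1 h2]
        exact zero_le
  · push Not at hA
    obtain ⟨l0, hl0⟩ := hA
    rw [add_mul, ← hC1]
    have h1 : b l0 + (s - δ) < 0 ∧ ¬ b l0 + s < 0 := by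
      rcases hl0 with ⟨h1, h2⟩ | ⟨h1, h2⟩
      · exact ⟨h1, not_lt.mpr h2⟩
      · exfalso
        omega
    refine (gf_case1 κ hf hf0 b s j h1.1 h1.2).trans (Nat.cast_le.mpr ?_)
    omega

end GFmain

end Vale.Agent.P202G
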