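import Vale.Agent.P202G.GD
import Vale.Agent.P202G.GA2
import Vale.Agent.P202G.GF

/-!
P202 stage 2, module GG (helper28): bound of the cohomology for nonzero ideals.
-/

set_option autoImplicit false

namespace Vale.Agent.P202G

open IsLocalRing TensorProduct Vale.Agent.P202C MvPolynomial

universe u v w

section GG

variable {n : ℕ} (κ : Type u) [Field κ]

theorem GG_Nz (b : Fin n → ℤ) (s : ℤ) (c : ℕ) : Nz b (s - c) ≤ (1 + n * c) * Nz b s := by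
  unfold Nz
  have h1 : ∀ l : Fin n, (b l + (s - c)).natAbs ≤ (b l + s).natAbs + c := by
    intro l
    omega
  have h2 : ∑ l, (b l + (s - c)).natAbs ≤ ∑ l, (b l + s).natAbs + n * c := by
    refine (Finset.sum_le_sum fun l _ => h1 l).trans (le_of_eq ?_)
    rw [Finset.sum_add_distrib]
    simp
  nlinarith [Nat.zero_le (n * c * ∑ l, (b l + s).natAbs)]

theorem GG_step (f : Pz κ n) {m : ℤ} {C0 : ℕ}
    (hf : HI κ (Ideal.span {f}))
    (hC0 : ∀ (b : Fin n → ℤ) (s j : ℤ),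
      Hz κ (Ideal.span {f}) ⊤ b s j ≤ ((C0 * Nz b s ^ (n - 1) : ℕ) : ℕ∞))
    (hP : ∀ I : Ideal (Pz κ n), HI κ I → Ideal.span {f} ≤ I → ∃ C : ℕ, ∀ (b : Fin n → ℤ) (s j : ℤ),
      m + 1 ≤ j → Hz κ I ⊤ b s j ≤ ((C * Nz b s ^ (n - 1) : ℕ) : ℕ∞))
    {I : Ideal (Pz κ n)} (hI : HI κ I) (hfI : Ideal.span {f} ≤ I) :
    ∃ C : ℕ, ∀ (b : Fin n → ℤ) (s j : ℤ), m ≤ j →
      Hz κ I ⊤ b s j ≤ ((C * Nz b s ^ (n - 1) : ℕ) : ℕ∞) := by
  obtain ⟨r, L, c, hL, hfL, hch⟩ := Hz_chain_pf κ hf hI hfI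
  choose C hC using fun i => hP (L i) (hL i) (hfL i)
  refine ⟨C0 + ∑ i, C i * (1 + n * c i) ^ (n - 1), fun b s j hj => ?_⟩
  refine (Hz_BC' κ hfI le_top b s j).trans ?_
  rw [add_mul]
  push_cast
  refine add_le_add (by exact_mod_cast hC0 b s j) ?_
  refine (hch b s (j + 1)).trans ?_
  rw [Finset.sum_mul]
  refine Finset.sum_le_sum fun i _ => (hC i b (s - c i) (j + 1) (by omega)).trans ?_
  have h1 : C i * Nz b (s - c i) ^ (n - 1) ≤ C i * (1 + n * c i) ^ (n - 1) * Nz b s ^ (n - 1) := by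
    rw [mul_assoc, ← mul_pow]
    exact Nat.mul_le_mul_left _ (Nat.pow_le_pow_left (GG_Nz b s (c i)) _)
  exact_mod_cast h1

theorem ideal_bound_pf (hn : 1 ≤ n) {I : Ideal (Pz κ n)} (hI : HI κ I) (hI0 : I ≠ ⊥) :
    ∃ C : ℕ, ∀ (b : Fin n → ℤ) (s j : ℤ),
      Hz κ I ⊤ b s j ≤ ((C * Nz b s ^ (n - 1) : ℕ) : ℕ∞) := by
  classical
  obtain ⟨f0, hf0, hf0'⟩ := Submodule.exists_mem_ne_zero_of_ne_bot hI0
  have h1 : ∃ δ : ℕ, homogeneousComponent δ f0 ≠ 0 := by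
    by_contra h
    push Not at h
    refine hf0' ?_
    rw [← sum_homogeneousComponent f0]
    exact Finset.sum_eq_zero fun i _ => h i
  obtain ⟨δ, hδ⟩ := h1
  set f := homogeneousComponent δ f0 with hfdef
  have hfh : f.IsHomogeneous δ := homogeneousComponent_isHomogeneous δ f0
  obtain ⟨C0, hC0⟩ := form_bound_pf κ hn hfh hδ
  have hfI : Ideal.span {f} ≤ I := (Ideal.span_singleton_le_iff_mem _).2 (hI f0 hf0 δ)
  have key : ∀ d : ℕ, ∀ I : Ideal (Pz κ n), HI κ I → Ideal.span {f} ≤ I →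
      ∃ C : ℕ, ∀ (b : Fin n → ℤ) (s j : ℤ), (n : ℤ) + 1 - d ≤ j →
        Hz κ I ⊤ b s j ≤ ((C * Nz b s ^ (n - 1) : ℕ) : ℕ∞) := by
    intro d
    induction d with
    | zero =>
      intro I _ _
      refine ⟨0, fun b s j hj => ?_⟩
      rw [Hz_out' κ I ⊤ b s j (Or.inr (by push_cast at hj; omega))]
      exact zero_le
    | succ d ih =>
      intro I hI hfI
      refine GG_step κ f (m := (n : ℤ) + 1 - ((d + 1 : ℕ) : ℤ)) (GA1_HI_span κ hfh) hC0 ?_ hI hfI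
      intro I' hI' hfI'
      obtain ⟨C, hC⟩ := ih I' hI' hfI'
      refine ⟨C, fun b s j hj => hC b s j ?_⟩
      push_cast at hj
      omega
  obtain ⟨C, hC⟩ := key (n + 1) I hI hfI
  refine ⟨C, fun b s j => ?_⟩
  by_cases hj : 0 ≤ j
  · refine hC b s j ?_
    push_cast
    omega
  · rw [Hz_out' κ I ⊤ b s j (Or.inl (not_le.mp hj))]
    exact zero_le

end GG

end Vale.Agent.P202G
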