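import Vale.Agent.P202G.G0

/-!
# P202, stage 2: the image of an ideal over the residue field (helper40)
-/

set_option autoImplicit false

namespace Vale.Agent.P202G

open IsLocalRing TensorProduct Vale.Agent.P202C

universe u v w

variable (R : Type u) [CommRing R] [IsLocalRing R] {n : ℕ}

/-- image of an ideal over the residue field -/
noncomputable def resI (I : Ideal (Pz R n)) : Ideal (Pz (ResidueField R) n) :=
  I.map (MvPolynomial.map (residue R))

end Vale.Agent.P202G
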