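import Vale.Agent.P202G.G0
import Vale.Agent.P202G.GResI
import Vale.Agent.P202.Def
import Vale.Agent.P202G.GA1
import Vale.Agent.P202G.GA2

/-!
P202 stage 2, module GI: passage to the residue field (helper12)
-/

set_option autoImplicit false

namespace Vale.Agent.P202G

open IsLocalRing TensorProduct Vale.Agent.P202C Vale.Agent.P202

universe u v w

section Len

variable {R : Type u} [CommRing R] {K : Type v} [CommRing K] (π : R →+* K)
  {M : Type*} [AddCommGroup M] [Module R M] {M' : Type*} [AddCommGroup M'] [Module K M']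

theorem GI_length_eq (hπ : Function.Surjective π) (f : M →ₛₗ[π] M') (hf : Function.Bijective f) :
    Module.length R M = Module.length K M' := by
  have : RingHomSurjective π := ⟨hπ⟩
  rw [Module.length, Module.length, WithBot.unbot_inj,
    Order.krullDim_eq_of_orderIso (Submodule.orderIsoMapComapOfBijective f hf)]

theorem GI_rlen_eq (hπ : Function.Surjective π) (f : M →ₛₗ[π] M') (N P : Submodule R M)
    (N' P' : Submodule K M') (h1 : ∀ x ∈ P, f x ∈ P') (h2 : ∀ y ∈ P', ∃ x ∈ P, f x = y)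
    (h3 : ∀ x ∈ P, x ∈ N ↔ f x ∈ N') : rlen N P = rlen N' P' := by
  have : RingHomSurjective π := ⟨hπ⟩
  unfold rlen
  let g : ↥P →ₛₗ[π] ↥P' :=
    { toFun := fun x => ⟨f x, h1 x x.2⟩
      map_add' := fun x y => Subtype.ext (f.map_add _ _)
      map_smul' := fun a x => Subtype.ext (f.map_smulₛₗ _ _) }
  have hle : N.submoduleOf P ≤ (N'.submoduleOf P').comap g := by
    intro x hx
    exact (h3 x x.2).1 hx
  refine GI_length_eq π hπ ((N.submoduleOf P).mapQ (N'.submoduleOf P') g hle) ⟨?_, ?_⟩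
  · rw [injective_iff_map_eq_zero]
    intro q hq
    obtain ⟨x, rfl⟩ := Submodule.Quotient.mk_surjective _ q
    rw [Submodule.mapQ_apply, Submodule.Quotient.mk_eq_zero] at hq
    rw [Submodule.Quotient.mk_eq_zero]
    exact (h3 x x.2).2 hq
  · intro q
    obtain ⟨⟨y, hy⟩, rfl⟩ := Submodule.Quotient.mk_surjective _ q
    obtain ⟨x, hx, hxy⟩ := h2 y hy
    refine ⟨Submodule.Quotient.mk ⟨x, hx⟩, ?_⟩
    rw [Submodule.mapQ_apply]
    congr 1
    exact Subtype.ext hxy

end Len

section GI

variable (R : Type u) [CommRing R] [IsLocalRing R] {n : ℕ}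

/-- reduction of Laurent polynomials -/
noncomputable def GI_red : Lz R n →+* Lz (ResidueField R) n :=
  AddMonoidAlgebra.mapRingHom ((Fin n → ℤ) × ℤ) (residue R)

theorem GI_red_coeff (x : Lz R n) (m : (Fin n → ℤ) × ℤ) :
    (GI_red R x).coeff m = residue R (x.coeff m) :=
  AddMonoidAlgebra.coeff_mapRingHom _ _ _

theorem GI_map_surj : Function.Surjective
    (MvPolynomial.map (residue R) : Pz R n →+* Pz (ResidueField R) n) :=
  MvPolynomial.map_surjective _ residue_surjective

theorem GI_mem_resI {I : Ideal (Pz R n)} {f : Pz (ResidueField R) n} :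
    f ∈ resI R I ↔ ∃ g ∈ I, MvPolynomial.map (residue R) g = f :=
  Ideal.mem_map_iff_of_surjective _ (GI_map_surj R)

theorem GI_comp (j : ℕ) (g : Pz R n) :
    MvPolynomial.homogeneousComponent j (MvPolynomial.map (residue R) g) =
      MvPolynomial.map (residue R) (MvPolynomial.homogeneousComponent j g) := by
  ext d
  rw [MvPolynomial.coeff_map, MvPolynomial.coeff_homogeneousComponent,
    MvPolynomial.coeff_homogeneousComponent, MvPolynomial.coeff_map]
  split_ifs
  · rfl
  · rw [map_zero]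

theorem HI_resI_pf {I : Ideal (Pz R n)} (hI : HI R I) : HI (ResidueField R) (resI R I) := by
  intro f hf j
  obtain ⟨g, hg, rfl⟩ := (GI_mem_resI R).1 hf
  exact (GI_mem_resI R).2 ⟨_, hI g hg j, (GI_comp R j g).symm⟩

/-- lift of a homogeneous element of `resI` -/
theorem GI_lift_hom {I : Ideal (Pz R n)} (hI : HI R I) {f : Pz (ResidueField R) n} {j : ℕ}
    (hf : f ∈ resI R I) (hj : f.IsHomogeneous j) :
    ∃ g ∈ I, g.IsHomogeneous j ∧ MvPolynomial.map (residue R) g = f := by
  obtain ⟨g, hg, rfl⟩ := (GI_mem_resI R).1 hf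
  refine ⟨MvPolynomial.homogeneousComponent j g, hI g hg j,
    MvPolynomial.homogeneousComponent_isHomogeneous _ _, ?_⟩
  rw [← GI_comp, MvPolynomial.homogeneousComponent_of_mem hj, if_pos rfl]

theorem GI_tL (f : Pz R n) :
    GI_red R (tL R n f) = tL (ResidueField R) n (MvPolynomial.map (residue R) f) := by
  have h : (GI_red R).comp (tL R n).toRingHom =
      (tL (ResidueField R) n).toRingHom.comp (MvPolynomial.map (residue R)) := by
    apply MvPolynomial.ringHom_ext
    · intro r
      show GI_red R (tL R n (MvPolynomial.C r)) = tL (ResidueField R) n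
        (MvPolynomial.map (residue R) (MvPolynomial.C r))
      rw [MvPolynomial.map_C]
      unfold tL
      rw [MvPolynomial.aeval_C, MvPolynomial.aeval_C]
      simp [GI_red]
    · intro j
      show GI_red R (tL R n (MvPolynomial.X j)) = tL (ResidueField R) n
        (MvPolynomial.map (residue R) (MvPolynomial.X j))
      rw [MvPolynomial.map_X]
      unfold tL
      rw [MvPolynomial.aeval_X, MvPolynomial.aeval_X]
      unfold eE GI_red
      rw [map_sum]
      refine Finset.sum_congr rfl fun E _ => ?_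
      rw [AddMonoidAlgebra.mapRingHom_single, map_one]
  exact RingHom.congr_fun h f

/-- a set theoretic section of the residue map with value `0` at `0` -/
noncomputable def GI_sec (a : ResidueField R) : R := by
  classical
  exact if a = 0 then 0 else Function.surjInv (residue_surjective (R := R)) a

theorem GI_sec_zero : GI_sec R 0 = 0 := by
  unfold GI_sec
  rw [if_pos rfl]

theorem GI_sec_spec (a : ResidueField R) : residue R (GI_sec R a) = a := by
  unfold GI_sec
  split_ifs with h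
  · rw [map_zero, h]
  · exact Function.surjInv_eq _ _

theorem GI_Bs_red {b : Fin n → ℤ} {τ : Fin n → Fin 3} {s : ℤ} {x : Lz R n}
    (hx : x ∈ Bs R b τ s) : GI_red R x ∈ Bs (ResidueField R) b τ s := by
  intro m hm
  refine hx m fun h => hm ?_
  rw [GI_red_coeff, h, map_zero]

theorem GI_Bs_lift {b : Fin n → ℤ} {τ : Fin n → Fin 3} {s : ℤ} {y : Lz (ResidueField R) n}
    (hy : y ∈ Bs (ResidueField R) b τ s) : ∃ x ∈ Bs R b τ s, GI_red R x = y := by
  refine ⟨AddMonoidAlgebra.ofCoeff (Finsupp.mapRange (GI_sec R) (GI_sec_zero R) y.coeff), ?_, ?_⟩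
  · intro m hm
    refine hy m fun h => hm ?_
    rw [AddMonoidAlgebra.coeff_ofCoeff, Finsupp.mapRange_apply, h, GI_sec_zero]
  · apply AddMonoidAlgebra.coeff_injective
    ext m
    rw [GI_red_coeff, AddMonoidAlgebra.coeff_ofCoeff, Finsupp.mapRange_apply, GI_sec_spec]

theorem GI_expand (x : Lz R n) :
    x = ∑ m ∈ x.coeff.support, AddMonoidAlgebra.single m (x.coeff m) := by
  apply AddMonoidAlgebra.coeff_injective
  rw [AddMonoidAlgebra.coeff_sum]
  exact (Finsupp.sum_single x.coeff).symm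

/-- the image of `IB` -/
theorem GI_IB_red {I : Ideal (Pz R n)} {b : Fin n → ℤ} {τ : Fin n → Fin 3} {s : ℤ} {x : Lz R n}
    (hx : x ∈ IB R I b τ s) : GI_red R x ∈ IB (ResidueField R) (resI R I) b τ s := by
  unfold IB at hx
  refine Submodule.span_induction ?_ ?_ ?_ ?_ hx
  · rintro _ ⟨j, f, β, hf, hj, hβ, rfl⟩
    refine Submodule.subset_span ⟨j, MvPolynomial.map (residue R) f, GI_red R β,
      (GI_mem_resI R).2 ⟨f, hf, rfl⟩, hj.map _, GI_Bs_red R hβ, ?_⟩
    rw [map_mul, GI_tL]
  · rw [map_zero]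
    exact Submodule.zero_mem _
  · intro x y _ _ hx hy
    rw [map_add]
    exact Submodule.add_mem _ hx hy
  · intro r x _ hx
    have : GI_red R (r • x) = residue R r • GI_red R x := by
      apply AddMonoidAlgebra.coeff_injective
      ext m
      rw [GI_red_coeff, AddMonoidAlgebra.coeff_smul, AddMonoidAlgebra.coeff_smul,
        Finsupp.smul_apply, Finsupp.smul_apply, GI_red_coeff, smul_eq_mul, smul_eq_mul, map_mul]
    rw [this]
    exact Submodule.smul_mem _ _ hx

theorem GI_red_smul (r : R) (x : Lz R n) : GI_red R (r • x) = residue R r • GI_red R x := by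
  apply AddMonoidAlgebra.coeff_injective
  ext m
  rw [GI_red_coeff, AddMonoidAlgebra.coeff_smul, AddMonoidAlgebra.coeff_smul,
    Finsupp.smul_apply, Finsupp.smul_apply, GI_red_coeff, smul_eq_mul, smul_eq_mul, map_mul]

theorem GI_IB_lift {I : Ideal (Pz R n)} (hI : HI R I) {b : Fin n → ℤ} {τ : Fin n → Fin 3} {s : ℤ}
    {y : Lz (ResidueField R) n} (hy : y ∈ IB (ResidueField R) (resI R I) b τ s) :
    ∃ x ∈ IB R I b τ s, GI_red R x = y := by
  unfold IB at hy
  refine Submodule.span_induction ?_ ?_ ?_ ?_ hy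
  · rintro _ ⟨j, f, β, hf, hj, hβ, rfl⟩
    obtain ⟨g, hg, hgj, rfl⟩ := GI_lift_hom R hI hf hj
    obtain ⟨γ, hγ, rfl⟩ := GI_Bs_lift R hβ
    exact ⟨tL R n g * γ, Submodule.subset_span ⟨j, g, γ, hg, hgj, hγ, rfl⟩, by
      rw [map_mul, GI_tL]⟩
  · exact ⟨0, Submodule.zero_mem _, map_zero _⟩
  · rintro x y _ _ ⟨x', hx', rfl⟩ ⟨y', hy', rfl⟩
    exact ⟨x' + y', Submodule.add_mem _ hx' hy', map_add _ _ _⟩
  · rintro r x _ ⟨x', hx', rfl⟩
    refine ⟨GI_sec R r • x', Submodule.smul_mem _ _ hx', ?_⟩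
    rw [GI_red_smul, GI_sec_spec]

/-- an element of the block which reduces to `0` is in `IB` -/
theorem GI_ker {I : Ideal (Pz R n)} (hm : ∀ r ∈ maximalIdeal R, MvPolynomial.C r ∈ I)
    {b : Fin n → ℤ} {τ : Fin n → Fin 3} {s : ℤ} {x : Lz R n} (hx : x ∈ Bs R b τ s)
    (h0 : GI_red R x = 0) : x ∈ IB R I b τ s := by
  rw [GI_expand R x]
  refine Submodule.sum_mem _ fun m hmm => ?_
  have h1 : x.coeff m ≠ 0 := Finsupp.mem_support_iff.1 hmm
  have h2 : x.coeff m ∈ maximalIdeal R := by
    rw [← residue_eq_zero_iff, ← GI_red_coeff, h0]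
    rfl
  refine Submodule.subset_span ⟨0, MvPolynomial.C (x.coeff m),
    AddMonoidAlgebra.single m (1 : R), hm _ h2, MvPolynomial.isHomogeneous_C _ _, ?_, ?_⟩
  · intro m' hm'
    rw [AddMonoidAlgebra.coeff_single, Finsupp.single_apply] at hm'
    have h3 : m = m' := by
      by_contra h
      rw [if_neg h] at hm'
      exact hm' rfl
    subst h3
    have h4 := hx m h1
    simpa using h4
  · unfold tL
    rw [MvPolynomial.aeval_C]
    apply AddMonoidAlgebra.coeff_injective
    ext m'
    rw [← Algebra.smul_def, AddMonoidAlgebra.coeff_smul, Finsupp.smul_apply,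
      AddMonoidAlgebra.coeff_single, AddMonoidAlgebra.coeff_single, Finsupp.single_apply,
      Finsupp.single_apply]
    split_ifs
    · rw [smul_eq_mul, mul_one]
    · rw [smul_zero]

theorem GI_key {I : Ideal (Pz R n)} (hI : HI R I)
    (hm : ∀ r ∈ maximalIdeal R, MvPolynomial.C r ∈ I)
    {b : Fin n → ℤ} {τ : Fin n → Fin 3} {s : ℤ} {x : Lz R n} (hx : x ∈ IB R ⊤ b τ s)
    (h : GI_red R x ∈ IB (ResidueField R) (resI R I) b τ s) : x ∈ IB R I b τ s := by
  obtain ⟨x', hx', h'⟩ := GI_IB_lift R hI h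
  have h1 : x - x' ∈ Bs R b τ s := by
    rw [← IB_top_pf]
    exact Submodule.sub_mem _ hx (IB_mono_pf R le_top b τ s hx')
  have h2 := GI_ker R hm h1 (by rw [map_sub, h', sub_self])
  have h3 : x = (x - x') + x' := by abel
  rw [h3]
  exact Submodule.add_mem _ h2 hx'

theorem GI_top : resI R (⊤ : Ideal (Pz R n)) = ⊤ := Ideal.map_top _

theorem GI_HI_top : HI R (⊤ : Ideal (Pz R n)) := fun _ _ _ => trivial

/-- reduction on the total space -/
noncomputable def GI_X : Xz R n →ₛₗ[residue R] Xz (ResidueField R) n where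
  toFun x := fun τ => GI_red R (x τ)
  map_add' := fun x y => by
    funext τ
    rw [Pi.add_apply, map_add]
    rfl
  map_smul' := fun r x => by
    funext τ
    rw [Pi.smul_apply, GI_red_smul]
    rfl

theorem GI_X_apply (x : Xz R n) (τ : Fin n → Fin 3) : GI_X R x τ = GI_red R (x τ) := rfl

theorem GI_X_dz (x : Xz R n) : GI_X R (dz R x) = dz (ResidueField R) (GI_X R x) := by
  funext τ
  rw [GI_X_apply]
  show GI_red R (∑ l ∈ Finset.univ.filter (fun l => τ l = 2),
    csg τ l • (x (Function.update τ l 0) - x (Function.update τ l 1))) = _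
  rw [map_sum]
  refine Finset.sum_congr rfl fun l _ => ?_
  rw [map_zsmul, map_sub]
  rfl

theorem GI_X_grz {j : ℤ} {x : Xz R n} (hx : x ∈ grz R j) :
    GI_X R x ∈ grz (ResidueField R) j := by
  intro τ h
  rw [GI_X_apply, hx τ h, map_zero]

theorem GI_X_FB {I : Ideal (Pz R n)} {b : Fin n → ℤ} {s : ℤ} {x : Xz R n} (hx : x ∈ FB R I b s) :
    GI_X R x ∈ FB (ResidueField R) (resI R I) b s := fun τ => GI_IB_red R (hx τ)

theorem GI_X_lift {I : Ideal (Pz R n)} (hI : HI R I) {b : Fin n → ℤ} {s j : ℤ}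
    {y : Xz (ResidueField R) n} (hy : y ∈ grz (ResidueField R) j)
    (hy2 : y ∈ FB (ResidueField R) (resI R I) b s) :
    ∃ x ∈ grz R j ⊓ FB R I b s, GI_X R x = y := by
  classical
  choose f hf1 hf2 using fun τ => GI_IB_lift R hI (hy2 τ)
  refine ⟨fun τ => if (num2 τ : ℤ) = j then f τ else 0, ⟨?_, ?_⟩, ?_⟩
  · intro τ h
    show (if (num2 τ : ℤ) = j then f τ else 0) = 0
    rw [if_neg h]
  · intro τ
    show (if (num2 τ : ℤ) = j then f τ else 0) ∈ _
    split_ifs
    · exact hf1 τ
    · exact Submodule.zero_mem _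
  · funext τ
    rw [GI_X_apply]
    show GI_red R (if (num2 τ : ℤ) = j then f τ else 0) = y τ
    split_ifs with h
    · exact hf2 τ
    · rw [map_zero, hy τ h]

theorem Hz_resI_pf {I : Ideal (Pz R n)} (hI : HI R I)
    (hm : ∀ r ∈ maximalIdeal R, MvPolynomial.C r ∈ I) (b : Fin n → ℤ) (s j : ℤ) :
    Hz R I ⊤ b s j = Hz (ResidueField R) (resI R I) ⊤ b s j := by
  unfold Hz
  refine GI_rlen_eq (residue R) residue_surjective (GI_X R) _ _ _ _ ?_ ?_ ?_
  · rintro x ⟨⟨h1, h2⟩, h3⟩
    refine ⟨⟨GI_X_grz R h1, ?_⟩, ?_⟩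
    · have := GI_X_FB R h2
      rw [GI_top] at this
      exact this
    · show dz (ResidueField R) (GI_X R x) ∈ FB (ResidueField R) (resI R I) b s
      rw [← GI_X_dz]
      exact GI_X_FB R h3
  · rintro y ⟨⟨h1, h2⟩, h3⟩
    have h2' : y ∈ FB (ResidueField R) (resI R (⊤ : Ideal (Pz R n))) b s := by
      rw [GI_top]
      exact h2
    obtain ⟨x, ⟨hx1, hx2⟩, hxy⟩ := GI_X_lift R (GI_HI_top R) h1 h2'
    refine ⟨x, ⟨⟨hx1, hx2⟩, ?_⟩, hxy⟩
    intro τ
    refine GI_key R hI hm (dz_FB' R ⊤ b s hx2 τ) ?_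
    rw [← GI_X_apply, GI_X_dz, hxy]
    exact h3 τ
  · rintro x ⟨⟨h1, h2⟩, h3⟩
    constructor
    · intro hx
      obtain ⟨a, ⟨ha1, ha2⟩, c, ⟨w, ⟨hw1, hw2⟩, rfl⟩, rfl⟩ := Submodule.mem_sup.1 hx
      rw [map_add, GI_X_dz]
      refine Submodule.add_mem_sup ⟨GI_X_grz R ha1, GI_X_FB R ha2⟩
        ⟨GI_X R w, ⟨GI_X_grz R hw1, ?_⟩, rfl⟩
      have := GI_X_FB R hw2
      rw [GI_top] at this
      exact this
    · intro hx
      obtain ⟨a, ⟨ha1, ha2⟩, c, ⟨w, ⟨hw1, hw2⟩, rfl⟩, hac⟩ := Submodule.mem_sup.1 hx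
      have hw2' : w ∈ FB (ResidueField R) (resI R (⊤ : Ideal (Pz R n))) b s := by
        rw [GI_top]
        exact hw2
      obtain ⟨w', ⟨hw3, hw4⟩, hww⟩ := GI_X_lift R (GI_HI_top R) hw1 hw2'
      have e1 : x = (x - dz R w') + dz R w' := by abel
      rw [e1]
      refine Submodule.add_mem_sup ⟨?_, ?_⟩ ⟨w', ⟨hw3, hw4⟩, rfl⟩
      · refine Submodule.sub_mem _ h1 ?_
        have := dz_grz' R (j - 1) hw3
        rw [sub_add_cancel] at this
        exact this
      · intro τ
        refine GI_key R hI hm (Submodule.sub_mem _ (h2 τ) (dz_FB' R ⊤ b s hw4 τ)) ?_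
        have e2 : GI_X R (x - dz R w') = a := by
          rw [map_sub, GI_X_dz, hww, ← hac]
          abel
        have e3 : GI_red R ((x - dz R w') τ) = a τ := by
          rw [← e2]
          rfl
        rw [e3]
        exact ha2 τ

/-- reduction of polynomials as a semilinear map -/
noncomputable def GI_P : Pz R n →ₛₗ[residue R] Pz (ResidueField R) n where
  toFun x := MvPolynomial.map (residue R) x
  map_add' := fun x y => map_add _ _ _
  map_smul' := fun r x => by
    rw [MvPolynomial.smul_eq_C_mul, map_mul, MvPolynomial.map_C, MvPolynomial.smul_eq_C_mul]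

theorem hf_resI_pf {I : Ideal (Pz R n)} (hI : HI R I)
    (hm : ∀ r ∈ maximalIdeal R, MvPolynomial.C r ∈ I) (t : ℕ) :
    hf R I t = hf (ResidueField R) (resI R I) t := by
  unfold hf
  refine GI_rlen_eq (residue R) residue_surjective (GI_P R) _ _ _ _ ?_ ?_ ?_
  · intro x hx
    exact MvPolynomial.IsHomogeneous.map hx _
  · intro y hy
    obtain ⟨g, hg⟩ := GI_map_surj R y
    refine ⟨MvPolynomial.homogeneousComponent t g,
      MvPolynomial.homogeneousComponent_isHomogeneous _ _, ?_⟩
    show MvPolynomial.map (residue R) _ = y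
    rw [← GI_comp, hg, MvPolynomial.homogeneousComponent_of_mem hy, if_pos rfl]
  · intro x hx
    constructor
    · intro h
      exact (GI_mem_resI R).2 ⟨x, h, rfl⟩
    · intro h
      obtain ⟨g, hg, hgx⟩ := (GI_mem_resI R).1 h
      have h1 : x - g ∈ I := by
        rw [← MvPolynomial.support_sum_monomial_coeff (x - g)]
        refine I.sum_mem fun d _ => ?_
        rw [← MvPolynomial.C_mul_monomial.trans (by rw [mul_one] :
          MvPolynomial.monomial d ((x - g).coeff d * 1) = MvPolynomial.monomial d _)]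
        refine I.mul_mem_right _ (hm _ ?_)
        rw [← residue_eq_zero_iff, ← MvPolynomial.coeff_map, map_sub]
        show MvPolynomial.coeff d (GI_P R x - MvPolynomial.map (residue R) g) = 0
        rw [hgx, sub_self, MvPolynomial.coeff_zero]
      have h2 : x = (x - g) + g := by ring
      show x ∈ I
      rw [h2]
      exact I.add_mem h1 hg

end GI

end Vale.Agent.P202G
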