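import Vale.Agent.P202G.G0
import Vale.Agent.P202C.BC

/-!
# P202, stage 2: GJ1 (homogeneity of the Rees ideals, degree `t` part of `gr`)
-/

set_option autoImplicit false

namespace Vale.Agent.P202G

open IsLocalRing TensorProduct Vale.Agent.P202C

universe u v w

section GJ1
variable {k : Type u} [CommRing k] {σ : Type v}

attribute [local instance] MvPolynomial.gradedAlgebra

theorem GJ1_hc_mul {a : MvPolynomial σ k} {i : ℕ} (ha : a.IsHomogeneous i) (x : MvPolynomial σ k)
    (j : ℕ) : MvPolynomial.homogeneousComponent j (a * x)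
      = if i ≤ j then a * MvPolynomial.homogeneousComponent (j - i) x else 0 := by
  have h1 := DirectSum.coe_decompose_mul_of_left_mem
    (𝒜 := MvPolynomial.homogeneousSubmodule σ k) (a := a) (b := x) (i := i) j ha
  have h2 : ∀ (φ : MvPolynomial σ k) (m : ℕ),
      (DirectSum.decompose (MvPolynomial.homogeneousSubmodule σ k) φ m : MvPolynomial σ k)
        = MvPolynomial.homogeneousComponent m φ :=
    fun φ m => MvPolynomial.decomposition.decompose'_apply φ m
  rw [h2, h2] at h1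
  exact h1

theorem GJ1_span_hom (S : Set (MvPolynomial σ k)) (hS : ∀ x ∈ S, ∃ i, x.IsHomogeneous i)
    {f : MvPolynomial σ k} (hf : f ∈ Ideal.span S) (j : ℕ) :
    MvPolynomial.homogeneousComponent j f ∈ Ideal.span S := by
  have h1 := Ideal.homogeneous_span (MvPolynomial.homogeneousSubmodule σ k) S (fun x hx => by
    obtain ⟨i, hi⟩ := hS x hx
    exact ⟨i, hi⟩)
  exact MvPolynomial.homogeneousComponent_mem_of_mem h1 hf j

end GJ1

variable (𝔽 : Type w) [Field 𝔽] {n : ℕ} (R : Type u) [CommRing R] [Algebra (PolyA 𝔽 n) R]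

theorem HI_Irs' : HI R (Irs 𝔽 R (n := n)) := by
  intro f hf j
  exact GJ1_span_hom _ (fun x hx => ⟨hx.choose, hx.choose_spec.1⟩) hf j

theorem HI_Igr' : HI R (Igr 𝔽 R (n := n)) := by
  intro f hf j
  exact GJ1_span_hom _ (fun x hx => ⟨hx.choose, hx.choose_spec.1⟩) hf j

theorem GJ1_pow (t : ℕ) : yI 𝔽 n R ^ t = Submodule.map (evY 𝔽 R (n := n)).toLinearMap
    (MvPolynomial.homogeneousSubmodule (Fin (n + 1)) R t) :=
  Ideal.span_pow_eq_map_homogeneousSubmodule (fun j : Fin (n + 1) => yR 𝔽 R j) t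

theorem GJ1_ev_mem {f : Pz R n} {t : ℕ} (hf : f.IsHomogeneous t) : evY 𝔽 R f ∈ yI 𝔽 n R ^ t := by
  rw [GJ1_pow]
  exact ⟨f, hf, rfl⟩

theorem GJ1_comp {f : Pz R n} (hf : f ∈ Igr 𝔽 R (n := n)) :
    ∀ j : ℕ, evY 𝔽 R (MvPolynomial.homogeneousComponent j f) ∈ yI 𝔽 n R ^ (j + 1) := by
  refine Submodule.span_induction
    (p := fun f _ => ∀ j : ℕ, evY 𝔽 R (MvPolynomial.homogeneousComponent j f) ∈ yI 𝔽 n R ^ (j + 1))
    ?_ ?_ ?_ ?_ hf
  · rintro x ⟨i, hx, hev⟩ j
    rw [MvPolynomial.homogeneousComponent_of_mem hx]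
    split
    · rename_i h
      rw [h]
      exact hev
    · rw [map_zero]
      exact Ideal.zero_mem _
  · intro j
    rw [map_zero, map_zero]
    exact Ideal.zero_mem _
  · intro x y _ _ hx hy j
    rw [map_add, map_add]
    exact Ideal.add_mem _ (hx j) (hy j)
  · intro a x _ hx j
    rw [smul_eq_mul]
    have h1 : a * x = ∑ i ∈ Finset.range (a.totalDegree + 1),
        MvPolynomial.homogeneousComponent i a * x := by
      rw [← Finset.sum_mul, MvPolynomial.sum_homogeneousComponent]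
    rw [h1, map_sum, map_sum]
    refine Ideal.sum_mem _ fun i _ => ?_
    rw [GJ1_hc_mul (MvPolynomial.homogeneousComponent_isHomogeneous i a)]
    split
    · rename_i h
      rw [map_mul]
      have e1 : j + 1 = i + (j - i + 1) := by omega
      rw [e1, pow_add]
      exact Ideal.mul_mem_mul (GJ1_ev_mem 𝔽 R
        (MvPolynomial.homogeneousComponent_isHomogeneous i a)) (hx (j - i))
    · rw [map_zero]
      exact Ideal.zero_mem _

theorem GJ1_iff {f : Pz R n} {t : ℕ} (hf : f.IsHomogeneous t) :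
    f ∈ Igr 𝔽 R (n := n) ↔ evY 𝔽 R f ∈ yI 𝔽 n R ^ (t + 1) := by
  constructor
  · intro h
    have h1 := GJ1_comp 𝔽 R h t
    rw [MvPolynomial.homogeneousComponent_of_mem hf, if_pos rfl] at h1
    exact h1
  · intro h
    exact Ideal.subset_span ⟨t, hf, h⟩

/-- degree `t` part of `gr` -/
theorem hf_link' (t : ℕ) :
    hf R (Igr 𝔽 R (n := n)) t = rlen (yI 𝔽 n R ^ (t + 1)) (yI 𝔽 n R ^ t) := by
  let g : ↥(MvPolynomial.homogeneousSubmodule (Fin (n + 1)) R t) →ₗ[R] R :=
    (evY 𝔽 R (n := n)).toLinearMap ∘ₗ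
      (MvPolynomial.homogeneousSubmodule (Fin (n + 1)) R t).subtype
  have hg : LinearMap.range g = yI 𝔽 n R ^ t := by
    rw [GJ1_pow, LinearMap.range_comp, Submodule.range_subtype]
  rw [rlen_of_range g (yI 𝔽 n R ^ (t + 1)) (yI 𝔽 n R ^ t) hg]
  unfold hf rlen
  have he : ((Igr 𝔽 R (n := n)).restrictScalars R).submoduleOf
      (MvPolynomial.homogeneousSubmodule (Fin (n + 1)) R t)
      = Submodule.comap g (yI 𝔽 n R ^ (t + 1)) := by
    ext f
    rw [Submodule.mem_comap]
    exact GJ1_iff 𝔽 R f.2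
  rw [he]

end Vale.Agent.P202G
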