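import Vale.Agent.P202G.G0
import Vale.Agent.P202C.Acyc
import Vale.Agent.P202C.Free

/-!
# P202, stage 2, module GJ2 (link with `CR`), part a: one block (helper40)
-/

set_option autoImplicit false

namespace Vale.Agent.P202G

open IsLocalRing TensorProduct Vale.Agent.P202C

universe u v w

section GJ2a

variable (𝔽 : Type w) [Field 𝔽] {n : ℕ} (R : Type u) [CommRing R] [Algebra (PolyA 𝔽 n) R]

/-- the monomials in `R ⊗ Lau` -/
noncomputable def GJ2_mon : Multiplicative ((Fin n → ℤ) × ℤ) →* (R ⊗[PolyA 𝔽 n] Lau 𝔽 n) where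
  toFun m := (1 : R) ⊗ₜ[PolyA 𝔽 n] (AddMonoidAlgebra.single m.toAdd (1 : 𝔽) : Lau 𝔽 n)
  map_one' := rfl
  map_mul' := fun a b => by
    rw [Algebra.TensorProduct.tmul_mul_tmul, mul_one, AddMonoidAlgebra.single_mul_single, mul_one]
    rfl

/-- the map `Lz R → R ⊗ Lau` -/
noncomputable def pA : Lz R n →ₐ[R] (R ⊗[PolyA 𝔽 n] Lau 𝔽 n) :=
  AddMonoidAlgebra.lift R _ _ (GJ2_mon 𝔽 R)

theorem pA_single (m : (Fin n → ℤ) × ℤ) (r : R) :
    pA 𝔽 R (AddMonoidAlgebra.single m r) =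
      r ⊗ₜ[PolyA 𝔽 n] (AddMonoidAlgebra.single m (1 : 𝔽) : Lau 𝔽 n) := by
  unfold pA
  rw [AddMonoidAlgebra.lift_single]
  show r • ((1 : R) ⊗ₜ[PolyA 𝔽 n] (AddMonoidAlgebra.single m (1 : 𝔽) : Lau 𝔽 n)) = _
  rw [TensorProduct.smul_tmul', smul_eq_mul, mul_one]

theorem pA_eE (j : Fin (n + 1)) :
    pA 𝔽 R (eE R n j) = algebraMap R _ (yR 𝔽 R j) := by
  unfold eE
  rw [map_sum, Finset.sum_congr rfl fun E _ => pA_single 𝔽 R _ _, ← TensorProduct.tmul_sum]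
  have h1 : (∑ E ∈ (Finset.univ : Finset (Fin n)).powersetCard j.val,
      (AddMonoidAlgebra.single (indE E, (1 : ℤ)) (1 : 𝔽) : Lau 𝔽 n)) =
      (MvPolynomial.X j : PolyA 𝔽 n) • (1 : Lau 𝔽 n) := by
    rw [Algebra.smul_def, mul_one]
    show elemE 𝔽 n j = toLau 𝔽 n (MvPolynomial.X j)
    unfold toLau
    rw [MvPolynomial.aeval_X]
  rw [h1, ← TensorProduct.smul_tmul, Algebra.smul_def, mul_one]
  rfl

theorem pA_tL (f : Pz R n) : pA 𝔽 R (tL R n f) = algebraMap R _ (evY 𝔽 R f) := by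
  have h : (pA 𝔽 R).comp (tL R n) = (Algebra.ofId R _).comp (evY 𝔽 R) := by
    apply MvPolynomial.algHom_ext
    intro j
    rw [AlgHom.comp_apply, AlgHom.comp_apply]
    unfold tL evY
    rw [MvPolynomial.aeval_X, MvPolynomial.aeval_X, pA_eE]
    rfl
  exact DFunLike.congr_fun h f

theorem pA_tL_mul (f : Pz R n) (β : Lz R n) :
    pA 𝔽 R (tL R n f * β) = evY 𝔽 R f • pA 𝔽 R β := by
  rw [map_mul, pA_tL]
  exact (Algebra.smul_def _ _).symm

/-- the filtration of the block over `𝔽` -/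
def PhA (b : Fin n → ℤ) (τ : Fin n → Fin 3) (s : ℤ) : Submodule (PolyA 𝔽 n) (Lau 𝔽 n) where
  carrier := {f | inBlk 𝔽 b τ s f}
  zero_mem' := inBlk_zero 𝔽 b τ s
  add_mem' := fun hf hg => inBlk_add 𝔽 b τ s hf hg
  smul_mem' := fun a f hf => by
    have h := inBlk_mul 𝔽 0 b τ 0 s (inBlk_toLau 𝔽 τ a) hf
    rw [zero_add, zero_add] at h
    exact h

/-- the filtration of the block over `R` -/
noncomputable def PhR (b : Fin n → ℤ) (τ : Fin n → Fin 3) (s : ℤ) :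
    Submodule R (R ⊗[PolyA 𝔽 n] Lau 𝔽 n) := (PhA 𝔽 b τ s).baseChange R

theorem single_mem_Bs (k : Type u) [CommRing k] {b : Fin n → ℤ} {τ : Fin n → Fin 3} {s : ℤ}
    {m : (Fin n → ℤ) × ℤ} (h : alw b τ s m) (r : k) :
    (AddMonoidAlgebra.single m r : Lz k n) ∈ Bs k b τ s := by
  classical
  intro m' hm'
  rw [AddMonoidAlgebra.coeff_single, Finsupp.single_apply] at hm'
  by_cases h2 : m = m'
  · rwa [← h2]
  · rw [if_neg h2] at hm'
    exact absurd rfl hm'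

theorem eq_sum_single (k : Type u) [CommRing k] (β : Lz k n) :
    β = ∑ m ∈ β.coeff.support, (AddMonoidAlgebra.single m (β.coeff m) : Lz k n) := by
  classical
  apply AddMonoidAlgebra.coeff_injective
  ext m
  rw [AddMonoidAlgebra.coeff_sum, Finsupp.finsetSum_apply]
  simp only [AddMonoidAlgebra.coeff_single, Finsupp.single_apply]
  rw [Finset.sum_ite_eq' ]
  split_ifs with h
  · rfl
  · exact Finsupp.notMem_support_iff.mp h

/-- partition of unity of degree exactly `-1` -/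
theorem GJ2_pu (τ : Fin n → Fin 3) : ∃ c : Fin (n + 1) → Lau 𝔽 n,
    (∀ j m, (c j).coeff m ≠ 0 → alw 0 τ (-1) m) ∧ ∑ j, elemE 𝔽 n j * c j = 1 := by
  classical
  obtain ⟨c0, h⟩ := con_pu_lin 𝔽 n
  obtain ⟨c, hc1, hc2⟩ := h 1
  have hc3 := hc2 τ
  refine ⟨fun j => rsP 𝔽 (fun m => m.2 = -1) (c j τ), ?_, ?_⟩
  · intro j m hm
    obtain ⟨h1, h2⟩ := rsP_ne 𝔽 hm
    obtain ⟨-, h3, h4⟩ := hc1 j τ m h2
    refine ⟨h1, fun l hl => ?_, h4⟩
    have := h3 l hl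
    rw [h1] at this
    exact this
  · -- take the T-degree zero part
    have key : ∀ j, elemE 𝔽 n j * rsP 𝔽 (fun m => m.2 = -1) (c j τ) =
        rsP 𝔽 (fun m => m.2 = 0) (elemE 𝔽 n j * c j τ) := by
      intro j
      apply lau_ext
      intro m
      unfold elemE
      rw [Finset.sum_mul, Finset.sum_mul]
      by_cases hm : m.2 = 0
      · rw [rsP_coeff_pos 𝔽 _ hm, AddMonoidAlgebra.coeff_sum, AddMonoidAlgebra.coeff_sum,
          Finsupp.finsetSum_apply, Finsupp.finsetSum_apply]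
        refine Finset.sum_congr rfl fun E _ => ?_
        rw [AddMonoidAlgebra.coeff_single_mul_apply, AddMonoidAlgebra.coeff_single_mul_apply,
          rsP_coeff_pos]
        show -1 + m.2 = -1
        rw [hm, add_zero]
      · rw [rsP_coeff_neg 𝔽 _ hm, AddMonoidAlgebra.coeff_sum, Finsupp.finsetSum_apply]
        refine Finset.sum_eq_zero fun E _ => ?_
        rw [AddMonoidAlgebra.coeff_single_mul_apply, rsP_coeff_neg, mul_zero]
        show ¬ (-1 + m.2 = -1)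
        omega
    rw [Finset.sum_congr rfl fun j _ => key j, ← map_sum]
    have h5 : ∑ j, elemE 𝔽 n j * c j τ = 1 := by
      rw [← hc3]
      exact Finset.sum_congr rfl fun j _ => by rw [pow_one]
    rw [h5]
    apply lau_ext
    intro m
    by_cases hm : m.2 = 0
    · rw [rsP_coeff_pos 𝔽 _ hm]
    · rw [rsP_coeff_neg 𝔽 _ hm]
      symm
      show (AddMonoidAlgebra.single 0 (1 : 𝔽) : Lau 𝔽 n).coeff m = 0
      rw [AddMonoidAlgebra.coeff_single, Finsupp.single_apply, if_neg]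
      rintro rfl
      exact hm rfl

/-- elements over `𝔽` of T-degree exactly `s` in the block -/
def GJ2_H (b : Fin n → ℤ) (τ : Fin n → Fin 3) (s : ℤ) (f : Lau 𝔽 n) : Prop :=
  ∀ m, f.coeff m ≠ 0 → alw b τ s m

theorem GJ2_H_mul {b b' : Fin n → ℤ} {τ : Fin n → Fin 3} {s s' : ℤ} {f g : Lau 𝔽 n}
    (hf : GJ2_H 𝔽 b τ s f) (hg : GJ2_H 𝔽 b' τ s' g) : GJ2_H 𝔽 (b + b') τ (s + s') (f * g) := by
  classical
  intro m hm
  have h1 : m ∈ (f * g).coeff.support := Finsupp.mem_support_iff.mpr hm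
  obtain ⟨x, hx, y, hy, rfl⟩ := Finset.mem_add.mp (AddMonoidAlgebra.support_coeff_mul_subset f g h1)
  obtain ⟨a1, a2, a3⟩ := hf x (Finsupp.mem_support_iff.mp hx)
  obtain ⟨c1, c2, c3⟩ := hg y (Finsupp.mem_support_iff.mp hy)
  refine ⟨?_, fun l hl => ?_, fun l hl => ?_⟩
  · show x.2 + y.2 = s + s'
    rw [a1, c1]
  · show x.1 l + y.1 l ≤ (b l + b' l) + (s + s')
    have h2 := a2 l hl
    have h3 := c2 l hl
    linarith
  · show 0 ≤ x.1 l + y.1 l
    exact add_nonneg (a3 l hl) (c3 l hl)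

theorem one_tmul_eq (f : Lau 𝔽 n) : (1 : R) ⊗ₜ[PolyA 𝔽 n] f =
    ∑ m ∈ f.coeff.support, algebraMap (PolyA 𝔽 n) R (MvPolynomial.C (f.coeff m)) •
      pA 𝔽 R (AddMonoidAlgebra.single m (1 : R)) := by
  conv_lhs => rw [eq_sum_single 𝔽 f]
  rw [TensorProduct.tmul_sum]
  refine Finset.sum_congr rfl fun m _ => ?_
  rw [pA_single]
  have h1 : (AddMonoidAlgebra.single m (f.coeff m) : Lau 𝔽 n) =
      (MvPolynomial.C (f.coeff m) : PolyA 𝔽 n) • (AddMonoidAlgebra.single m 1 : Lau 𝔽 n) := by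
    rw [Algebra.smul_def]
    show _ = toLau 𝔽 n (MvPolynomial.C (f.coeff m)) * _
    rw [toLau_C, AddMonoidAlgebra.single_mul_single, zero_add, mul_one]
  rw [h1, ← TensorProduct.smul_tmul, Algebra.smul_def, mul_one, TensorProduct.smul_tmul',
    smul_eq_mul, mul_one]

theorem one_tmul_mem_H {b : Fin n → ℤ} {τ : Fin n → Fin 3} {s : ℤ} {f : Lau 𝔽 n}
    (hf : GJ2_H 𝔽 b τ s f) :
    (1 : R) ⊗ₜ[PolyA 𝔽 n] f ∈ (Bs R b τ s).map (pA 𝔽 R).toLinearMap := by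
  rw [one_tmul_eq]
  refine Submodule.sum_mem _ fun m hm => Submodule.smul_mem _ _ ?_
  exact Submodule.mem_map_of_mem (single_mem_Bs R (hf m (Finsupp.mem_support_iff.mp hm)) 1)

/-- generation: degree `s + d` elements are in the span of the degree `s` elements -/
theorem one_tmul_mem_d {b : Fin n → ℤ} {τ : Fin n → Fin 3} {s : ℤ} (d : ℕ) :
    ∀ {f : Lau 𝔽 n}, GJ2_H 𝔽 b τ (s + d) f →
      (1 : R) ⊗ₜ[PolyA 𝔽 n] f ∈ (Bs R b τ s).map (pA 𝔽 R).toLinearMap := by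
  induction d with
  | zero =>
    intro f hf
    rw [Nat.cast_zero, add_zero] at hf
    exact one_tmul_mem_H 𝔽 R hf
  | succ d ih =>
    intro f hf
    obtain ⟨c, hc1, hc2⟩ := GJ2_pu 𝔽 (n := n) τ
    have h1 : f = ∑ j, (MvPolynomial.X j : PolyA 𝔽 n) • (c j * f) := by
      have h2 : ∀ j, (MvPolynomial.X j : PolyA 𝔽 n) • (c j * f) = elemE 𝔽 n j * c j * f := by
        intro j
        rw [Algebra.smul_def, mul_assoc]
        show toLau 𝔽 n (MvPolynomial.X j) * _ = _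
        unfold toLau
        rw [MvPolynomial.aeval_X]
      rw [Finset.sum_congr rfl fun j _ => h2 j, ← Finset.sum_mul, hc2, one_mul]
    rw [h1, TensorProduct.tmul_sum]
    refine Submodule.sum_mem _ fun j _ => ?_
    rw [← TensorProduct.smul_tmul, Algebra.smul_def, mul_one]
    have h3 : (algebraMap (PolyA 𝔽 n) R (MvPolynomial.X j)) ⊗ₜ[PolyA 𝔽 n] (c j * f) =
        algebraMap (PolyA 𝔽 n) R (MvPolynomial.X j) • ((1 : R) ⊗ₜ[PolyA 𝔽 n] (c j * f)) := by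
      rw [TensorProduct.smul_tmul', smul_eq_mul, mul_one]
    rw [h3]
    refine Submodule.smul_mem _ _ (ih ?_)
    have h4 := GJ2_H_mul 𝔽 (b := 0) (s := -1) (hc1 j) hf
    have h5 : (-1 : ℤ) + (s + ((d + 1 : ℕ) : ℤ)) = s + d := by push_cast; ring
    rw [zero_add, h5] at h4
    exact h4

theorem one_tmul_mem_Ph {b : Fin n → ℤ} {τ : Fin n → Fin 3} {s : ℤ} {f : Lau 𝔽 n}
    (hf : inBlk 𝔽 b τ s f) :
    (1 : R) ⊗ₜ[PolyA 𝔽 n] f ∈ (Bs R b τ s).map (pA 𝔽 R).toLinearMap := by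
  rw [one_tmul_eq]
  refine Submodule.sum_mem _ fun m hm => Submodule.smul_mem _ _ ?_
  obtain ⟨h1, h2, h3⟩ := hf m (Finsupp.mem_support_iff.mp hm)
  obtain ⟨d, hd⟩ := Int.eq_ofNat_of_zero_le (sub_nonneg.mpr h1)
  rw [pA_single]
  refine one_tmul_mem_d 𝔽 R d ?_
  intro m' hm'
  classical
  rw [AddMonoidAlgebra.coeff_single, Finsupp.single_apply] at hm'
  by_cases h4 : m = m'
  · subst h4
    have h5 : m.2 = s + (d : ℤ) := by
      have : m.2 - s = (d : ℤ) := hd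
      linarith
    refine ⟨h5, fun l hl => ?_, h3⟩
    rw [← h5]
    exact h2 l hl
  · rw [if_neg h4] at hm'
    exact absurd rfl hm'

/-- **F_s is the image of the degree `s` part** -/
theorem PhR_eq (b : Fin n → ℤ) (τ : Fin n → Fin 3) (s : ℤ) :
    PhR 𝔽 R b τ s = (Bs R b τ s).map (pA 𝔽 R).toLinearMap := by
  apply le_antisymm
  · unfold PhR
    rw [Submodule.baseChange_eq_span, Submodule.span_le]
    rintro _ ⟨f, hf, rfl⟩
    exact one_tmul_mem_Ph 𝔽 R hf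
  · rintro _ ⟨β, hβ, rfl⟩
    rw [eq_sum_single R β, map_sum]
    refine Submodule.sum_mem _ fun m hm => ?_
    show pA 𝔽 R _ ∈ _
    rw [pA_single]
    refine Submodule.tmul_mem_baseChange_of_mem _ ?_
    obtain ⟨h1, h2, h3⟩ := hβ m (Finsupp.mem_support_iff.mp hm)
    refine inBlk_single 𝔽 ⟨h1.ge, fun l hl => ?_, h3⟩ 1
    rw [h1]
    exact h2 l hl

/-- multiplication by `y_j` raises the degree -/
theorem yR_smul_Bs {b : Fin n → ℤ} {τ : Fin n → Fin 3} {s : ℤ} (j : Fin (n + 1))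
    {x : R ⊗[PolyA 𝔽 n] Lau 𝔽 n} (hx : x ∈ PhR 𝔽 R b τ s) :
    yR 𝔽 R j • x ∈ PhR 𝔽 R b τ (s + 1) := by
  unfold PhR at hx ⊢
  rw [Submodule.baseChange_eq_span] at hx
  refine Submodule.span_induction ?_ ?_ ?_ ?_ hx
  · rintro _ ⟨f, hf, rfl⟩
    have h1 : yR 𝔽 R j • ((TensorProduct.mk (PolyA 𝔽 n) R (Lau 𝔽 n)) 1 f) =
        (1 : R) ⊗ₜ[PolyA 𝔽 n] ((MvPolynomial.X j : PolyA 𝔽 n) • f) := by
      rw [← TensorProduct.smul_tmul, Algebra.smul_def, mul_one]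
      show yR 𝔽 R j • ((1 : R) ⊗ₜ[PolyA 𝔽 n] f) = _
      rw [TensorProduct.smul_tmul', smul_eq_mul, mul_one]
      rfl
    rw [h1]
    refine Submodule.tmul_mem_baseChange_of_mem _ ?_
    have h2 := inBlk_mul 𝔽 0 b τ 1 s (inBlk_elemE 𝔽 τ j) hf
    rw [zero_add, add_comm 1 s] at h2
    have h3 : (MvPolynomial.X j : PolyA 𝔽 n) • f = elemE 𝔽 n j * f := by
      rw [Algebra.smul_def]
      show toLau 𝔽 n (MvPolynomial.X j) * _ = _
      unfold toLau
      rw [MvPolynomial.aeval_X]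
    rw [h3]
    exact h2
  · rw [smul_zero]; exact Submodule.zero_mem _
  · intro x y _ _ hx hy
    rw [smul_add]; exact Submodule.add_mem _ hx hy
  · intro r x _ hx
    rw [smul_comm]; exact Submodule.smul_mem _ _ hx

theorem yI_smul_Ph {b : Fin n → ℤ} {τ : Fin n → Fin 3} (a : ℕ) : ∀ {s : ℤ} {r : R}
    (_ : r ∈ yI 𝔽 n R ^ a) {x : R ⊗[PolyA 𝔽 n] Lau 𝔽 n} (_ : x ∈ PhR 𝔽 R b τ s),
    r • x ∈ PhR 𝔽 R b τ (s + a) := by
  induction a with
  | zero =>
    intro s r _ x hx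
    rw [Nat.cast_zero, add_zero]
    exact Submodule.smul_mem _ _ hx
  | succ a ih =>
    intro s r hr x hx
    rw [pow_succ] at hr
    refine Submodule.mul_induction_on hr ?_ ?_
    · intro u hu v hv
      rw [mul_smul]
      have h1 : v • x ∈ PhR 𝔽 R b τ (s + 1) := by
        unfold yI at hv
        refine Submodule.span_induction ?_ ?_ ?_ ?_ hv
        · rintro _ ⟨j, rfl⟩
          exact yR_smul_Bs 𝔽 R j hx
        · rw [zero_smul]; exact Submodule.zero_mem _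
        · intro p q _ _ hp hq
          rw [add_smul]; exact Submodule.add_mem _ hp hq
        · intro c p _ hp
          rw [smul_assoc]; exact Submodule.smul_mem _ _ hp
      have h2 := ih hu h1
      have h3 : s + 1 + (a : ℤ) = s + ((a + 1 : ℕ) : ℤ) := by push_cast; ring
      rwa [h3] at h2
    · intro u v hu hv
      rw [add_smul]; exact Submodule.add_mem _ hu hv

/-- generation, multiplied form: `F_{s+1} = sum y_j F_s` -/
theorem PhR_succ {b : Fin n → ℤ} {τ : Fin n → Fin 3} {s : ℤ} {x : R ⊗[PolyA 𝔽 n] Lau 𝔽 n}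
    (hx : x ∈ PhR 𝔽 R b τ (s + 1)) :
    ∃ β : Fin (n + 1) → Lz R n, (∀ j, β j ∈ Bs R b τ s) ∧
      x = ∑ j, yR 𝔽 R j • pA 𝔽 R (β j) := by
  rw [PhR_eq] at hx
  obtain ⟨β', hβ', rfl⟩ := hx
  obtain ⟨c, hc1, hc2⟩ := GJ2_pu 𝔽 (n := n) τ
  -- it is enough to treat monomials
  have key : ∀ m, alw b τ (s + 1) m → ∀ r : R, ∃ β : Fin (n + 1) → Lz R n,
      (∀ j, β j ∈ Bs R b τ s) ∧ pA 𝔽 R (AddMonoidAlgebra.single m r) =
        ∑ j, yR 𝔽 R j • pA 𝔽 R (β j) := by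
    intro m hm r
    have hH : GJ2_H 𝔽 b τ (s + 1) (AddMonoidAlgebra.single m 1 : Lau 𝔽 n) := fun m' hm' =>
      single_mem_Bs 𝔽 hm 1 m' hm'
    have h1 : ∀ j, ∃ β : Lz R n, β ∈ Bs R b τ s ∧ pA 𝔽 R β =
        r ⊗ₜ[PolyA 𝔽 n] (c j * (AddMonoidAlgebra.single m 1 : Lau 𝔽 n)) := by
      intro j
      have h4 := GJ2_H_mul 𝔽 (b := 0) (s := -1) (hc1 j) hH
      have h5 : (-1 : ℤ) + (s + 1) = s := by ring
      rw [zero_add, h5] at h4
      obtain ⟨β, hβ1, hβ2⟩ := one_tmul_mem_H 𝔽 R h4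
      refine ⟨r • β, Submodule.smul_mem _ _ hβ1, ?_⟩
      rw [map_smul]
      have h6 : pA 𝔽 R β = (1 : R) ⊗ₜ[PolyA 𝔽 n] (c j * (AddMonoidAlgebra.single m 1 : Lau 𝔽 n)) :=
        hβ2
      rw [h6, TensorProduct.smul_tmul', smul_eq_mul, mul_one]
    choose β hβ1 hβ2 using h1
    refine ⟨β, hβ1, ?_⟩
    have h2 : (AddMonoidAlgebra.single m 1 : Lau 𝔽 n) =
        ∑ j, (MvPolynomial.X j : PolyA 𝔽 n) • (c j * (AddMonoidAlgebra.single m 1 : Lau 𝔽 n)) := by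
      have h2 : ∀ j, (MvPolynomial.X j : PolyA 𝔽 n) • (c j * (AddMonoidAlgebra.single m 1 : Lau 𝔽 n))
          = elemE 𝔽 n j * c j * (AddMonoidAlgebra.single m 1 : Lau 𝔽 n) := by
        intro j
        rw [Algebra.smul_def, mul_assoc]
        show toLau 𝔽 n (MvPolynomial.X j) * _ = _
        unfold toLau
        rw [MvPolynomial.aeval_X]
      rw [Finset.sum_congr rfl fun j _ => h2 j, ← Finset.sum_mul, hc2, one_mul]
    rw [pA_single, h2, TensorProduct.tmul_sum]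
    refine Finset.sum_congr rfl fun j _ => ?_
    rw [hβ2, ← TensorProduct.smul_tmul, Algebra.smul_def, TensorProduct.smul_tmul', smul_eq_mul]
    rfl
  have h1 : ∀ m : (Fin n → ℤ) × ℤ, ∃ β : Fin (n + 1) → Lz R n, (∀ j, β j ∈ Bs R b τ s) ∧
      (m ∈ β'.coeff.support → pA 𝔽 R (AddMonoidAlgebra.single m (β'.coeff m)) =
        ∑ j, yR 𝔽 R j • pA 𝔽 R (β j)) := by
    intro m
    by_cases hm : m ∈ β'.coeff.support
    · obtain ⟨β, h1, h2⟩ := key m (hβ' m (Finsupp.mem_support_iff.mp hm)) (β'.coeff m)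
      exact ⟨β, h1, fun _ => h2⟩
    · exact ⟨0, fun _ => Submodule.zero_mem _, fun h => absurd h hm⟩
  choose β hβ1 hβ2 using h1
  refine ⟨fun j => ∑ m ∈ β'.coeff.support, β m j,
    fun j => Submodule.sum_mem _ fun m _ => hβ1 m j, ?_⟩
  show pA 𝔽 R β' = _
  conv_lhs => rw [eq_sum_single R β']
  rw [map_sum, Finset.sum_congr rfl fun m hm => hβ2 m hm, Finset.sum_comm]
  refine Finset.sum_congr rfl fun j _ => ?_
  rw [map_sum, Finset.smul_sum]

end GJ2a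

end Vale.Agent.P202G
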