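import Vale.Agent.P202G.G0
import Vale.Agent.P202C.Free

/-!
P202 stage 2, module GM, part 1 (helper59): `Lau` is the localisation of `M*` at `Y_0 Y_n`, and the
elements `1 ⊗ z^g` are linearly independent over `R` when `y_0 y_n` is a nonzerodivisor of `R`.
-/

set_option autoImplicit false

namespace Vale.Agent.P202G

open TensorProduct Vale.Agent.P202C

universe u v w

section GMa

variable (𝔽 : Type w) [Field 𝔽] (n : ℕ)

/-- exponent of `Y_0 Y_n` -/
def gmV : (Fin n → ℤ) × ℤ := ((fun _ => 1), 2)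

theorem gm_Xlast : toLau 𝔽 n (MvPolynomial.X (Fin.last n)) =
    AddMonoidAlgebra.single ((fun _ => 1), (1 : ℤ)) (1 : 𝔽) := by
  classical
  unfold toLau
  rw [MvPolynomial.aeval_X]
  unfold elemE
  have h : (Finset.univ : Finset (Fin n)).powersetCard (Fin.last n).val = {Finset.univ} := by
    have h1 := Finset.powersetCard_self (Finset.univ : Finset (Fin n))
    rw [Finset.card_univ, Fintype.card_fin] at h1
    exact h1
  rw [h, Finset.sum_singleton]
  congr 1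
  refine Prod.ext ?_ rfl
  funext l
  exact if_pos (Finset.mem_univ l)

theorem gm_X0 : toLau 𝔽 n (MvPolynomial.X 0) =
    AddMonoidAlgebra.single ((0 : Fin n → ℤ), (1 : ℤ)) (1 : 𝔽) := by
  unfold toLau
  rw [MvPolynomial.aeval_X, frE_elemE]
  show frT 𝔽 n * frE (frZ 𝔽 n) n 0 = _
  rw [frE_zero, mul_one]
  rfl

theorem gm_XX : toLau 𝔽 n (MvPolynomial.X 0 * MvPolynomial.X (Fin.last n)) =
    AddMonoidAlgebra.single (gmV n) (1 : 𝔽) := by
  rw [map_mul, gm_Xlast, gm_X0, AddMonoidAlgebra.single_mul_single, mul_one]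
  have h : (((0 : Fin n → ℤ), (1 : ℤ)) + ((fun _ => 1), (1 : ℤ)) : (Fin n → ℤ) × ℤ) = gmV n := by
    refine Prod.ext ?_ ?_
    · funext l
      show (0 : ℤ) + 1 = 1
      ring
    · show (1 : ℤ) + 1 = 2
      norm_num
  rw [h]

theorem gm_XX_smul (N : ℕ) (f : Lau 𝔽 n) :
    ((MvPolynomial.X 0 * MvPolynomial.X (Fin.last n)) ^ N : PolyA 𝔽 n) • f =
      AddMonoidAlgebra.single (N • gmV n) (1 : 𝔽) * f := by
  have h1 : ((MvPolynomial.X 0 * MvPolynomial.X (Fin.last n)) ^ N : PolyA 𝔽 n) • f =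
    toLau 𝔽 n ((MvPolynomial.X 0 * MvPolynomial.X (Fin.last n)) ^ N) * f := rfl
  rw [h1, map_pow, gm_XX, AddMonoidAlgebra.single_pow, one_pow]

theorem gm_smul_single (a : PolyA 𝔽 n) (m : (Fin n → ℤ) × ℤ) (f : Lau 𝔽 n) :
    AddMonoidAlgebra.single m (1 : 𝔽) * (a • f) = a • (AddMonoidAlgebra.single m (1 : 𝔽) * f) := by
  show AddMonoidAlgebra.single m (1 : 𝔽) * (toLau 𝔽 n a * f) =
    toLau 𝔽 n a * (AddMonoidAlgebra.single m (1 : 𝔽) * f)
  ring

theorem gm_inv (m : (Fin n → ℤ) × ℤ) (f : Lau 𝔽 n) :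
    AddMonoidAlgebra.single (-m) (1 : 𝔽) * (AddMonoidAlgebra.single m (1 : 𝔽) * f) = f := by
  rw [← mul_assoc, AddMonoidAlgebra.single_mul_single, mul_one, neg_add_cancel,
    ← AddMonoidAlgebra.one_def, one_mul]

theorem gm_inv' (m : (Fin n → ℤ) × ℤ) (f : Lau 𝔽 n) :
    AddMonoidAlgebra.single m (1 : 𝔽) * (AddMonoidAlgebra.single (-m) (1 : 𝔽) * f) = f := by
  rw [← mul_assoc, AddMonoidAlgebra.single_mul_single, mul_one, add_neg_cancel,
    ← AddMonoidAlgebra.one_def, one_mul]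

/-- multiplication by a monomial, `A`-linear -/
noncomputable def gmMul (m : (Fin n → ℤ) × ℤ) : Lau 𝔽 n →ₗ[PolyA 𝔽 n] Lau 𝔽 n where
  toFun f := AddMonoidAlgebra.single m (1 : 𝔽) * f
  map_add' := fun f g => mul_add _ f g
  map_smul' := fun a f => gm_smul_single 𝔽 n a m f

/-- every Laurent polynomial is brought into `M*` by a power of `Y_0 Y_n` -/
theorem gm_pow_mem (f : Lau 𝔽 n) : ∃ N : ℕ,
    ((MvPolynomial.X 0 * MvPolynomial.X (Fin.last n)) ^ N : PolyA 𝔽 n) • f ∈ MSub 𝔽 (bstar n) := by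
  classical
  set N : ℕ := ∑ m ∈ f.coeff.support, (m.2.natAbs + ∑ l, (m.1 l).natAbs) with hN
  refine ⟨N, ?_⟩
  rw [mem_MSub, gm_XX_smul]
  intro m hm
  have h1 : m ∈ (AddMonoidAlgebra.single (N • gmV n) 1 * f : Lau 𝔽 n).coeff.support :=
    Finsupp.mem_support_iff.mpr hm
  obtain ⟨x, hx, y, hy, rfl⟩ := Finset.mem_add.mp (AddMonoidAlgebra.support_coeff_mul_subset _ f h1)
  have hx' : x = N • gmV n := by
    rw [AddMonoidAlgebra.coeff_single] at hx
    exact Finset.mem_singleton.1 (Finsupp.support_single_subset hx)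
  subst hx'
  have h2 : y.2.natAbs + ∑ l, (y.1 l).natAbs ≤ N :=
    Finset.single_le_sum (f := fun m : (Fin n → ℤ) × ℤ => m.2.natAbs + ∑ l, (m.1 l).natAbs)
      (fun i _ => Nat.zero_le _) hy
  have h3 : ∀ l, (y.1 l).natAbs ≤ ∑ l, (y.1 l).natAbs := fun l =>
    Finset.single_le_sum (f := fun l => (y.1 l).natAbs) (fun i _ => Nat.zero_le _)
      (Finset.mem_univ l)
  have e1 : (N • gmV n).2 = 2 * (N : ℤ) := by
    show N • (2 : ℤ) = _
    rw [nsmul_eq_mul, mul_comm]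
  have e2 : ∀ l, (N • gmV n).1 l = (N : ℤ) := by
    intro l
    show N • (1 : ℤ) = _
    rw [nsmul_eq_mul, mul_one]
  refine ⟨?_, fun l => ⟨?_, ?_⟩⟩
  · show (0 : ℤ) ≤ (N • gmV n).2 + y.2
    rw [e1]
    omega
  · show (0 : ℤ) ≤ (N • gmV n).1 l + y.1 l
    rw [e2]
    have := h3 l
    omega
  · show (N • gmV n).1 l + y.1 l ≤ ((l : ℕ) : ℤ) + ((N • gmV n).2 + y.2)
    rw [e1, e2]
    have := h3 l
    omega

theorem gm_loc : IsLocalizedModule
    (Submonoid.powers (MvPolynomial.X 0 * MvPolynomial.X (Fin.last n) : PolyA 𝔽 n))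
    (MSub 𝔽 (bstar n)).subtype where
  map_units := by
    rintro ⟨_, N, rfl⟩
    refine ⟨⟨gmMul 𝔽 n (N • gmV n), gmMul 𝔽 n (-(N • gmV n)), ?_, ?_⟩, ?_⟩
    · refine LinearMap.ext fun f => ?_
      exact gm_inv' 𝔽 n _ f
    · refine LinearMap.ext fun f => ?_
      exact gm_inv 𝔽 n _ f
    · refine LinearMap.ext fun f => ?_
      exact (gm_XX_smul 𝔽 n N f).symm
  surj := fun f => by
    obtain ⟨N, hN⟩ := gm_pow_mem 𝔽 n f
    exact ⟨(⟨_, hN⟩, ⟨_, N, rfl⟩), rfl⟩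
  exists_of_eq := fun {x y} h => ⟨1, by rw [Subtype.ext h]⟩

variable {n}

/-- the basis of `M*` over `A` -/
noncomputable def gmBas : Module.Basis (frI n) (PolyA 𝔽 n) (MSub 𝔽 (bstar n)) :=
  (Module.Basis.span (frS_indep 𝔽 n)).map (LinearEquiv.ofEq _ _ (fr_span 𝔽))

theorem gmBas_coe (g : frI n) : ((gmBas 𝔽 g : MSub 𝔽 (bstar n)) : Lau 𝔽 n) = frS 𝔽 n g := by
  unfold gmBas
  rw [Module.Basis.map_apply, LinearEquiv.coe_ofEq_apply, Module.Basis.span_apply]

variable (R : Type u) [CommRing R] [Algebra (PolyA 𝔽 n) R]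

/-- **linear independence of `1 ⊗ z^g` over `R`** -/
theorem gm_indep (hy : yR 𝔽 R (0 : Fin (n + 1)) * yR 𝔽 R (Fin.last n) ∈ nonZeroDivisors R) :
    LinearIndependent R (fun g : frI n => (1 : R) ⊗ₜ[PolyA 𝔽 n] frS 𝔽 n g) := by
  classical
  let y : R := yR 𝔽 R (0 : Fin (n + 1)) * yR 𝔽 R (Fin.last n)
  let R' := Localization.Away y
  have hinj : Function.Injective (algebraMap R R') :=
    IsLocalization.injective R' (Submonoid.powers_le.2 hy)
  let g0 : MSub 𝔽 (bstar n) →ₗ[PolyA 𝔽 n] (frI n → R') :=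
    (gmBas 𝔽).constr (PolyA 𝔽 n) (fun g => Pi.single g (1 : R'))
  have hy1 : algebraMap (PolyA 𝔽 n) R (MvPolynomial.X 0 * MvPolynomial.X (Fin.last n)) = y :=
    map_mul _ _ _
  have hu : ∀ x : Submonoid.powers (MvPolynomial.X 0 * MvPolynomial.X (Fin.last n) : PolyA 𝔽 n),
      IsUnit ((algebraMap (PolyA 𝔽 n) (Module.End (PolyA 𝔽 n) (frI n → R'))) x) := by
    rintro ⟨_, N, rfl⟩
    have h1 : IsUnit (algebraMap (PolyA 𝔽 n) R'
        ((MvPolynomial.X 0 * MvPolynomial.X (Fin.last n)) ^ N)) := by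
      rw [map_pow, IsScalarTower.algebraMap_apply (PolyA 𝔽 n) R R', hy1]
      exact (IsLocalization.Away.algebraMap_isUnit y).pow N
    have h2 := h1.map (Algebra.lsmul (PolyA 𝔽 n) (PolyA 𝔽 n) (frI n → R'))
    rwa [(Algebra.lsmul (PolyA 𝔽 n) (PolyA 𝔽 n) (frI n → R')).commutes] at h2
  have := gm_loc 𝔽 n
  let L := IsLocalizedModule.lift
    (Submonoid.powers (MvPolynomial.X 0 * MvPolynomial.X (Fin.last n) : PolyA 𝔽 n))
    (MSub 𝔽 (bstar n)).subtype g0 hu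
  have hL : ∀ g : frI n, L (frS 𝔽 n g) = Pi.single g (1 : R') := by
    intro g
    have h1 := IsLocalizedModule.lift_apply
      (Submonoid.powers (MvPolynomial.X 0 * MvPolynomial.X (Fin.last n) : PolyA 𝔽 n))
      (MSub 𝔽 (bstar n)).subtype g0 hu (gmBas 𝔽 g)
    rw [Submodule.subtype_apply, gmBas_coe] at h1
    rw [h1]
    exact (gmBas 𝔽).constr_basis (PolyA 𝔽 n) _ g
  let L' : R ⊗[PolyA 𝔽 n] Lau 𝔽 n →ₗ[R] (frI n → R') := L.liftBaseChange R
  rw [Fintype.linearIndependent_iff]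
  intro c hc i
  have h1 := congrArg L' hc
  rw [map_sum, map_zero] at h1
  have h2 := congrFun h1 i
  rw [Finset.sum_apply, Finset.sum_eq_single i] at h2
  · rw [map_smul, LinearMap.liftBaseChange_tmul, hL, one_smul, Pi.smul_apply, Pi.single_eq_same,
      Algebra.smul_def, mul_one] at h2
    exact hinj (by rw [h2, map_zero]; rfl)
  · intro g _ hg
    rw [map_smul, LinearMap.liftBaseChange_tmul, hL, one_smul, Pi.smul_apply,
      Pi.single_eq_of_ne (Ne.symm hg), smul_zero]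
  · intro h
    exact absurd (Finset.mem_univ i) h

end GMa

end Vale.Agent.P202G
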