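import Vale.Agent.P202G.GJ2a
import Vale.Agent.P202G.GMa
import Vale.Agent.P202G.GJ1
import Vale.Agent.P202G.GB
import Vale.Agent.P202G.GC1

/-!
# P202, stage 2, module GJ2 (link with `CR`), part b: kernels on one block (helper40)
-/

set_option autoImplicit false

namespace Vale.Agent.P202G

open IsLocalRing TensorProduct Vale.Agent.P202C

universe u v w

section GJ2b

variable (𝔽 : Type w) [Field 𝔽] {n : ℕ} (R : Type u) [CommRing R] [Algebra (PolyA 𝔽 n) R]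

theorem GJ2_sub (a b : R) (x : R ⊗[PolyA 𝔽 n] Lau 𝔽 n) : (a - b) • x = a • x - b • x := by
  rw [eq_sub_iff_add_eq, ← add_smul, sub_add_cancel]

theorem GJ2_indep (hy : yR 𝔽 R (0 : Fin (n + 1)) * yR 𝔽 R (Fin.last n) ∈ nonZeroDivisors R)
    (r : Ga n → R) (h : ∑ g, r g • pA 𝔽 R (gm R g) = 0) : ∀ g, r g = 0 := by
  have h1 := gm_indep 𝔽 R hy
  rw [Fintype.linearIndependent_iff] at h1
  refine h1 r ?_
  rw [← h]
  refine Finset.sum_congr rfl fun g _ => ?_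
  congr 1
  unfold gm
  rw [pA_single]
  rfl

/-- the expansion of finitely many block elements -/
theorem GJ2_expand (b : Fin n → ℤ) (τ : Fin n → Fin 3) (s : ℤ) (S : Finset (Lz R n))
    (hS : ∀ β ∈ S, β ∈ Bs R b τ s) :
    ∃ (w : (Fin n → ℤ) × ℤ) (t : ℕ), (t : ℤ) = s + w.2 ∧
      (∀ β ∈ S, ∃ φ : Ga n → Pz R n, (∀ g, (φ g).IsHomogeneous t) ∧
        AddMonoidAlgebra.single w (1 : R) * β = ∑ g, tL R n (φ g) * gm R g) ∧
      (∀ g, AddMonoidAlgebra.single (-w) (1 : R) * gm R g ∈ Bs R b τ (s - t)) := by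
  classical
  obtain ⟨w, hw0, hw1, hw2⟩ := shift_Ms_pf R b τ (insert ((0 : Lz R n), s) (S.image fun β => (β, s))) (by
    intro p hp
    rcases Finset.mem_insert.mp hp with rfl | hp
    · exact Submodule.zero_mem _
    · obtain ⟨β, hβ, rfl⟩ := Finset.mem_image.mp hp
      exact hS β hβ)
  have h0 := (hw1 ((0 : Lz R n), s) (Finset.mem_insert_self _ _)).1
  obtain ⟨t, ht⟩ := Int.eq_ofNat_of_zero_le h0
  refine ⟨w, t, ht.symm, ?_, ?_⟩
  · intro β hβ
    have h1 := (hw1 (β, s) (Finset.mem_insert_of_mem (Finset.mem_image_of_mem _ hβ))).2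
    have h2 : s + w.2 = (t : ℤ) := ht
    rw [show (β, s).2 = s from rfl, h2] at h1
    exact Ms_exists_pf R t h1
  · intro g
    have h1 : gm R g ∈ Ms R n 0 := by
      intro m hm
      unfold gm at hm
      rw [AddMonoidAlgebra.coeff_single, Finsupp.single_apply] at hm
      by_cases h : ((fun l => ((g l : ℕ) : ℤ)), (0 : ℤ)) = m
      · rw [← h]
        refine ⟨rfl, fun l => ⟨Int.natCast_nonneg _, ?_⟩⟩
        show ((g l : ℕ) : ℤ) ≤ ((l : ℕ) : ℤ) + 0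
        have := (g l).2
        omega
      · rw [if_neg h] at hm
        exact absurd rfl hm
    have h2 := hw2 0 _ h1
    have h3 : (0 : ℤ) - w.2 = s - t := by
      have : s + w.2 = (t : ℤ) := ht
      linarith
    rwa [h3] at h2

theorem GJ2_single_inv (w : (Fin n → ℤ) × ℤ) (β : Lz R n) :
    AddMonoidAlgebra.single (-w) (1 : R) * (AddMonoidAlgebra.single w (1 : R) * β) = β := by
  rw [← mul_assoc, AddMonoidAlgebra.single_mul_single, neg_add_cancel, mul_one,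
    ← AddMonoidAlgebra.one_def, one_mul]

theorem GJ2_back {I : Ideal (Pz R n)} {b : Fin n → ℤ} {τ : Fin n → Fin 3} {s : ℤ} {t : ℕ}
    {w : (Fin n → ℤ) × ℤ} {β : Lz R n} {φ : Ga n → Pz R n} (hφ : ∀ g, (φ g).IsHomogeneous t)
    (hI : ∀ g, φ g ∈ I)
    (hw : AddMonoidAlgebra.single w (1 : R) * β = ∑ g, tL R n (φ g) * gm R g)
    (hg : ∀ g, AddMonoidAlgebra.single (-w) (1 : R) * gm R g ∈ Bs R b τ (s - t)) :
    β ∈ IB R I b τ s := by
  rw [← GJ2_single_inv R w β, hw, Finset.mul_sum]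
  refine Submodule.sum_mem _ fun g _ => Submodule.subset_span ?_
  exact ⟨t, φ g, _, hI g, hφ g, hg g, by ring⟩

/-- homogeneous elements of `Irs` -/
theorem Irs_hom {f : Pz R n} (h : f ∈ Irs 𝔽 R) :
    evY 𝔽 R f = 0 := by
  have h1 : Irs 𝔽 R ≤ RingHom.ker (evY 𝔽 R (n := n)) := by
    unfold Irs
    rw [Ideal.span_le]
    rintro f ⟨_, _, hf⟩
    exact hf
  exact h1 h

/-- homogeneous elements of `Igr` -/
theorem Igr_hom {f : Pz R n} {j : ℕ} (hf : f.IsHomogeneous j) (h : f ∈ Igr 𝔽 R) :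
    evY 𝔽 R f ∈ yI 𝔽 n R ^ (j + 1) := (GJ1_iff 𝔽 R hf).mp h

theorem pA_ker (hy : yR 𝔽 R (0 : Fin (n + 1)) * yR 𝔽 R (Fin.last n) ∈ nonZeroDivisors R)
    {b : Fin n → ℤ} {τ : Fin n → Fin 3} {s : ℤ} {β : Lz R n} (hβ : β ∈ Bs R b τ s) :
    pA 𝔽 R β = 0 ↔ β ∈ IB R (Irs 𝔽 R) b τ s := by
  classical
  constructor
  · intro h
    obtain ⟨w, t, ht, h1, h2⟩ := GJ2_expand R b τ s {β} (by
      intro β' hβ'
      rw [Finset.mem_singleton.mp hβ']
      exact hβ)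
    obtain ⟨φ, hφ, hw⟩ := h1 β (Finset.mem_singleton_self _)
    have h3 : ∑ g, evY 𝔽 R (φ g) • pA 𝔽 R (gm R g) = 0 := by
      have h4 := congrArg (pA 𝔽 R) hw
      rw [map_mul, h, mul_zero, map_sum] at h4
      rw [h4]
      exact Finset.sum_congr rfl fun g _ => (pA_tL_mul 𝔽 R _ _).symm
    have h4 := GJ2_indep 𝔽 R hy _ h3
    exact GJ2_back R hφ (fun g => Ideal.subset_span ⟨t, hφ g, h4 g⟩) hw h2
  · intro h
    unfold IB at h
    refine Submodule.span_induction ?_ ?_ ?_ ?_ h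
    · rintro _ ⟨j, f, β', hf, hfj, _, rfl⟩
      rw [pA_tL_mul, Irs_hom 𝔽 R hf, zero_smul]
    · rw [map_zero]
    · intro x y _ _ hx hy
      rw [map_add, hx, hy, add_zero]
    · intro a x _ hx
      rw [map_smul, hx, smul_zero]

theorem pA_succ (hy : yR 𝔽 R (0 : Fin (n + 1)) * yR 𝔽 R (Fin.last n) ∈ nonZeroDivisors R)
    {b : Fin n → ℤ} {τ : Fin n → Fin 3} {s : ℤ} {β : Lz R n} (hβ : β ∈ Bs R b τ s) :
    pA 𝔽 R β ∈ PhR 𝔽 R b τ (s + 1) ↔ β ∈ IB R (Igr 𝔽 R) b τ s := by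
  classical
  constructor
  · intro h
    obtain ⟨β', hβ', hsum⟩ := PhR_succ 𝔽 R h
    obtain ⟨w, t, ht, h1, h2⟩ := GJ2_expand R b τ s (insert β (Finset.univ.image β')) (by
      intro γ hγ
      rcases Finset.mem_insert.mp hγ with rfl | hγ
      · exact hβ
      · obtain ⟨j, _, rfl⟩ := Finset.mem_image.mp hγ
        exact hβ' j)
    obtain ⟨φ, hφ, hw⟩ := h1 β (Finset.mem_insert_self _ _)
    have h3 : ∀ j, ∃ φ : Ga n → Pz R n, (∀ g, (φ g).IsHomogeneous t) ∧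
        AddMonoidAlgebra.single w (1 : R) * β' j = ∑ g, tL R n (φ g) * gm R g := fun j =>
      h1 _ (Finset.mem_insert_of_mem (Finset.mem_image_of_mem _ (Finset.mem_univ j)))
    choose φ' hφ' hw' using h3
    have h4 : ∑ g, (evY 𝔽 R (φ g) - ∑ j, yR 𝔽 R j * evY 𝔽 R (φ' j g)) • pA 𝔽 R (gm R g) = 0 := by
      have e1 : pA 𝔽 R (AddMonoidAlgebra.single w (1 : R)) * pA 𝔽 R β =
          ∑ g, evY 𝔽 R (φ g) • pA 𝔽 R (gm R g) := by
        rw [← map_mul, hw, map_sum]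
        exact Finset.sum_congr rfl fun g _ => pA_tL_mul 𝔽 R _ _
      have e2 : ∀ j, pA 𝔽 R (AddMonoidAlgebra.single w (1 : R)) * pA 𝔽 R (β' j) =
          ∑ g, evY 𝔽 R (φ' j g) • pA 𝔽 R (gm R g) := by
        intro j
        rw [← map_mul, hw' j, map_sum]
        exact Finset.sum_congr rfl fun g _ => pA_tL_mul 𝔽 R _ _
      have e3 : pA 𝔽 R (AddMonoidAlgebra.single w (1 : R)) * pA 𝔽 R β =
          ∑ j, yR 𝔽 R j • (pA 𝔽 R (AddMonoidAlgebra.single w (1 : R)) * pA 𝔽 R (β' j)) := by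
        rw [hsum, Finset.mul_sum]
        refine Finset.sum_congr rfl fun j _ => ?_
        rw [mul_smul_comm]
      have e4 : ∑ g, (∑ j, yR 𝔽 R j * evY 𝔽 R (φ' j g)) • pA 𝔽 R (gm R g) =
          pA 𝔽 R (AddMonoidAlgebra.single w (1 : R)) * pA 𝔽 R β := by
        rw [e3, Finset.sum_congr rfl fun g _ => Finset.sum_smul, Finset.sum_comm]
        refine Finset.sum_congr rfl fun j _ => ?_
        rw [e2, Finset.smul_sum]
        exact Finset.sum_congr rfl fun g _ => mul_smul _ _ _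
      calc ∑ g, (evY 𝔽 R (φ g) - ∑ j, yR 𝔽 R j * evY 𝔽 R (φ' j g)) • pA 𝔽 R (gm R g) =
          ∑ g, (evY 𝔽 R (φ g) • pA 𝔽 R (gm R g) -
            (∑ j, yR 𝔽 R j * evY 𝔽 R (φ' j g)) • pA 𝔽 R (gm R g)) :=
            Finset.sum_congr rfl fun g _ => GJ2_sub 𝔽 R _ _ _
        _ = 0 := by rw [Finset.sum_sub_distrib, e4, e1, sub_self]
    have h5 := GJ2_indep 𝔽 R hy _ h4
    refine GJ2_back R hφ (fun g => Ideal.subset_span ⟨t, hφ g, ?_⟩) hw h2
    rw [sub_eq_zero.mp (h5 g)]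
    refine Ideal.sum_mem _ fun j _ => ?_
    rw [pow_succ']
    exact Ideal.mul_mem_mul (Ideal.subset_span ⟨j, rfl⟩) (GJ1_ev_mem 𝔽 R (hφ' j g))
  · intro h
    unfold IB at h
    refine Submodule.span_induction ?_ ?_ ?_ ?_ h
    · rintro _ ⟨j, f, β', hf, hfj, hβ', rfl⟩
      rw [pA_tL_mul]
      have h1 : pA 𝔽 R β' ∈ PhR 𝔽 R b τ (s - j) := by
        rw [PhR_eq]
        exact Submodule.mem_map_of_mem hβ'
      have h2 := yI_smul_Ph 𝔽 R (j + 1) (Igr_hom 𝔽 R hfj hf) h1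
      have h3 : s - j + ((j + 1 : ℕ) : ℤ) = s + 1 := by push_cast; ring
      rwa [h3] at h2
    · rw [map_zero]; exact Submodule.zero_mem _
    · intro x y _ _ hx hy
      rw [map_add]; exact Submodule.add_mem _ hx hy
    · intro a x _ hx
      rw [map_smul]; exact Submodule.smul_mem _ _ hx

end GJ2b

end Vale.Agent.P202G
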