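import Vale.Agent.P202G.GA1
import Vale.Agent.P202G.GA2
import Vale.Agent.P202G.GE2
import Vale.Agent.P202G.GG
import Vale.Agent.P202G.GI
import Vale.Agent.P202G.GJ1
import Vale.Agent.P202G.GJ2c
import Vale.Agent.P202G.GC3

/-!
# P202, stage 2, module GK: the pieces over the residue field (helper25)
-/

set_option autoImplicit false

namespace Vale.Agent.P202G

open IsLocalRing TensorProduct Vale.Agent.P202C Vale.Agent.P202

universe u v w

section GKa

variable {R : Type u} [CommRing R] [IsLocalRing R]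

theorem GK_pow [IsNoetherianRing R] (I : Ideal R) (h : Module.length R (R ⧸ I) ≠ ⊤) :
    ∃ N : ℕ, maximalIdeal R ^ N ≤ I := by
  have h1 : IsArtinian R (R ⧸ I) :=
    (isFiniteLength_iff_isNoetherian_isArtinian.1 (Module.length_ne_top_iff.1 h)).2
  let f : ℕ →o (Submodule R (R ⧸ I))ᵒᵈ :=
    ⟨fun k => OrderDual.toDual ((maximalIdeal R ^ k) • (⊤ : Submodule R (R ⧸ I))), by
      intro a b hab
      exact Submodule.smul_mono_left (Ideal.pow_le_pow_right hab)⟩
  obtain ⟨N, hN⟩ := IsArtinian.monotone_stabilizes f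
  have h2 : (maximalIdeal R ^ N) • (⊤ : Submodule R (R ⧸ I)) =
      (maximalIdeal R ^ (N + 1)) • (⊤ : Submodule R (R ⧸ I)) := hN (N + 1) (Nat.le_succ N)
  have h3 : (maximalIdeal R ^ N) • (⊤ : Submodule R (R ⧸ I)) = ⊥ := by
    apply Submodule.eq_bot_of_le_smul_of_le_jacobson_bot (maximalIdeal R) _
      (IsNoetherian.noetherian _)
    · rw [← Submodule.mul_smul, ← pow_succ']
      exact h2.le
    · exact IsLocalRing.maximalIdeal_le_jacobson _
  refine ⟨N, fun x hx => ?_⟩
  have h4 : x • (1 : R ⧸ I) ∈ (maximalIdeal R ^ N) • (⊤ : Submodule R (R ⧸ I)) :=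
    Submodule.smul_mem_smul hx trivial
  rw [h3, Submodule.mem_bot, Algebra.smul_def, mul_one] at h4
  exact Ideal.Quotient.eq_zero_iff_mem.1 h4

theorem GK_soc {a : Ideal R} (ha : a ≠ ⊤) {N : ℕ} (hN : maximalIdeal R ^ N ≤ a) :
    ∃ x, x ∉ a ∧ ∀ m ∈ maximalIdeal R, m * x ∈ a := by
  classical
  have h : ∃ N, maximalIdeal R ^ N ≤ a := ⟨N, hN⟩
  have h1 := Nat.find_spec h
  have h2 : Nat.find h ≠ 0 := by
    intro h0
    rw [h0, pow_zero, Ideal.one_eq_top, top_le_iff] at h1
    exact ha h1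
  obtain ⟨M', hM'⟩ := Nat.exists_eq_succ_of_ne_zero h2
  have h3 : ¬ maximalIdeal R ^ M' ≤ a := Nat.find_min h (by omega)
  obtain ⟨x, hx, hxa⟩ := SetLike.not_le_iff_exists.1 h3
  refine ⟨x, hxa, fun m hm => h1 ?_⟩
  rw [hM', pow_succ']
  exact Ideal.mul_mem_mul hm hx

end GKa

section GKb

variable {R : Type u} [CommRing R] {n : ℕ}

theorem GK_hf_add {J : Ideal (Pz R n)} (hJ : HI R J) (x : R) (t : ℕ) :
    hf R J t = hf R (Ic R J (MvPolynomial.C x)) t +
      hf R (J ⊔ Ideal.span {MvPolynomial.C x}) t := by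
  set P := MvPolynomial.homogeneousSubmodule (Fin (n + 1)) R t with hP
  set K := Ic R J (MvPolynomial.C x) with hK
  set J' := J ⊔ Ideal.span {(MvPolynomial.C x : Pz R n)} with hJ'
  let N1 : Submodule R P := (K.restrictScalars R).submoduleOf P
  let N2 : Submodule R P := (J.restrictScalars R).submoduleOf P
  let N3 : Submodule R P := (J'.restrictScalars R).submoduleOf P
  have h12 : N1 ≤ N2.comap (x • LinearMap.id) := by
    intro p hp
    have h1 : (MvPolynomial.C x : Pz R n) * (p : Pz R n) ∈ J := hp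
    show ((x • p : P) : Pz R n) ∈ J
    rw [Submodule.coe_smul, MvPolynomial.smul_eq_C_mul]
    exact h1
  have h23 : N2 ≤ N3.comap LinearMap.id := by
    intro p hp
    have h1 : (p : Pz R n) ∈ J := hp
    exact (le_sup_left : J ≤ J') h1
  have h3 := Module.length_eq_add_of_exact (N1.mapQ N2 (x • LinearMap.id) h12)
    (N2.mapQ N3 LinearMap.id h23) ?_ ?_ ?_
  · exact h3
  · rw [← LinearMap.ker_eq_bot, Submodule.eq_bot_iff]
    intro q hq
    obtain ⟨p, rfl⟩ := Submodule.mkQ_surjective _ q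
    rw [LinearMap.mem_ker, Submodule.mkQ_apply, Submodule.mapQ_apply,
      Submodule.Quotient.mk_eq_zero] at hq
    rw [Submodule.mkQ_apply, Submodule.Quotient.mk_eq_zero]
    have h1 : ((x • p : P) : Pz R n) ∈ J := hq
    rw [Submodule.coe_smul, MvPolynomial.smul_eq_C_mul] at h1
    exact h1
  · intro q
    obtain ⟨p, rfl⟩ := Submodule.mkQ_surjective _ q
    exact ⟨Submodule.Quotient.mk p, by rw [Submodule.mapQ_apply]; rfl⟩
  · intro q
    obtain ⟨p, rfl⟩ := Submodule.mkQ_surjective _ q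
    rw [Submodule.mkQ_apply, Submodule.mapQ_apply, LinearMap.id_apply,
      Submodule.Quotient.mk_eq_zero]
    constructor
    · intro hp
      have h1 : (p : Pz R n) ∈ J' := hp
      obtain ⟨g, hg, h, hh, hgh⟩ := Submodule.mem_sup.1 h1
      obtain ⟨h', rfl⟩ := Ideal.mem_span_singleton'.1 hh
      have h2 : MvPolynomial.homogeneousComponent t (p : Pz R n) = (p : Pz R n) := by
        rw [MvPolynomial.homogeneousComponent_of_mem p.2, if_pos rfl]
      have h3 : (p : Pz R n) = MvPolynomial.homogeneousComponent t g +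
          MvPolynomial.C x * MvPolynomial.homogeneousComponent t h' := by
        rw [← h2, ← hgh, map_add, mul_comm h', MvPolynomial.homogeneousComponent_C_mul]
      refine ⟨Submodule.Quotient.mk ⟨MvPolynomial.homogeneousComponent t h',
        MvPolynomial.homogeneousComponent_mem t h'⟩, ?_⟩
      rw [Submodule.mapQ_apply]
      refine (Submodule.Quotient.eq _).2 ?_
      show ((x • (⟨MvPolynomial.homogeneousComponent t h', _⟩ : P) - p : P) : Pz R n) ∈ J
      rw [Submodule.coe_sub, Submodule.coe_smul, MvPolynomial.smul_eq_C_mul]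
      have h4 : MvPolynomial.C x * MvPolynomial.homogeneousComponent t h' - (p : Pz R n) =
          - MvPolynomial.homogeneousComponent t g := by
        rw [h3]
        ring
      rw [h4]
      exact J.neg_mem (hJ g hg t)
    · rintro ⟨q', hq'⟩
      obtain ⟨p', rfl⟩ := Submodule.mkQ_surjective _ q'
      rw [Submodule.mkQ_apply, Submodule.mapQ_apply] at hq'
      have h1 := (Submodule.Quotient.eq _).1 hq'
      have h2 : ((x • p' - p : P) : Pz R n) ∈ J := h1
      rw [Submodule.coe_sub, Submodule.coe_smul, MvPolynomial.smul_eq_C_mul] at h2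
      have h3 : (MvPolynomial.C x : Pz R n) * (p' : Pz R n) ∈ J' :=
        (le_sup_right : Ideal.span {(MvPolynomial.C x : Pz R n)} ≤ J')
          (Ideal.mul_mem_right _ _ (Ideal.mem_span_singleton_self _))
      have h4 := J'.sub_mem h3 ((le_sup_left : J ≤ J') h2)
      rw [sub_sub_cancel] at h4
      exact h4

theorem GK_top_self (k : Type u) [CommRing k] (I : Ideal (Pz k n)) (b : Fin n → ℤ) (s j : ℤ) :
    Hz k I I b s j = 0 := by
  unfold Hz rlen
  rw [Module.length_eq_zero_iff, Submodule.Quotient.subsingleton_iff,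
    Submodule.submoduleOf_eq_top]
  rintro x ⟨⟨h1, h2⟩, h3⟩
  exact Submodule.mem_sup_left ⟨h1, h2⟩

theorem GK_fin (κ : Type u) [Field κ] (hn : 1 ≤ n) {L : Ideal (Pz κ n)} (hL : HI κ L)
    (b : Fin n → ℤ) (s j : ℤ) : Hz κ L ⊤ b s j ≠ ⊤ := by
  by_cases h : L = ⊥
  · rw [h]
    by_cases hj : j = negc b s
    · rw [hj, Hz_top_eq']
      exact ENat.natCast_ne_top _
    · rw [Hz_top_zero' κ b s j hj]
      exact ENat.zero_ne_top
  · obtain ⟨C, hC⟩ := ideal_bound_pf κ hn hL h
    exact ne_top_of_le_ne_top (ENat.natCast_ne_top _) (hC b s j)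

/-- the induction -/
theorem GK_main [IsLocalRing R] [IsNoetherianRing R] (hn : 1 ≤ n) (N : ℕ)
    (J : Ideal (Pz R n)) :
    HI R J → (maximalIdeal R ^ N ≤ J.comap MvPolynomial.C) →
    ∃ (r : ℕ) (L : Fin r → Ideal (Pz (ResidueField R) n)), (∀ i, HI (ResidueField R) (L i)) ∧
      (∀ (b : Fin n → ℤ) (s j : ℤ), Hz R J ⊤ b s j ≤ ∑ i, Hz (ResidueField R) (L i) ⊤ b s j) ∧
      (∀ (b : Fin n → ℤ) (s : ℤ),
        chz R J ⊤ b s = ∑ i, chz (ResidueField R) (L i) ⊤ b s) ∧
      (∀ t : ℕ, hf R J t = ∑ i, hf (ResidueField R) (L i) t) := by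
  classical
  induction J using WellFoundedGT.induction with
  | _ J ih =>
  intro hJ hN
  by_cases htop : J.comap MvPolynomial.C = ⊤
  · have h1 : J = ⊤ := by
      rw [Ideal.eq_top_iff_one] at htop ⊢
      have h2 : MvPolynomial.C (1 : R) ∈ J := htop
      rwa [MvPolynomial.C_1] at h2
    refine ⟨0, fun i => i.elim0, fun i => i.elim0, ?_, ?_, ?_⟩
    · intro b s j
      rw [h1, GK_top_self]
      exact zero_le
    · intro b s
      rw [h1]
      unfold chz
      simp [GK_top_self]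
    · intro t
      rw [h1]
      unfold hf rlen
      rw [Finset.univ_eq_empty, Finset.sum_empty, Module.length_eq_zero_iff,
        Submodule.Quotient.subsingleton_iff, Submodule.submoduleOf_eq_top]
      exact fun x _ => trivial
  · obtain ⟨x, hx, hmx⟩ := GK_soc htop hN
    have hx' : (MvPolynomial.C x : Pz R n) ∉ J := hx
    have hmx' : ∀ m ∈ maximalIdeal R, (MvPolynomial.C (m * x) : Pz R n) ∈ J := hmx
    set J' := J ⊔ Ideal.span {(MvPolynomial.C x : Pz R n)} with hJ'
    set K := Ic R J (MvPolynomial.C x) with hK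
    have hcx : (MvPolynomial.C x : Pz R n).IsHomogeneous 0 := MvPolynomial.isHomogeneous_C _ _
    have hHJ' : HI R J' := HI_sup_span_pf R hJ hcx
    have hHK : HI R K := HI_Ic_pf R hJ hcx
    have hle : J ≤ J' := le_sup_left
    have hlt : J < J' := by
      refine lt_of_le_of_ne hle fun h => hx' ?_
      rw [h]
      exact (le_sup_right : Ideal.span {(MvPolynomial.C x : Pz R n)} ≤ J')
        (Ideal.mem_span_singleton_self _)
    have hmK : ∀ m ∈ maximalIdeal R, (MvPolynomial.C m : Pz R n) ∈ K := by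
      intro m hm
      show (MvPolynomial.C x : Pz R n) * MvPolynomial.C m ∈ J
      rw [← MvPolynomial.C_mul, mul_comm]
      exact hmx' m hm
    obtain ⟨r, L, hL, h1, h2, h3⟩ := ih J' hlt hHJ' (hN.trans (Ideal.comap_mono hle))
    have hHL : HI (ResidueField R) (resI R K) := HI_resI_pf R hHK
    have hfinL : ∀ i, HI (ResidueField R) (Fin.cons (α := fun _ => Ideal (Pz (ResidueField R) n))
        (resI R K) L i) := by
      intro i
      refine Fin.cases ?_ (fun i => ?_) i
      · exact hHL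
      · exact hL i
    have hcol : ∀ (b : Fin n → ℤ) (s j : ℤ),
        Hz R J J' b s j = Hz (ResidueField R) (resI R K) ⊤ b s j := by
      intro b s j
      rw [hJ', Hz_colon_pf R hJ hcx b s j, ← Hz_resI_pf R hHK hmK, Nat.cast_zero, sub_zero]
    refine ⟨r + 1, Fin.cons (resI R K) L, hfinL, ?_, ?_, ?_⟩
    · intro b s j
      rw [Fin.sum_univ_succ, Fin.cons_zero]
      simp only [Fin.cons_succ]
      refine (Hz_AC' R hle le_top b s j).trans ?_
      rw [hcol]
      exact add_le_add le_rfl (h1 b s j)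
    · intro b s
      rw [Fin.sum_univ_succ, Fin.cons_zero]
      simp only [Fin.cons_succ]
      rw [chz_add' R hle le_top b s, h2]
      · congr 1
        unfold chz
        refine Finset.sum_congr rfl fun j _ => ?_
        rw [hcol]
      · intro j
        rw [hcol]
        exact GK_fin _ hn hHL b s j
      · intro j
        refine ne_top_of_le_ne_top ?_ (h1 b s j)
        rw [ENat.sum_ne_top]
        intro i _
        exact GK_fin _ hn (hL i) b s j
    · intro t
      rw [Fin.sum_univ_succ, Fin.cons_zero]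
      simp only [Fin.cons_succ]
      rw [GK_hf_add hJ x t, ← hf_resI_pf R hHK hmK, ← h3]

end GKb

section GKc

variable (𝔽 : Type w) [Field 𝔽] {n : ℕ} (R : Type u) [CommRing R] [Algebra (PolyA 𝔽 n) R]
  [IsLocalRing R] [IsNoetherianRing R]

theorem pieces_pf (hy : yR 𝔽 R (0 : Fin (n + 1)) * yR 𝔽 R (Fin.last n) ∈ nonZeroDivisors R)
    (hfin : Module.length R (R ⧸ yI 𝔽 n R) ≠ ⊤) (hmax : yI 𝔽 n R ≤ maximalIdeal R) (hn : 1 ≤ n) :
    ∃ (r : ℕ) (L : Fin r → Ideal (Pz (ResidueField R) n)), (∀ i, HI (ResidueField R) (L i)) ∧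
      (∀ (b : Fin n → ℤ) (s j : ℤ), sl (CR 𝔽 R b) s j ≤ ∑ i, Hz (ResidueField R) (L i) ⊤ b s j) ∧
      (∀ (b : Fin n → ℤ) (s : ℤ),
        slEul (CR 𝔽 R b) n s = ∑ i, chz (ResidueField R) (L i) ⊤ b s) ∧
      (∀ t : ℕ, rlen (yI 𝔽 n R ^ (t + 1)) (yI 𝔽 n R ^ t) = ∑ i, hf (ResidueField R) (L i) t) := by
  obtain ⟨N, hN⟩ := GK_pow (yI 𝔽 n R) hfin
  have h0 : maximalIdeal R ^ N ≤ (Igr 𝔽 R (n := n)).comap MvPolynomial.C := by
    intro x hx
    refine Ideal.subset_span ⟨0, MvPolynomial.isHomogeneous_C _ _, ?_⟩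
    show evY 𝔽 R (MvPolynomial.C x) ∈ yI 𝔽 n R ^ (0 + 1)
    unfold evY
    rw [MvPolynomial.aeval_C, zero_add, pow_one]
    exact hN hx
  obtain ⟨r, L, hL, h1, h2, h3⟩ := GK_main hn N (Igr 𝔽 R (n := n)) (HI_Igr' 𝔽 R) h0
  refine ⟨r, L, hL, ?_, ?_, ?_⟩
  · intro b s j
    rw [sl_link_pf 𝔽 R hy]
    exact h1 b s j
  · intro b s
    rw [← h2 b s]
    unfold slEul chz
    refine Finset.sum_congr rfl fun j _ => ?_
    rw [sl_link_pf 𝔽 R hy]
  · intro t
    rw [← hf_link' 𝔽 R, h3]

end GKc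

end Vale.Agent.P202G
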