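import Vale.Agent.P202G.G0

/-!
# P202 stage 2, module GL1 (helper52): Hilbert functions
-/

set_option autoImplicit false

namespace Vale.Agent.P202G

open IsLocalRing TensorProduct Vale.Agent.P202C

universe u v w

section GLL
variable {n : ℕ} (κ : Type u) [Field κ]

theorem GL1_finite (t : ℕ) :
    Module.Finite κ (MvPolynomial.homogeneousSubmodule (Fin (n + 1)) κ t) :=
  Module.Finite.iff_fg.2 (MvPolynomial.homogeneousSubmodule_fg (Fin (n + 1)) κ t)

theorem GL1_deg {d : Fin (n + 1) →₀ ℕ} {t : ℕ} :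
    d ∈ (Finset.univ : Finset (Fin (n + 1))).finsuppAntidiag t ↔ d.degree = t := by
  rw [Finset.mem_finsuppAntidiag, Finsupp.degree_eq_sum]
  constructor
  · exact fun h => h.1
  · exact fun h => ⟨h, Finset.subset_univ _⟩

theorem GL1_finrank (t : ℕ) :
    Module.finrank κ (MvPolynomial.homogeneousSubmodule (Fin (n + 1)) κ t) = (t + n).choose n := by
  classical
  let v : {d // d ∈ (Finset.univ : Finset (Fin (n + 1))).finsuppAntidiag t} →
      MvPolynomial (Fin (n + 1)) κ := fun d => MvPolynomial.monomial d.1 1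
  have hv : LinearIndependent κ v := by
    have h := (MvPolynomial.basisMonomials (Fin (n + 1)) κ).linearIndependent
    have h2 := h.comp (fun d : {d // d ∈ (Finset.univ :
      Finset (Fin (n + 1))).finsuppAntidiag t} => d.1) Subtype.val_injective
    have h3 : (fun d : Fin (n + 1) →₀ ℕ => (MvPolynomial.basisMonomials (Fin (n + 1)) κ) d) =
        fun d => MvPolynomial.monomial d 1 := by
      funext d
      exact congrFun (MvPolynomial.coe_basisMonomials (Fin (n + 1)) κ) d
    have h4 : (⇑(MvPolynomial.basisMonomials (Fin (n + 1)) κ) ∘ fun d : {d // d ∈ (Finset.univ :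
      Finset (Fin (n + 1))).finsuppAntidiag t} => d.1) = v := by
      funext d
      exact congrFun h3 d.1
    rw [← h4]
    exact h2
  have hspan : Submodule.span κ (Set.range v) =
      MvPolynomial.homogeneousSubmodule (Fin (n + 1)) κ t := by
    apply le_antisymm
    · rw [Submodule.span_le]
      rintro _ ⟨d, rfl⟩
      rw [SetLike.mem_coe, MvPolynomial.mem_homogeneousSubmodule]
      exact MvPolynomial.isHomogeneous_monomial _ (GL1_deg.1 d.2)
    · intro p hp
      rw [MvPolynomial.mem_homogeneousSubmodule] at hp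
      rw [p.as_sum]
      refine Submodule.sum_mem _ fun d hd => ?_
      have hdeg : d.degree = t := by
        have := hp (MvPolynomial.mem_support_iff.1 hd)
        rw [← this, Finsupp.degree_eq_weight_one]
        rfl
      have e : MvPolynomial.monomial d (MvPolynomial.coeff d p) =
          MvPolynomial.coeff d p • v ⟨d, GL1_deg.2 hdeg⟩ := by
        simp [v, MvPolynomial.smul_monomial]
      rw [e]
      exact Submodule.smul_mem _ _ (Submodule.subset_span ⟨_, rfl⟩)
  rw [← hspan, finrank_span_eq_card hv, Fintype.card_coe,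
    Finset.card_finsuppAntidiag_nat_eq_choose]
  simp only [Finset.card_univ, Fintype.card_fin]
  have e1 : n + 1 + t - 1 = t + n := by omega
  rw [e1]
  conv_lhs => rw [show t = t + n - n by omega]
  rw [show t + n - n + n = t + n by omega]
  exact Nat.choose_symm (by omega)

theorem hf_bot_pf (t : ℕ) : hf κ (⊥ : Ideal (Pz κ n)) t = ((t + n).choose n : ℕ) := by
  haveI := GL1_finite (n := n) κ t
  unfold hf rlen
  have h1 : Submodule.submoduleOf ((⊥ : Ideal (Pz κ n)).restrictScalars κ)
      (MvPolynomial.homogeneousSubmodule (Fin (n + 1)) κ t) = ⊥ := by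
    rw [Submodule.restrictScalars_bot]
    unfold Submodule.submoduleOf
    rw [← LinearMap.ker, Submodule.ker_subtype]
  rw [(Submodule.quotEquivOfEqBot _ h1).length_eq, Module.length_eq_finrank, GL1_finrank]

theorem GL1_choose (m t δ : ℕ) (h : δ ≤ t) :
    (t + (m + 1)).choose (m + 1) ≤ (t - δ + (m + 1)).choose (m + 1) + δ * (t + m).choose m := by
  induction δ with
  | zero => simp
  | succ δ ih =>
    have h1 := ih (by omega)
    obtain ⟨s, hs⟩ : ∃ s, t - δ = s + 1 := ⟨t - δ - 1, by omega⟩
    have h2 : t - (δ + 1) = s := by omega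
    rw [hs] at h1
    rw [h2]
    have h3 : (s + 1 + (m + 1)).choose (m + 1) =
        (s + (m + 1)).choose m + (s + (m + 1)).choose (m + 1) := by
      rw [show s + 1 + (m + 1) = (s + (m + 1)) + 1 by ring, Nat.choose_succ_succ]
    have h4 : (s + (m + 1)).choose m ≤ (t + m).choose m := Nat.choose_le_choose m (by omega)
    rw [h3] at h1
    calc _ ≤ _ := h1
      _ ≤ (t + m).choose m + (s + (m + 1)).choose (m + 1) + δ * (t + m).choose m := by omega
      _ = _ := by ring

theorem GL1_homog {I : Ideal (Pz κ n)} (hI : HI κ I) (hI0 : I ≠ ⊥) :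
    ∃ (δ : ℕ) (f : Pz κ n), f ∈ I ∧ f ≠ 0 ∧ f.IsHomogeneous δ := by
  obtain ⟨g, hg, hg0⟩ := (Submodule.ne_bot_iff I).1 hI0
  by_contra hcon
  push Not at hcon
  apply hg0
  rw [← MvPolynomial.sum_homogeneousComponent g]
  refine Finset.sum_eq_zero fun j _ => ?_
  by_contra hne
  exact hcon j _ (hI g hg j) hne (MvPolynomial.homogeneousComponent_isHomogeneous j g)

theorem hf_bound_pf (hn : 1 ≤ n) {I : Ideal (Pz κ n)} (hI : HI κ I) (hI0 : I ≠ ⊥) :
    ∃ C : ℕ, ∀ t : ℕ, hf κ I t ≤ ((C * (t + 1) ^ (n - 1) : ℕ) : ℕ∞) := by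
  obtain ⟨m, rfl⟩ : ∃ m, n = m + 1 := ⟨n - 1, by omega⟩
  obtain ⟨δ, f, hfI, hf0, hfδ⟩ := GL1_homog κ hI hI0
  refine ⟨(δ + (m + 1)).choose (m + 1) + δ * (m + 1) ^ m, fun t => ?_⟩
  haveI := GL1_finite (n := m + 1) κ t
  set P := MvPolynomial.homogeneousSubmodule (Fin (m + 1 + 1)) κ t with hP
  set N : Submodule κ P := Submodule.submoduleOf (I.restrictScalars κ) P with hN
  have hlen : hf κ I t = ((Module.finrank κ (P ⧸ N) : ℕ) : ℕ∞) := by
    unfold hf rlen
    rw [Module.length_eq_finrank]
  have hadd := Submodule.finrank_quotient_add_finrank N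
  have hPr : Module.finrank κ P = (t + (m + 1)).choose (m + 1) := GL1_finrank κ t
  have hm1 : m + 1 - 1 = m := by omega
  have hpow : 1 ≤ (t + 1) ^ m := Nat.one_le_pow _ _ (by omega)
  rw [hlen, hm1]
  norm_cast
  rcases Nat.lt_or_ge t δ with h | h
  · calc Module.finrank κ (P ⧸ N) ≤ (t + (m + 1)).choose (m + 1) := by omega
      _ ≤ (δ + (m + 1)).choose (m + 1) := Nat.choose_le_choose _ (by omega)
      _ ≤ ((δ + (m + 1)).choose (m + 1) + δ * (m + 1) ^ m) * 1 := by omega
      _ ≤ ((δ + (m + 1)).choose (m + 1) + δ * (m + 1) ^ m) * (t + 1) ^ m :=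
          Nat.mul_le_mul_left _ hpow
  · -- multiplication by `f`
    have hmem : ∀ p : MvPolynomial.homogeneousSubmodule (Fin (m + 1 + 1)) κ (t - δ),
        f * p.1 ∈ P := by
      intro p
      rw [hP, MvPolynomial.mem_homogeneousSubmodule]
      have := hfδ.mul ((MvPolynomial.mem_homogeneousSubmodule _ _).1 p.2)
      rwa [show δ + (t - δ) = t by omega] at this
    let μ : MvPolynomial.homogeneousSubmodule (Fin (m + 1 + 1)) κ (t - δ) →ₗ[κ] P :=
      LinearMap.codRestrict P ((LinearMap.mulLeft κ f).comp (Submodule.subtype _)) hmem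
    have hμN : LinearMap.range μ ≤ N := by
      rintro _ ⟨p, rfl⟩
      show f * p.1 ∈ I
      exact I.mul_mem_right _ hfI
    have hμi : Function.Injective μ := by
      intro p q hpq
      have h1 : f * p.1 = f * q.1 := congrArg Subtype.val hpq
      exact Subtype.ext (mul_left_cancel₀ hf0 h1)
    have h1 : (t - δ + (m + 1)).choose (m + 1) ≤ Module.finrank κ N := by
      rw [← GL1_finrank (n := m + 1) κ (t - δ)]
      rw [← LinearMap.finrank_range_of_inj hμi]
      exact Submodule.finrank_mono hμN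
    have h2 := GL1_choose m t δ h
    have h3 : (t + m).choose m ≤ (m + 1) ^ m * (t + 1) ^ m := by
      rw [← mul_pow]
      refine (Nat.choose_le_pow (t + m) m).trans (Nat.pow_le_pow_left ?_ m)
      nlinarith
    calc Module.finrank κ (P ⧸ N) ≤ δ * (t + m).choose m := by omega
      _ ≤ δ * ((m + 1) ^ m * (t + 1) ^ m) := Nat.mul_le_mul_left _ h3
      _ = (δ * (m + 1) ^ m) * (t + 1) ^ m := by ring
      _ ≤ ((δ + (m + 1)).choose (m + 1) + δ * (m + 1) ^ m) * (t + 1) ^ m :=
          Nat.mul_le_mul_right _ (by omega)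

end GLL

end Vale.Agent.P202G
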