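import Vale.Agent.P202G.G0
import Vale.Agent.P202G.GResI
import Vale.Agent.P202.Def

/-!
# P202, stage 2 (general R): exact statements of all modules (stubs; helper40)

Every theorem here is to be proved with EXACTLY this statement, under the same name with suffix `'`
in its own file `Vale/Agent/P202G/<module>.lean` (import G0 and, while other modules are open, this
file).  See `notes/P202_stage2.md`.
-/

set_option autoImplicit false

namespace Vale.Agent.P202G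

open IsLocalRing TensorProduct Vale.Agent.P202C Vale.Agent.P202

universe u v w

/-! ### GA: basic facts -/
section GA
variable (k : Type u) [CommRing k] {n : ℕ}

theorem IB_top (b : Fin n → ℤ) (τ : Fin n → Fin 3) (s : ℤ) : IB k ⊤ b τ s = Bs k b τ s := by
  sorry

theorem IB_bot (b : Fin n → ℤ) (τ : Fin n → Fin 3) (s : ℤ) :
    IB k (⊥ : Ideal (Pz k n)) b τ s = ⊥ := by
  sorry

theorem IB_mono {I J : Ideal (Pz k n)} (h : I ≤ J) (b : Fin n → ℤ) (τ : Fin n → Fin 3) (s : ℤ) :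
    IB k I b τ s ≤ IB k J b τ s := by
  sorry

/-- adding one homogeneous generator -/
theorem IB_sup_span {I : Ideal (Pz k n)} (hI : HI k I) {g : Pz k n} {c : ℕ}
    (hg : g.IsHomogeneous c) (b : Fin n → ℤ) (τ : Fin n → Fin 3) (s : ℤ) :
    IB k (I ⊔ Ideal.span {g}) b τ s =
      IB k I b τ s ⊔ (Bs k b τ (s - c)).map (LinearMap.mulLeft k (tL k n g)) := by
  sorry

theorem HI_sup_span {I : Ideal (Pz k n)} (hI : HI k I) {g : Pz k n} {c : ℕ}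
    (hg : g.IsHomogeneous c) : HI k (I ⊔ Ideal.span {g}) := by
  sorry

theorem HI_Ic {I : Ideal (Pz k n)} (hI : HI k I) {g : Pz k n} {c : ℕ}
    (hg : g.IsHomogeneous c) : HI k (Ic k I g) := by
  sorry

theorem dz_dz (x : Xz k n) : dz k (dz k x) = 0 := by
  sorry

theorem dz_grz (j : ℤ) {x : Xz k n} (hx : x ∈ grz k j) : dz k x ∈ grz k (j + 1) := by
  sorry

theorem dz_FB (I : Ideal (Pz k n)) (b : Fin n → ℤ) (s : ℤ) {x : Xz k n} (hx : x ∈ FB k I b s) :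
    dz k x ∈ FB k I b s := by
  sorry

theorem Hz_out (I J : Ideal (Pz k n)) (b : Fin n → ℤ) (s j : ℤ) (hj : j < 0 ∨ (n : ℤ) < j) :
    Hz k I J b s j = 0 := by
  sorry

/-- long exact sequence inequalities (from HC.hl_AC_le, HC.hl_AB_le, HC.hl_BC_le) -/
theorem Hz_AC {I J K : Ideal (Pz k n)} (h1 : I ≤ J) (h2 : J ≤ K) (b : Fin n → ℤ) (s j : ℤ) :
    Hz k I K b s j ≤ Hz k I J b s j + Hz k J K b s j := by
  sorry

theorem Hz_BC {I J K : Ideal (Pz k n)} (h1 : I ≤ J) (h2 : J ≤ K) (b : Fin n → ℤ) (s j : ℤ) :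
    Hz k J K b s j ≤ Hz k I K b s j + Hz k I J b s (j + 1) := by
  sorry

theorem chz_add {I J K : Ideal (Pz k n)} (h1 : I ≤ J) (h2 : J ≤ K) (b : Fin n → ℤ) (s : ℤ)
    (f1 : ∀ j, Hz k I J b s j ≠ ⊤) (f2 : ∀ j, Hz k J K b s j ≠ ⊤) :
    chz k I K b s = chz k I J b s + chz k J K b s := by
  sorry

end GA

/-! ### GB: the free basis of `M*` (helper59) -/
section GB
variable (k : Type u) [CommRing k] {n : ℕ}

theorem Ms_exists (t : ℕ) {β : Lz k n} (hβ : β ∈ Ms k n t) :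
    ∃ φ : Ga n → Pz k n, (∀ g, (φ g).IsHomogeneous t) ∧ β = ∑ g, tL k n (φ g) * gm k g := by
  sorry

theorem Ms_unique (φ : Ga n → Pz k n) (h : ∑ g, tL k n (φ g) * gm k g = 0) : ∀ g, φ g = 0 := by
  sorry

end GB

/-! ### GC: shifting into `M*`, and the colon property -/
section GC
variable (k : Type u) [CommRing k] {n : ℕ}

/-- `w = (μ, m)`, `μ l = m + l - b l` (τ l = 0), `0` (τ l = 1), `⌊m/2⌋` (τ l = 2), `m` large -/
theorem shift_Ms (b : Fin n → ℤ) (τ : Fin n → Fin 3) (S : Finset (Lz k n × ℤ))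
    (hS : ∀ p ∈ S, p.1 ∈ Bs k b τ p.2) :
    ∃ w : (Fin n → ℤ) × ℤ, 0 ≤ w.2 ∧
      (∀ p ∈ S, 0 ≤ p.2 + w.2 ∧
        AddMonoidAlgebra.single w (1 : k) * p.1 ∈ Ms k n (p.2 + w.2)) ∧
      (∀ t : ℤ, ∀ x ∈ Ms k n t, AddMonoidAlgebra.single (-w) (1 : k) * x ∈ Bs k b τ (t - w.2)) := by
  sorry

/-- **colon property** -/
theorem colon_IB {I : Ideal (Pz k n)} (hI : HI k I) {g : Pz k n} {c : ℕ}
    (hg : g.IsHomogeneous c) (b : Fin n → ℤ) (τ : Fin n → Fin 3) (s : ℤ) {β : Lz k n}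
    (hβ : β ∈ Bs k b τ s) (h : tL k n g * β ∈ IB k I b τ (s + c)) : β ∈ IB k (Ic k I g) b τ s := by
  sorry

/-- **colon isomorphism** -/
theorem Hz_colon {I : Ideal (Pz k n)} (hI : HI k I) {g : Pz k n} {c : ℕ}
    (hg : g.IsHomogeneous c) (b : Fin n → ℤ) (s j : ℤ) :
    Hz k I (I ⊔ Ideal.span {g}) b s j = Hz k (Ic k I g) ⊤ b (s - c) j := by
  sorry

end GC

/-! ### GD: chains of homogeneous ideals -/
section GD
variable (k : Type u) [CommRing k] [IsNoetherianRing k] {n : ℕ}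

theorem exists_chain {I K : Ideal (Pz k n)} (hI : HI k I) (hK : HI k K) (hIK : I ≤ K) :
    ∃ (r : ℕ) (J : ℕ → Ideal (Pz k n)) (g : ℕ → Pz k n) (c : ℕ → ℕ), J 0 = I ∧ J r = K ∧
      (∀ i, HI k (J i)) ∧ (∀ i, I ≤ J i) ∧ (∀ i, J i ≤ K) ∧
      ∀ i, i < r → g i ∈ K ∧ (g i).IsHomogeneous (c i) ∧ J (i + 1) = J i ⊔ Ideal.span {g i} := by
  sorry

/-- the colon pieces bound the cohomology -/
theorem Hz_chain {I K : Ideal (Pz k n)} (hI : HI k I) (hK : HI k K) (hIK : I ≤ K) :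
    ∃ (r : ℕ) (L : Fin r → Ideal (Pz k n)) (c : Fin r → ℕ), (∀ i, HI k (L i)) ∧
      (∀ i, I ≤ L i) ∧ ∀ (b : Fin n → ℤ) (s j : ℤ),
        Hz k I K b s j ≤ ∑ i, Hz k (L i) ⊤ b (s - c i) j := by
  sorry

end GD

/-! ### GE: cohomology of the structure sheaf -/
section GE
variable {n : ℕ}

/-- any base ring: vanishing above the number of negative factors -/
theorem Hz_top_high (k : Type u) [CommRing k] (b : Fin n → ℤ) (s j : ℤ)
    (hj : (negc b s : ℤ) < j) : Hz k ⊥ ⊤ b s j = 0 := by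
  sorry

variable (κ : Type u) [Field κ]

theorem Hz_top_zero (b : Fin n → ℤ) (s j : ℤ) (hj : j ≠ negc b s) : Hz κ ⊥ ⊤ b s j = 0 := by
  sorry

theorem Hz_top_eq (b : Fin n → ℤ) (s : ℤ) :
    Hz κ ⊥ ⊤ b s (negc b s) = ((∏ l, (b l + s + 1).natAbs : ℕ) : ℕ∞) := by
  sorry

theorem chz_top (b : Fin n → ℤ) (s : ℤ) : chz κ ⊥ ⊤ b s = ∏ l, (b l + s + 1) := by
  sorry

end GE

/-! ### GF: one form (rank of multiplication by `f` on the monomial basis) -/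
section GF
variable {n : ℕ} (κ : Type u) [Field κ]

theorem form_bound (hn : 1 ≤ n) {f : Pz κ n} {δ : ℕ} (hf : f.IsHomogeneous δ) (hf0 : f ≠ 0) :
    ∃ C : ℕ, ∀ (b : Fin n → ℤ) (s j : ℤ),
      Hz κ (Ideal.span {f}) ⊤ b s j ≤ ((C * Nz b s ^ (n - 1) : ℕ) : ℕ∞) := by
  sorry

end GF

/-! ### GG: nonzero ideals (descending induction on `j`) -/
section GG
variable {n : ℕ} (κ : Type u) [Field κ]

theorem ideal_bound (hn : 1 ≤ n) {I : Ideal (Pz κ n)} (hI : HI κ I) (hI0 : I ≠ ⊥) :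
    ∃ C : ℕ, ∀ (b : Fin n → ℤ) (s j : ℤ),
      Hz κ I ⊤ b s j ≤ ((C * Nz b s ^ (n - 1) : ℕ) : ℕ∞) := by
  sorry

end GG

/-! ### GH: vanishing (descending induction on `j`) -/
section GH
variable (k : Type u) [CommRing k] [IsNoetherianRing k] {n : ℕ}

theorem vanish {I : Ideal (Pz k n)} (hI : HI k I) :
    ∃ c : ℤ, ∀ (b : Fin n → ℤ) (s : ℤ), (∀ l, c ≤ b l + s) → ∀ j : ℤ, 1 ≤ j →
      Hz k I ⊤ b s j = 0 ∧ Hz k ⊥ I b s j = 0 := by
  sorry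

end GH

/-! ### GI: passage to the residue field -/
section GI
variable (R : Type u) [CommRing R] [IsLocalRing R] {n : ℕ}

theorem HI_resI {I : Ideal (Pz R n)} (hI : HI R I) : HI (ResidueField R) (resI R I) := by
  sorry

theorem Hz_resI {I : Ideal (Pz R n)} (hI : HI R I)
    (hm : ∀ r ∈ maximalIdeal R, MvPolynomial.C r ∈ I) (b : Fin n → ℤ) (s j : ℤ) :
    Hz R I ⊤ b s j = Hz (ResidueField R) (resI R I) ⊤ b s j := by
  sorry

theorem hf_resI {I : Ideal (Pz R n)} (hI : HI R I)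
    (hm : ∀ r ∈ maximalIdeal R, MvPolynomial.C r ∈ I) (t : ℕ) :
    hf R I t = hf (ResidueField R) (resI R I) t := by
  sorry

end GI

/-! ### GJ: the link with `CR` -/
section GJ
variable (𝔽 : Type w) [Field 𝔽] {n : ℕ} (R : Type u) [CommRing R] [Algebra (PolyA 𝔽 n) R]

theorem HI_Irs : HI R (Irs 𝔽 R (n := n)) := by
  sorry

theorem HI_Igr : HI R (Igr 𝔽 R (n := n)) := by
  sorry

/-- slices of `CR` -/
theorem sl_link (hy : yR 𝔽 R (0 : Fin (n + 1)) * yR 𝔽 R (Fin.last n) ∈ nonZeroDivisors R)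
    (b : Fin n → ℤ) (s j : ℤ) : sl (CR 𝔽 R b) s j = Hz R (Igr 𝔽 R) ⊤ b s j := by
  sorry

/-- exactness of `CR` -/
theorem exact_link (hy : yR 𝔽 R (0 : Fin (n + 1)) * yR 𝔽 R (Fin.last n) ∈ nonZeroDivisors R)
    (b : Fin n → ℤ) (s j : ℤ) (h : Hz R (Irs 𝔽 R) ⊤ b s j = 0) :
    ∀ x ∈ (CR 𝔽 R b).gr j ⊓ (CR 𝔽 R b).F s, (CR 𝔽 R b).d x = 0 →
      ∃ w ∈ (CR 𝔽 R b).gr (j - 1) ⊓ (CR 𝔽 R b).F s, (CR 𝔽 R b).d w = x := by
  sorry

/-- global sections of `CR` come from `A` -/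
theorem M0_link (hy : yR 𝔽 R (0 : Fin (n + 1)) * yR 𝔽 R (Fin.last n) ∈ nonZeroDivisors R)
    (b : Fin n → ℤ) (h : Hz R ⊥ (Irs 𝔽 R) b 0 1 = 0) :
    MI.M0 (CR 𝔽 R b) = (MI.M0 (CA 𝔽 b)).baseChange R := by
  sorry

/-- degree `t` part of `gr` -/
theorem hf_link (t : ℕ) :
    hf R (Igr 𝔽 R (n := n)) t = rlen (yI 𝔽 n R ^ (t + 1)) (yI 𝔽 n R ^ t) := by
  sorry

end GJ

/-! ### GK: the pieces over the residue field -/
section GK
variable (𝔽 : Type w) [Field 𝔽] {n : ℕ} (R : Type u) [CommRing R] [Algebra (PolyA 𝔽 n) R]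
  [IsLocalRing R] [IsNoetherianRing R]

theorem pieces (hy : yR 𝔽 R (0 : Fin (n + 1)) * yR 𝔽 R (Fin.last n) ∈ nonZeroDivisors R)
    (hfin : Module.length R (R ⧸ yI 𝔽 n R) ≠ ⊤) (hmax : yI 𝔽 n R ≤ maximalIdeal R) (hn : 1 ≤ n) :
    ∃ (r : ℕ) (L : Fin r → Ideal (Pz (ResidueField R) n)), (∀ i, HI (ResidueField R) (L i)) ∧
      (∀ (b : Fin n → ℤ) (s j : ℤ), sl (CR 𝔽 R b) s j ≤ ∑ i, Hz (ResidueField R) (L i) ⊤ b s j) ∧
      (∀ (b : Fin n → ℤ) (s : ℤ),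
        slEul (CR 𝔽 R b) n s = ∑ i, chz (ResidueField R) (L i) ⊤ b s) ∧
      (∀ t : ℕ, rlen (yI 𝔽 n R ^ (t + 1)) (yI 𝔽 n R ^ t) = ∑ i, hf (ResidueField R) (L i) t) := by
  sorry

end GK

/-! ### GL: Hilbert functions and the multiplicity -/
section GLL
variable {n : ℕ} (κ : Type u) [Field κ]

theorem hf_bot (t : ℕ) : hf κ (⊥ : Ideal (Pz κ n)) t = ((t + n).choose n : ℕ) := by
  sorry

theorem hf_bound (hn : 1 ≤ n) {I : Ideal (Pz κ n)} (hI : HI κ I) (hI0 : I ≠ ⊥) :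
    ∃ C : ℕ, ∀ t : ℕ, hf κ I t ≤ ((C * (t + 1) ^ (n - 1) : ℕ) : ℕ∞) := by
  sorry

/-- multiplicity from the pieces -/
theorem mult_pieces (R : Type u) [CommRing R] [IsLocalRing R] [IsNoetherianRing R] (hn : 1 ≤ n)
    (hD : ringKrullDim R = ((n + 1 : ℕ) : WithBot ℕ∞)) (I : Ideal R) (c : ℕ) (hI : I ≤ maximalIdeal R)
    (hc : ∀ t : ℕ, maximalIdeal R ^ (t + c) ≤ I ^ t)
    (r : ℕ) (L : Fin r → Ideal (Pz (ResidueField R) n)) (hL : ∀ i, HI (ResidueField R) (L i))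
    (h : ∀ t : ℕ, rlen (I ^ (t + 1)) (I ^ t) = ∑ i, hf (ResidueField R) (L i) t) :
    HasMult R (((Finset.univ.filter (fun i => L i = ⊥)).card : ℕ) : ℝ) := by
  sorry

end GLL

/-! ### GM: global sections -/
section GM
variable (𝔽 : Type w) [Field 𝔽] {n : ℕ} (R : Type u) [CommRing R] [Algebra (PolyA 𝔽 n) R]

theorem M0_gen (hy : yR 𝔽 R (0 : Fin (n + 1)) * yR 𝔽 R (Fin.last n) ∈ nonZeroDivisors R)
    (b : Fin n → ℤ) (hb : ∀ l, 0 ≤ b l)
    (hM : MI.M0 (CR 𝔽 R b) = (MI.M0 (CA 𝔽 b)).baseChange R) :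
    Module.Finite R (MI.M0 (CR 𝔽 R b)) ∧
    ∃ (f : MI.M0 (CR 𝔽 R b) →ₗ[R] (Fin n.factorial → R)) (N : ℕ), Function.Injective f ∧
      ∀ v, yR 𝔽 R (0 : Fin (n + 1)) ^ N • v ∈ LinearMap.range f := by
  sorry

end GM

end Vale.Agent.P202G
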